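import Mathlib

/-! Affine plane over a finite field: points, directions, lines. -/

set_option linter.unusedSectionVars false

namespace Vale.Agent.P045

open Finset

abbrev Pt (F : Type) := F × F
abbrev Dir (F : Type) := Option F
/-- a line is a direction together with an intercept -/
abbrev Ln (F : Type) := Dir F × F

variable {F : Type} [Field F]

/-- intercept of the line of direction `d` through a point -/
def val : Dir F → Pt F → F
  | none, x => x.1
  | some m, x => x.2 - m * x.1

/-- incidence -/
def On (x : Pt F) (l : Ln F) : Prop := val l.1 x = l.2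

instance [DecidableEq F] (x : Pt F) (l : Ln F) : Decidable (On x l) :=
  inferInstanceAs (Decidable (val l.1 x = l.2))

lemma on_self (d : Dir F) (x : Pt F) : On x (d, val d x) := rfl

lemma On.eq {x : Pt F} {l : Ln F} (h : On x l) : l = (l.1, val l.1 x) := by
  cases l; simp only [On] at h; simp [h]

lemma eq_of_val {d e : Dir F} (hde : d ≠ e) {x y : Pt F} (h1 : val d x = val d y)
    (h2 : val e x = val e y) : x = y := by
  obtain ⟨x1, x2⟩ := x
  obtain ⟨y1, y2⟩ := y
  cases d with
  | none =>
    cases e with
    | none => exact absurd rfl hde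
    | some m =>
      simp only [val] at h1 h2
      subst h1
      simp only [Prod.mk.injEq, true_and]
      linear_combination h2
  | some m =>
    cases e with
    | none =>
      simp only [val] at h1 h2
      subst h2
      simp only [Prod.mk.injEq, true_and]
      linear_combination h1
    | some n =>
      simp only [val] at h1 h2
      have hmn : m - n ≠ 0 := fun h => hde (by rw [sub_eq_zero.mp h])
      have hx : x1 = y1 := by
        apply mul_left_cancel₀ hmn
        linear_combination h2 - h1
      subst hx
      simp only [Prod.mk.injEq, true_and]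
      linear_combination h1

lemma exists_dir (x y : Pt F) : ∃ d : Dir F, val d x = val d y := by
  by_cases h : x.1 = y.1
  · exact ⟨none, h⟩
  · refine ⟨some ((x.2 - y.2) / (x.1 - y.1)), ?_⟩
    have : x.1 - y.1 ≠ 0 := sub_ne_zero.mpr h
    simp only [val]
    field_simp
    ring

lemma dir_unique {x y : Pt F} (hxy : x ≠ y) {d e : Dir F} (h1 : val d x = val d y)
    (h2 : val e x = val e y) : d = e := by
  by_contra h
  exact hxy (eq_of_val h h1 h2)

/-- two distinct points lie on at most one line -/
lemma line_unique {x y : Pt F} (hxy : x ≠ y) {l l' : Ln F} (h1 : On x l) (h2 : On y l)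
    (h3 : On x l') (h4 : On y l') : l = l' := by
  have hd : l.1 = l'.1 := dir_unique hxy (h1.trans h2.symm) (h3.trans h4.symm)
  rw [h1.eq, h3.eq, hd]

/-- two distinct lines meet in at most one point -/
lemma point_unique {l l' : Ln F} (hl : l ≠ l') {x y : Pt F} (h1 : On x l) (h2 : On y l)
    (h3 : On x l') (h4 : On y l') : x = y := by
  by_contra h
  exact hl (line_unique h h1 h2 h3 h4)

lemma eq_of_same_dir {l l' : Ln F} (hd : l.1 = l'.1) {x : Pt F} (h1 : On x l) (h2 : On x l') :
    l = l' := by
  rw [h1.eq, h2.eq, hd]

lemma exists_inter {d e : Dir F} (hde : d ≠ e) (a b : F) :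
    ∃ x : Pt F, val d x = a ∧ val e x = b := by
  cases d with
  | none =>
    cases e with
    | none => exact absurd rfl hde
    | some m => exact ⟨(a, b + m * a), by simp [val], by simp [val]⟩
  | some m =>
    cases e with
    | none => exact ⟨(b, a + m * b), by simp [val], by simp [val]⟩
    | some n =>
      have hmn : n - m ≠ 0 := fun h => hde (by rw [sub_eq_zero.mp h])
      refine ⟨((a - b) / (n - m), a + m * ((a - b) / (n - m))), by simp [val], ?_⟩
      simp only [val]
      field_simp
      ring

variable [Fintype F] [DecidableEq F]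

/-- the points of a line -/
def pts (l : Ln F) : Finset (Pt F) := univ.filter fun x => On x l

@[simp] lemma mem_pts {l : Ln F} {x : Pt F} : x ∈ pts l ↔ On x l := by simp [pts]

lemma card_pts (l : Ln F) : (pts l).card = Fintype.card F := by
  obtain ⟨d, c⟩ := l
  cases d with
  | none =>
    rw [← Finset.card_univ]
    symm
    apply Finset.card_bij (fun y _ => (c, y))
    · intro y _; simp [On, val]
    · intro a _ b _ h; simpa using h
    · rintro ⟨x, y⟩ h
      simp only [mem_pts, On, val] at h
      exact ⟨y, mem_univ _, by simp [h]⟩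
  | some m =>
    rw [← Finset.card_univ]
    symm
    apply Finset.card_bij (fun x _ => (x, c + m * x))
    · intro y _; simp [On, val]
    · intro a _ b _ h; exact (Prod.mk.inj h).1
    · rintro ⟨x, y⟩ h
      simp only [mem_pts, On, val] at h
      exact ⟨x, mem_univ _, by simp [← h]⟩

lemma card_inter_le_one {l l' : Ln F} (hl : l ≠ l') (P : Finset (Pt F)) (hP : ∀ x ∈ P, On x l) :
    (P.filter fun x => On x l').card ≤ 1 := by
  rw [Finset.card_le_one]
  intro x hx y hy
  rw [mem_filter] at hx hy
  exact point_unique hl (hP x hx.1) (hP y hy.1) hx.2 hy.2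

lemma card_Pt : Fintype.card (Pt F) = Fintype.card F ^ 2 := by simp [sq]
lemma card_Dir : Fintype.card (Dir F) = Fintype.card F + 1 := by simp
lemma card_Ln : Fintype.card (Ln F) = (Fintype.card F + 1) * Fintype.card F := by simp

/-- points lying on no line of `C` -/
def unc (C : Finset (Ln F)) : Finset (Pt F) := univ.filter fun x => ∀ l ∈ C, ¬ On x l

@[simp] lemma mem_unc {C : Finset (Ln F)} {x : Pt F} : x ∈ unc C ↔ ∀ l ∈ C, ¬ On x l := by
  simp [unc]

/-- intersection points of the lines of `T` with the sampled lines -/
def Pset {m : ℕ} (T : Finset (Ln F)) (c : Fin m → Ln F) : Finset (Pt F) :=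
  univ.filter fun x => ∃ l ∈ T, ∃ j, On x l ∧ On x (c j) ∧ c j ≠ l

/-- a line with at least two points of `P` -/
def Rich (P : Finset (Pt F)) (l : Ln F) : Prop := 2 ≤ (P.filter fun x => On x l).card

instance (P : Finset (Pt F)) (l : Ln F) : Decidable (Rich P l) :=
  inferInstanceAs (Decidable (2 ≤ _))

/-- points of `P` on some line of `S` but on no rich line of `S` -/
def Kset (S : Finset (Ln F)) (P : Finset (Pt F)) : Finset (Pt F) :=
  P.filter fun x => (∃ l ∈ S, On x l) ∧ ∀ l ∈ S, On x l → ¬ Rich P l

end Vale.Agent.P045
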