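import Vale.Agent.P045.Defs
import Vale.Agent.P045.Geom

/-! From a configuration of sparse lines, cells, colours and merged pairs of lines
to an intersecting hypergraph with large covering number. -/

set_option linter.unusedSectionVars false

namespace Vale.Agent.P045

open Finset

variable {F : Type} [Field F] [Fintype F] [DecidableEq F]

structure Cfg (F : Type) where
  Sp : Finset (Ln F)
  Cell : Finset (Pt F)
  col : Pt F → Bool
  M : Finset (Dir F × F × F)

abbrev Vx (F : Type) := Dir F × F × Option Bool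

namespace Cfg

variable (c : Cfg F)

/-- the merged pairs form a matching in every direction -/
def Matching : Prop :=
  ∀ d a b a' b', (d, a, b) ∈ c.M → (d, a', b') ∈ c.M →
    a ≠ b' ∧ (a = a' ↔ b = b')

noncomputable def rep (d : Dir F) (b : F) : F :=
  if h : ∃ a, (d, a, b) ∈ c.M then h.choose else b

def lnk (e : Dir F) (x y : Pt F) : Prop :=
  val e x = val e y ∨ (e, val e x, val e y) ∈ c.M ∨ (e, val e y, val e x) ∈ c.M

noncomputable def lab (d : Dir F) (x : Pt F) : F × Option Bool :=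
  if (d, val d x) ∈ c.Sp then (val d x, some (c.col x)) else (c.rep d (val d x), none)

def cov (v : Vx F) (x : Pt F) : Prop := c.lab v.1 x = v.2

def X : Finset (Pt F) := unc c.Sp ∪ c.Cell

variable {c}

lemma rep_of_mem (hM : c.Matching) {d : Dir F} {a b : F} (h : (d, a, b) ∈ c.M) :
    c.rep d b = a ∧ c.rep d a = a := by
  constructor
  · have h' : ∃ a, (d, a, b) ∈ c.M := ⟨a, h⟩
    rw [rep, dif_pos h']
    exact (hM d _ b a b h'.choose_spec h).2.mpr rfl
  · rw [rep, dif_neg]
    rintro ⟨a', h'⟩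
    exact (hM d a b a' a h h').1 rfl

lemma rep_eq_iff (hM : c.Matching) {d : Dir F} {a b : F} :
    c.rep d a = c.rep d b ↔ a = b ∨ (d, a, b) ∈ c.M ∨ (d, b, a) ∈ c.M := by
  constructor
  · intro h
    by_cases ha : ∃ a', (d, a', a) ∈ c.M
    · obtain ⟨a', ha'⟩ := ha
      by_cases hb : ∃ b', (d, b', b) ∈ c.M
      · obtain ⟨b', hb'⟩ := hb
        rw [(rep_of_mem hM ha').1, (rep_of_mem hM hb').1] at h
        exact Or.inl ((hM d a' a b' b ha' hb').2.mp h)
      · rw [(rep_of_mem hM ha').1, rep, dif_neg hb] at h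
        exact Or.inr (Or.inr (h ▸ ha'))
    · by_cases hb : ∃ b', (d, b', b) ∈ c.M
      · obtain ⟨b', hb'⟩ := hb
        rw [(rep_of_mem hM hb').1, rep, dif_neg ha] at h
        exact Or.inr (Or.inl (h ▸ hb'))
      · rw [rep, dif_neg ha, rep, dif_neg hb] at h
        exact Or.inl h
  · rintro (rfl | h | h)
    · rfl
    · rw [(rep_of_mem hM h).1, (rep_of_mem hM h).2]
    · rw [(rep_of_mem hM h).1, (rep_of_mem hM h).2]

lemma cov_cases (hM : c.Matching) {v : Vx F} {x y : Pt F} (hx : c.cov v x) (hy : c.cov v y) :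
    ((v.1, val v.1 x) ∈ c.Sp ∧ val v.1 x = val v.1 y ∧ c.col x = c.col y) ∨
    ((v.1, val v.1 x) ∉ c.Sp ∧ (v.1, val v.1 y) ∉ c.Sp ∧ c.lnk v.1 x y) := by
  have h : c.lab v.1 x = c.lab v.1 y := hx.trans hy.symm
  unfold lab at h
  split_ifs at h with h1 h2 h2
  · left
    simp only [Prod.mk.injEq, Option.some.injEq] at h
    exact ⟨h1, h.1, h.2⟩
  · simp at h
  · simp at h
  · right
    simp only [Prod.mk.injEq, and_true] at h
    exact ⟨h1, h2, (rep_eq_iff hM).mp h⟩

lemma cov_colour {v : Vx F} {x : Pt F} (hx : c.cov v x) (h : (v.1, val v.1 x) ∈ c.Sp) :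
    v = (v.1, val v.1 x, some (c.col x)) := by
  have h' : c.lab v.1 x = v.2 := hx
  rw [lab, if_pos h] at h'
  rw [h']

lemma intersect (hM : c.Matching)
    (H1 : ∀ x ∈ c.Cell, ∀ l ∈ c.Sp, ∀ l' ∈ c.Sp, On x l → On x l' → l = l')
    (I1 : ∀ l ∈ c.Sp, ∀ x ∈ c.Cell, ∀ y ∈ c.Cell, On x l → On y l → c.col x ≠ c.col y →
      ∃ e, e ≠ l.1 ∧ c.lnk e x y)
    {x y : Pt F} (hx : x ∈ c.X) (hy : y ∈ c.X) : ∃ d, c.lab d x = c.lab d y := by
  obtain ⟨d, hd⟩ := exists_dir x y
  by_cases hs : (d, val d x) ∈ c.Sp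
  · have hxl : On x (d, val d x) := rfl
    have hyl : On y (d, val d x) := hd.symm
    have hxc : x ∈ c.Cell := by
      rcases mem_union.mp hx with h | h
      · exact absurd hxl (mem_unc.mp h _ hs)
      · exact h
    have hyc : y ∈ c.Cell := by
      rcases mem_union.mp hy with h | h
      · exact absurd hyl (mem_unc.mp h _ hs)
      · exact h
    by_cases hc : c.col x = c.col y
    · exact ⟨d, by rw [lab, lab, ← hd, if_pos hs, if_pos hs, hc]⟩
    · obtain ⟨e, he, hl⟩ := I1 _ hs x hxc y hyc hxl hyl hc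
      refine ⟨e, ?_⟩
      have h1 : (e, val e x) ∉ c.Sp := fun h =>
        he (congrArg Prod.fst (H1 x hxc _ h _ hs rfl hxl))
      have h2 : (e, val e y) ∉ c.Sp := fun h =>
        he (congrArg Prod.fst (H1 y hyc _ h _ hs rfl hyl))
      rw [lab, lab, if_neg h1, if_neg h2, (rep_eq_iff hM).mpr hl]
  · exact ⟨d, by rw [lab, lab, ← hd, if_neg hs, if_neg hs]⟩

lemma card_lines_le (W : Finset (Vx F)) :
    (univ.filter fun l : Ln F => l ∉ c.Sp ∧ (l.1, c.rep l.1 l.2, none) ∈ W).card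
      ≤ W.card + c.M.card := by
  have h : (univ.filter fun l : Ln F => l ∉ c.Sp ∧ (l.1, c.rep l.1 l.2, none) ∈ W)
      ⊆ W.image (fun v => (v.1, v.2.1)) ∪ c.M.image (fun t => (t.1, t.2.2)) := by
    intro l hl
    obtain ⟨-, hW⟩ := (mem_filter.mp hl).2
    by_cases hm : ∃ a, (l.1, a, l.2) ∈ c.M
    · obtain ⟨a, ha⟩ := hm
      exact mem_union_right _ (mem_image.mpr ⟨_, ha, rfl⟩)
    · rw [rep, dif_neg hm] at hW
      exact mem_union_left _ (mem_image.mpr ⟨_, hW, rfl⟩)
  exact (card_le_card h).trans ((card_union_le _ _).trans (add_le_add card_image_le card_image_le))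

theorem cover_bound (hM : c.Matching)
    (H1 : ∀ x ∈ c.Cell, ∀ l ∈ c.Sp, ∀ l' ∈ c.Sp, On x l → On x l' → l = l')
    (R0 : ∀ C : Finset (Ln F), C.card ≤ Fintype.card F + c.M.card → (∀ l ∈ C, l ∉ c.Sp) →
      (∀ x ∈ unc c.Sp, ∃ l ∈ C, On x l) →
      (∃ z, ∀ d, (d, val d z) ∉ c.Sp → (d, val d z) ∈ C) ∨
      (∃ d, ∀ a, (d, a) ∉ c.Sp → (d, a) ∈ C))
    (A0 : ∀ x ∈ c.Cell, ∃ l ∈ c.Sp, On x l ∧ ∃ y ∈ c.Cell, On y l ∧ ∀ e, e ≠ l.1 → ¬ c.lnk e x y)
    (A1 : ∀ x ∈ c.Cell, ∀ l ∈ c.Sp, On x l → ∀ z, On z l → ∀ e, e ≠ l.1 → c.lnk e z x →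
      z ∈ c.Cell)
    (A2 : ∀ z, ∀ W : Finset (Vx F),
      (∀ x ∈ c.Cell, ∀ l ∈ c.Sp, On z l → On x l → ∃ v ∈ W, c.cov v x) →
      (c.Sp.filter fun l => On z l).card ≤ W.card)
    (B : ∀ d, ∀ W : Finset (Vx F), (∀ x ∈ c.Cell, (d, val d x) ∈ c.Sp → ∃ v ∈ W, c.cov v x) →
      (c.Sp.filter fun l => l.1 = d).card + (c.M.filter fun t => t.1 = d).card + 1 ≤ W.card)
    (W : Finset (Vx F)) (hW : ∀ x ∈ c.X, ∃ v ∈ W, c.cov v x) :
    Fintype.card F + 1 ≤ W.card := by
  classical
  by_contra hlt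
  have hq : W.card ≤ Fintype.card F := by omega
  have hCell : ∀ x ∈ c.Cell, ∃ v ∈ W, c.cov v x := fun x hx => hW x (mem_union_right _ hx)
  rcases R0 (univ.filter fun l : Ln F => l ∉ c.Sp ∧ (l.1, c.rep l.1 l.2, none) ∈ W)
    ((card_lines_le W).trans (by omega)) (fun l hl => (mem_filter.mp hl).2.1) (by
      intro x hx
      obtain ⟨v, hv, hc⟩ := hW x (mem_union_left _ hx)
      have hn : (v.1, val v.1 x) ∉ c.Sp := fun h => mem_unc.mp hx _ h rfl
      refine ⟨(v.1, val v.1 x), mem_filter.mpr ⟨mem_univ _, hn, ?_⟩, rfl⟩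
      have h' : c.lab v.1 x = v.2 := hc
      rw [lab, if_neg hn] at h'
      simp only [h']
      exact hv) with ⟨z, hz⟩ | ⟨d, hd⟩
  · -- an affine pencil
    let Dz : Finset (Dir F) := univ.filter fun d => (d, val d z) ∉ c.Sp
    let Tz : Finset (Vx F) := Dz.image fun d => (d, c.rep d (val d z), none)
    have hTW : Tz ⊆ W := by
      intro v hv
      obtain ⟨d, hd, rfl⟩ := mem_image.mp hv
      exact (mem_filter.mp (hz d (mem_filter.mp hd).2)).2.2
    have hTc : Tz.card = Dz.card := card_image_of_injective _ (fun a b h => congrArg Prod.fst h)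
    have hs : Dz.card + (c.Sp.filter fun l => On z l).card = Fintype.card F + 1 := by
      rw [← card_Dir, ← card_univ, ← card_filter_add_card_filter_not
        (s := univ) (fun d : Dir F => (d, val d z) ∉ c.Sp)]
      congr 1
      symm
      apply card_bij (fun d _ => (d, val d z))
      · intro d hd
        simp only [mem_filter, mem_univ, true_and, not_not] at hd
        exact mem_filter.mpr ⟨hd, rfl⟩
      · intro a _ b _ h; exact congrArg Prod.fst h
      · intro l hl
        obtain ⟨h1, h2⟩ := mem_filter.mp hl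
        refine ⟨l.1, ?_, h2.eq.symm⟩
        simp only [mem_filter, mem_univ, true_and, not_not]
        rw [← h2.eq]; exact h1
    have hkey : ∀ x ∈ c.Cell, ∀ l ∈ c.Sp, On z l → On x l → ∀ v ∈ Tz, c.cov v x →
        ∃ e, e ≠ l.1 ∧ c.lnk e z x := by
      intro x hx l hl hzl hxl v hv hc
      obtain ⟨d, hd, rfl⟩ := mem_image.mp hv
      have hd' : (d, val d z) ∉ c.Sp := (mem_filter.mp hd).2
      have hcz : c.cov (d, c.rep d (val d z), none) z := by
        simp only [cov, lab, if_neg hd']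
      refine ⟨d, ?_, ?_⟩
      · rintro rfl
        exact hd' (hzl.eq ▸ hl)
      · rcases cov_cases hM hcz hc with h | h
        · exact absurd h.1 hd'
        · exact h.2.2
    have hsd := card_sdiff_add_card_eq_card hTW
    by_cases hzc : z ∈ c.Cell
    · obtain ⟨l, hl, hzl, y, hy, hyl, hn⟩ := A0 z hzc
      have h1 : (c.Sp.filter fun l => On z l).card ≤ 1 := by
        rw [card_le_one]
        intro a ha b hb
        exact H1 z hzc a (mem_filter.mp ha).1 b (mem_filter.mp hb).1 (mem_filter.mp ha).2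
          (mem_filter.mp hb).2
      obtain ⟨v, hv, hc⟩ := hCell y hy
      have hvT : v ∉ Tz := fun h => by
        obtain ⟨e, he, hl'⟩ := hkey y hy l hl hzl hyl v h hc
        exact hn e he hl'
      have : 0 < (W \ Tz).card := card_pos.mpr ⟨v, mem_sdiff.mpr ⟨hv, hvT⟩⟩
      omega
    · have := A2 z (W \ Tz) (by
        intro x hx l hl hzl hxl
        obtain ⟨v, hv, hc⟩ := hCell x hx
        refine ⟨v, mem_sdiff.mpr ⟨hv, fun h => ?_⟩, hc⟩
        obtain ⟨e, he, hl'⟩ := hkey x hx l hl hzl hxl v h hc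
        exact hzc (A1 x hx l hl hxl z hzl e he hl'))
      omega
  · -- a parallel class
    let Ad : Finset F := univ.filter fun a => (d, a) ∉ c.Sp ∧ ¬ ∃ a', (d, a', a) ∈ c.M
    let Td : Finset (Vx F) := Ad.image fun a => (d, a, none)
    have hTW : Td ⊆ W := by
      intro v hv
      obtain ⟨a, ha, rfl⟩ := mem_image.mp hv
      obtain ⟨h1, h2⟩ := (mem_filter.mp ha).2
      have := (mem_filter.mp (hd a h1)).2.2
      rwa [rep, dif_neg h2] at this
    have hTc : Td.card = Ad.card :=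
      card_image_of_injective _ (fun a b h => congrArg (fun v : Vx F => v.2.1) h)
    have hs : Fintype.card F ≤ Ad.card + (c.Sp.filter fun l => l.1 = d).card
        + (c.M.filter fun t => t.1 = d).card := by
      have : (univ : Finset F) ⊆ Ad ∪ (c.Sp.filter fun l => l.1 = d).image (fun l => l.2)
          ∪ (c.M.filter fun t => t.1 = d).image (fun t => t.2.2) := by
        intro a _
        by_cases h1 : (d, a) ∈ c.Sp
        · exact mem_union_left _ (mem_union_right _
            (mem_image.mpr ⟨(d, a), mem_filter.mpr ⟨h1, rfl⟩, rfl⟩))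
        · by_cases h2 : ∃ a', (d, a', a) ∈ c.M
          · obtain ⟨a', ha'⟩ := h2
            exact mem_union_right _ (mem_image.mpr ⟨(d, a', a), mem_filter.mpr ⟨ha', rfl⟩, rfl⟩)
          · exact mem_union_left _ (mem_union_left _ (mem_filter.mpr ⟨mem_univ _, h1, h2⟩))
      have h3 := card_le_card this
      rw [card_univ] at h3
      refine h3.trans ((card_union_le _ _).trans (add_le_add ((card_union_le _ _).trans
        (add_le_add le_rfl card_image_le)) card_image_le))
    have hsd := card_sdiff_add_card_eq_card hTW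
    have := B d (W \ Td) (by
      intro x hx hs
      obtain ⟨v, hv, hc⟩ := hCell x hx
      refine ⟨v, mem_sdiff.mpr ⟨hv, fun h => ?_⟩, hc⟩
      obtain ⟨a, -, rfl⟩ := mem_image.mp h
      have := cov_colour hc hs
      simp at this)
    omega

end Cfg

/-- packaging a labelling as a hypergraph on `Fin n` -/
theorem exists_hypergraph {P D L : Type} [Fintype D] [Fintype L] [DecidableEq D] [DecidableEq L]
    (r : ℕ) (hr : Fintype.card D = r) (X : Finset P) (lab : D → P → L) (hne : X.Nonempty)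
    (hint : ∀ x ∈ X, ∀ y ∈ X, ∃ d, lab d x = lab d y)
    (hcov : ∀ W : Finset (D × L), (∀ x ∈ X, ∃ v ∈ W, lab v.1 x = v.2) → r ≤ W.card) :
    ∃ (n : ℕ) (part : Fin n → Fin r) (H : Finset (Finset (Fin n))),
      IsPartite r part H ∧ IsIntersecting H ∧ nu H = 1 ∧ tau H = r := by
  classical
  let e : D × L ≃ Fin (Fintype.card (D × L)) := Fintype.equivFin _
  let eD : D ≃ Fin r := (Fintype.equivFin D).trans (finCongr hr)
  let edge : P → Finset (Fin (Fintype.card (D × L))) := fun x => univ.image fun d => e (d, lab d x)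
  have hmem : ∀ x v, v ∈ edge x ↔ lab (e.symm v).1 x = (e.symm v).2 := by
    intro x v
    constructor
    · intro h
      obtain ⟨d, -, rfl⟩ := mem_image.mp h
      simp
    · intro h
      refine mem_image.mpr ⟨(e.symm v).1, mem_univ _, ?_⟩
      rw [h]; simp
  have hI : IsIntersecting (X.image edge) := by
    refine ⟨hne.image _, ?_⟩
    intro a ha b hb
    obtain ⟨x, hx, rfl⟩ := mem_image.mp ha
    obtain ⟨y, hy, rfl⟩ := mem_image.mp hb
    obtain ⟨d, hd⟩ := hint x hx y hy
    exact ⟨e (d, lab d x), mem_image.mpr ⟨d, mem_univ _, rfl⟩,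
      mem_image.mpr ⟨d, mem_univ _, by rw [hd]⟩⟩
  refine ⟨_, fun v => eD (e.symm v).1, X.image edge, ?_, hI, ?_, ?_⟩
  · intro a ha i
    obtain ⟨x, hx, rfl⟩ := mem_image.mp ha
    refine ⟨e (eD.symm i, lab (eD.symm i) x), ⟨mem_image.mpr ⟨_, mem_univ _, rfl⟩, by simp⟩, ?_⟩
    rintro v ⟨hv, hi⟩
    obtain ⟨d, -, rfl⟩ := mem_image.mp hv
    simp only [Equiv.symm_apply_apply] at hi
    rw [← hi]; simp
  · apply IsGreatest.csSup_eq
    constructor
    · obtain ⟨a, ha⟩ := hI.1
      exact ⟨{a}, ⟨by simpa using ha, by simp⟩, by simp⟩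
    · rintro n ⟨M, ⟨hM1, hM2⟩, rfl⟩
      rw [card_le_one]
      intro a ha b hb
      by_contra hab
      obtain ⟨v, hv1, hv2⟩ := hI.2 a (hM1 ha) b (hM1 hb)
      exact Finset.disjoint_left.mp (hM2 a ha b hb hab) hv1 hv2
  · apply IsLeast.csInf_eq
    constructor
    · obtain ⟨x, hx⟩ := hne
      refine ⟨edge x, ?_, ?_⟩
      · intro a ha
        obtain ⟨v, hv1, hv2⟩ := hI.2 _ (mem_image_of_mem _ hx) a ha
        exact ⟨v, hv1, hv2⟩
      · rw [card_image_of_injective _ (fun a b h => congrArg Prod.fst (e.injective h)), card_univ,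
          hr]
    · rintro n ⟨T, hT, rfl⟩
      rw [← card_map e.symm.toEmbedding]
      apply hcov
      intro x hx
      obtain ⟨v, hv1, hv2⟩ := hT _ (mem_image_of_mem _ hx)
      exact ⟨e.symm v, mem_map.mpr ⟨v, hv1, rfl⟩, (hmem x v).mp hv2⟩

end Vale.Agent.P045
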