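import Vale.Agent.P045.Concrete

/-! Counting arguments: the cells cannot be covered by few vertices. -/

set_option linter.unusedSectionVars false

namespace Vale.Agent.P045

open Finset

variable {F : Type} [Field F] [Fintype F] [DecidableEq F]

lemma card_le_of_cover {α β : Type*} [DecidableEq α] (U : Finset α) (W : Finset β)
    (r : β → α → Prop) (k : ℕ) (hcov : ∀ a ∈ U, ∃ v ∈ W, r v a)
    (hk : ∀ v ∈ W, ∀ Z ⊆ U, (∀ a ∈ Z, r v a) → Z.card ≤ k) : U.card ≤ k * W.card := by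
  classical
  have : U ⊆ W.biUnion fun v => U.filter fun a => r v a := by
    intro a ha
    obtain ⟨v, hv, hr⟩ := hcov a ha
    exact mem_biUnion.mpr ⟨v, hv, mem_filter.mpr ⟨ha, hr⟩⟩
  refine (card_le_card this).trans (card_biUnion_le.trans ?_)
  rw [mul_comm, ← smul_eq_mul, ← sum_const]
  exact sum_le_sum fun v hv => hk v hv _ (filter_subset _ _) fun a ha => (mem_filter.mp ha).2

namespace Data.Good

variable {D : Data F} (h : D.Good)
include h

lemma dir_ne_of_nsp {L : Ln F} (hL : L ∈ D.cfg.Sp) {x : Pt F} (hx : On x L) {e : Dir F}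
    (he : (e, val e x) ∉ D.cfg.Sp) : e ≠ L.1 := by
  rintro rfl
  exact he (hx.eq ▸ hL)

/-- what it means for a vertex to cover two cells of type P -/
lemma cov_pp {v : Vx F} {L L' : Ln F} (hL : L ∈ D.PL) (hL' : L' ∈ D.PL) {i j i' j' : Bool}
    (h1 : D.cfg.cov v (D.p L i j)) (h2 : D.cfg.cov v (D.p L' i' j')) :
    (L = L' ∧ v.1 = L.1 ∧ (i != j) = (i' != j')) ∨
    (v.1 ≠ L.1 ∧ v.1 ≠ L'.1 ∧ D.cfg.lnk v.1 (D.p L i j) (D.p L' i' j')) := by
  rcases Cfg.cov_cases h.matching h1 h2 with ⟨a, b, c⟩ | ⟨a, b, c⟩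
  · left
    have e1 := h.P2 L hL i j _ a rfl
    have e2 := h.P2 L' hL' i' j' _ a b.symm
    rw [h.col_p hL, h.col_p hL'] at c
    exact ⟨e1.symm.trans e2, congrArg Prod.fst e1, c⟩
  · exact Or.inr ⟨h.dir_ne_of_nsp (h.PL_Sp hL) (h.p_on hL _ _) a,
      h.dir_ne_of_nsp (h.PL_Sp hL') (h.p_on hL' _ _) b, c⟩

lemma lnk_none {L L' : Ln F} (hL : L ∈ D.PL) (hL' : L' ∈ D.PL) {i j i' j' : Bool}
    (hl : D.cfg.lnk none (D.p L i j) (D.p L' i' j')) : D.x L j = D.x L' j' := by
  have key : ∀ b : Bool, D.x L j + bit b = D.x L' j' + bit i' → D.x L j = D.x L' j' := by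
    intro b hb
    cases b <;> cases i' <;> simp only [bit, Bool.false_eq_true, ↓reduceIte, add_zero] at hb
    · exact hb
    · exact absurd hb.symm (h.P3x L' hL' L hL j' j)
    · exact absurd hb (h.P3x L hL L' hL' j j')
    · exact add_right_cancel hb
  rcases h.lnk_p hL hl with h1 | ⟨-, h1⟩ | ⟨h0, -⟩
  · exact key i h1
  · exact key (!i) h1.symm
  · simp at h0

lemma lnk_zero {L L' : Ln F} (hL : L ∈ D.PL) (hL' : L' ∈ D.PL) {i j i' j' : Bool}
    (hl : D.cfg.lnk (some 0) (D.p L i j) (D.p L' i' j')) : D.y L i = D.y L' i' := by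
  have key : ∀ b : Bool, D.y L i + bit b = D.y L' i' + bit j' → D.y L i = D.y L' i' := by
    intro b hb
    cases b <;> cases j' <;> simp only [bit, Bool.false_eq_true, ↓reduceIte, add_zero] at hb
    · exact hb
    · exact absurd hb.symm (h.P3y L' hL' L hL i' i)
    · exact absurd hb (h.P3y L hL L' hL' i i')
    · exact add_right_cancel hb
  have hy : ∀ L i j, val (some 0) (D.p L i j) = D.y L i + bit j :=
    fun _ _ _ => val_zero_pc _ _ _ _
  rcases h.lnk_p hL hl with h1 | ⟨h0, -⟩ | ⟨-, h1⟩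
  · rw [hy, hy] at h1; exact key j h1
  · simp at h0
  · rw [hy] at h1; exact key (!j) h1.symm

lemma cov_same {v : Vx F} {L : Ln F} (hL : L ∈ D.PL) {i j i' j' : Bool}
    (h1 : D.cfg.cov v (D.p L i j)) (h2 : D.cfg.cov v (D.p L i' j')) :
    (v.1 = L.1 ∧ (i != j) = (i' != j')) ∨ (v.1 ≠ L.1 ∧
      ((i = i' ∧ j = j') ∨ (v.1 = none ∧ j = j') ∨ (v.1 = some 0 ∧ i = i'))) := by
  rcases h.cov_pp hL hL h1 h2 with ⟨-, a, b⟩ | ⟨a, -, c⟩
  · exact Or.inl ⟨a, b⟩
  · exact Or.inr ⟨a, h.pair_p hL a c⟩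

lemma not_three {v : Vx F} {L : Ln F} (hL : L ∈ D.PL) {a b c : Bool × Bool}
    (h1 : D.cfg.cov v (D.p L a.1 a.2)) (h2 : D.cfg.cov v (D.p L b.1 b.2))
    (h3 : D.cfg.cov v (D.p L c.1 c.2)) (hab : a ≠ b) (hac : a ≠ c) (hbc : b ≠ c) : False := by
  have e1 := h.cov_same hL h1 h2
  have e2 := h.cov_same hL h1 h3
  have e3 := h.cov_same hL h2 h3
  obtain ⟨a1, a2⟩ := a
  obtain ⟨b1, b2⟩ := b
  obtain ⟨c1, c2⟩ := c
  by_cases q1 : v.1 = L.1
  · simp only [q1, true_and, ne_eq, not_true_eq_false, false_and, or_false] at e1 e2 e3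
    revert e1 e2 e3 hab hac hbc
    cases a1 <;> cases a2 <;> cases b1 <;> cases b2 <;> cases c1 <;> cases c2 <;> simp
  · simp only [q1, false_and, ne_eq, not_false_eq_true, true_and, false_or] at e1 e2 e3
    by_cases q2 : v.1 = none
    · simp only [q2, true_and, reduceCtorEq, false_and, or_false] at e1 e2 e3
      revert e1 e2 e3 hab hac hbc
      cases a1 <;> cases a2 <;> cases b1 <;> cases b2 <;> cases c1 <;> cases c2 <;> simp
    · simp only [q2, false_and, false_or] at e1 e2 e3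
      revert e1 e2 e3 hab hac hbc
      cases a1 <;> cases a2 <;> cases b1 <;> cases b2 <;> cases c1 <;> cases c2 <;> simp

lemma four_le (U : Finset (Ln F)) (hU : U ⊆ D.PL)
    (h1 : ∀ L ∈ U, ∀ L' ∈ U, L ≠ L' → ∀ j j', D.x L j ≠ D.x L' j' ∧ D.y L j ≠ D.y L' j')
    (h2 : ∀ L₁ ∈ U, ∀ L₂ ∈ U, ∀ L₃ ∈ U, L₁ ≠ L₂ → L₁ ≠ L₃ → L₂ ≠ L₃ →
      ∀ i₁ j₁ i₂ j₂ i₃ j₃ l, On (D.p L₁ i₁ j₁) l → On (D.p L₂ i₂ j₂) l →
        ¬ On (D.p L₃ i₃ j₃) l)
    (W : Finset (Vx F)) (hW : ∀ L ∈ U, ∀ i j, ∃ v ∈ W, D.cfg.cov v (D.p L i j)) :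
    2 * U.card ≤ W.card := by
  have := card_le_of_cover (U ×ˢ (univ : Finset (Bool × Bool))) W
    (fun v t => D.cfg.cov v (D.p t.1 t.2.1 t.2.2)) 2
    (fun a ha => hW a.1 (mem_product.mp ha).1 _ _) (by
      intro v _ Z hZ hc
      by_contra hlt
      obtain ⟨a, ha, b, hb, c, hc', hab, hac, hbc⟩ := two_lt_card.mp (not_le.mp hlt)
      have ma := (mem_product.mp (hZ ha)).1
      have mb := (mem_product.mp (hZ hb)).1
      have mc := (mem_product.mp (hZ hc')).1
      -- distinct lines force an ordinary line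
      have key : ∀ s ∈ Z, ∀ t ∈ Z, s ≠ t → s.1 = t.1 ∨ (s.1 ≠ t.1 ∧ v.1 ≠ none ∧ v.1 ≠ some 0 ∧
          v.1 ≠ s.1.1 ∧ v.1 ≠ t.1.1 ∧
          val v.1 (D.p s.1 s.2.1 s.2.2) = val v.1 (D.p t.1 t.2.1 t.2.2)) := by
        intro s hs t ht _
        have ms := (mem_product.mp (hZ hs)).1
        have mt := (mem_product.mp (hZ ht)).1
        by_cases he : s.1 = t.1
        · exact Or.inl he
        · right
          rcases h.cov_pp (hU ms) (hU mt) (hc s hs) (hc t ht) with ⟨q, -⟩ | ⟨q1, q2, q3⟩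
          · exact absurd q he
          · have n1 : v.1 ≠ none := fun e =>
              (h1 _ ms _ mt he _ _).1 (h.lnk_none (hU ms) (hU mt) (e ▸ q3))
            have n2 : v.1 ≠ some 0 := fun e =>
              (h1 _ ms _ mt he _ _).2 (h.lnk_zero (hU ms) (hU mt) (e ▸ q3))
            refine ⟨he, n1, n2, q1, q2, ?_⟩
            rcases h.lnk_p (hU ms) q3 with q | ⟨q, -⟩ | ⟨q, -⟩
            · exact q
            · exact absurd q n1
            · exact absurd q n2
      have same : ∀ s ∈ Z, ∀ t ∈ Z, s ≠ t → s.1 = t.1 → v.1 ≠ none → v.1 ≠ some 0 →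
          v.1 ≠ s.1.1 → False := by
        intro s hs t ht hst he n1 n2 n3
        have ms := (mem_product.mp (hZ hs)).1
        have ct := hc t ht
        rw [← he] at ct
        rcases h.cov_same (hU ms) (hc s hs) ct with ⟨q, -⟩ | ⟨-, q | q | q⟩
        · exact n3 q
        · exact hst (Prod.ext he (Prod.ext q.1 q.2))
        · exact n1 q.1
        · exact n2 q.1
      rcases key a ha b hb hab with e1 | e1 <;> rcases key a ha c hc' hac with e2 | e2
      · have cb := hc b hb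
        have cc := hc c hc'
        rw [← e1] at cb
        rw [← e2] at cc
        exact h.not_three (hU ma) (hc a ha) cb cc (fun e => hab (Prod.ext e1 e))
          (fun e => hac (Prod.ext e2 e)) (fun e => hbc (Prod.ext (e1.symm.trans e2) e))
      · exact same a ha b hb hab e1 e2.2.1 e2.2.2.1 e2.2.2.2.1
      · exact same a ha c hc' hac e2 e1.2.1 e1.2.2.1 e1.2.2.2.1
      · rcases key b hb c hc' hbc with e3 | e3
        · exact same b hb c hc' hbc e3 e1.2.1 e1.2.2.1 e1.2.2.2.2.1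
        · exact h2 _ ma _ mb _ mc e1.1 e2.1 e3.1 _ _ _ _ _ _
            (v.1, val v.1 (D.p a.1 a.2.1 a.2.2)) rfl e1.2.2.2.2.2.symm e2.2.2.2.2.2.symm)
  rw [card_product, card_univ] at this
  simp only [Fintype.card_prod, Fintype.card_bool] at this
  omega

lemma two_cover {v₁ v₂ : Vx F} {L : Ln F} (hL : L ∈ D.PL)
    (hc : ∀ i j, D.cfg.cov v₁ (D.p L i j) ∨ D.cfg.cov v₂ (D.p L i j))
    (n1 : v₁.1 ≠ L.1) (n2 : v₂.1 ≠ L.1) :
    (v₁.1 = none ∧ v₂.1 = none ∧ ∃ j i i', D.cfg.cov v₁ (D.p L i j) ∧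
      D.cfg.cov v₂ (D.p L i' (!j))) ∨
    (v₁.1 = some 0 ∧ v₂.1 = some 0 ∧ ∃ i j j', D.cfg.cov v₁ (D.p L i j) ∧
      D.cfg.cov v₂ (D.p L (!i) j')) := by
  have p1 : ∀ {i j i' j'}, D.cfg.cov v₁ (D.p L i j) → D.cfg.cov v₁ (D.p L i' j') →
      (i = i' ∧ j = j') ∨ (v₁.1 = none ∧ j = j') ∨ (v₁.1 = some 0 ∧ i = i') := fun a b =>
    ((h.cov_same hL a b).resolve_left fun q => n1 q.1).2
  have p2 : ∀ {i j i' j'}, D.cfg.cov v₂ (D.p L i j) → D.cfg.cov v₂ (D.p L i' j') →
      (i = i' ∧ j = j') ∨ (v₂.1 = none ∧ j = j') ∨ (v₂.1 = some 0 ∧ i = i') := fun a b =>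
    ((h.cov_same hL a b).resolve_left fun q => n2 q.1).2
  rcases hc false false with a | a <;> rcases hc true true with b | b
  · simpa using p1 a b
  · rcases hc true false with c | c <;> rcases hc false true with d | d
    · simpa using p1 c d
    · exact Or.inl ⟨by simpa using p1 a c, by simpa using p2 b d, false, false, true, a, b⟩
    · exact Or.inr ⟨by simpa using p1 a d, by simpa using p2 b c, false, false, true, a, b⟩
    · simpa using p2 c d
  · rcases hc true false with c | c <;> rcases hc false true with d | d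
    · simpa using p1 c d
    · exact Or.inr ⟨by simpa using p1 b c, by simpa using p2 a d, true, true, false, b, a⟩
    · exact Or.inl ⟨by simpa using p1 b d, by simpa using p2 a c, true, true, false, b, a⟩
    · simpa using p2 c d
  · simpa using p2 a b

omit h in
lemma three_signs {a b c : F} (hab : a ≠ b) (hac : a ≠ c) (hbc : b ≠ c)
    (h1 : a = b ∨ a = -b) (h2 : a = c ∨ a = -c) : False := by
  rcases h1 with h1 | h1
  · exact hab h1
  · rcases h2 with h2 | h2
    · exact hac h2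
    · exact hbc (neg_injective (h1.symm.trans h2))

lemma three_lines {v₁ v₂ : Vx F} {L₁ L₂ L₃ : Ln F} (m1 : L₁ ∈ D.PL) (m2 : L₂ ∈ D.PL)
    (m3 : L₃ ∈ D.PL) (d12 : L₁.1 ≠ L₂.1) (d13 : L₁.1 ≠ L₃.1) (d23 : L₂.1 ≠ L₃.1)
    (c1 : ∀ i j, D.cfg.cov v₁ (D.p L₁ i j) ∨ D.cfg.cov v₂ (D.p L₁ i j))
    (c2 : ∀ i j, D.cfg.cov v₁ (D.p L₂ i j) ∨ D.cfg.cov v₂ (D.p L₂ i j))
    (c3 : ∀ i j, D.cfg.cov v₁ (D.p L₃ i j) ∨ D.cfg.cov v₂ (D.p L₃ i j)) : False := by
  have hJ : v₁.1 ∈ JJ F ∧ v₂.1 ∈ JJ F := by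
    have aux : ∀ {L}, L ∈ D.PL → (∀ i j, D.cfg.cov v₁ (D.p L i j) ∨ D.cfg.cov v₂ (D.p L i j)) →
        v₁.1 ≠ L.1 → v₂.1 ≠ L.1 → v₁.1 ∈ JJ F ∧ v₂.1 ∈ JJ F := by
      intro L m c n1 n2
      rcases h.two_cover m c n1 n2 with ⟨a, b, -⟩ | ⟨a, b, -⟩
      · rw [a, b]; exact ⟨none_mem_JJ, none_mem_JJ⟩
      · rw [a, b]; exact ⟨zero_mem_JJ, zero_mem_JJ⟩
    by_cases a1 : v₁.1 = L₁.1
    · by_cases a2 : v₂.1 = L₂.1
      · exact aux m3 c3 (a1 ▸ d13) (a2 ▸ d23)
      · exact aux m2 c2 (a1 ▸ d12) a2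
    · by_cases a2 : v₂.1 = L₁.1
      · by_cases a3 : v₁.1 = L₂.1
        · exact aux m3 c3 (a3 ▸ d23) (a2 ▸ d13)
        · exact aux m2 c2 a3 (a2 ▸ d12)
      · exact aux m1 c1 a1 a2
  have nn : ∀ {L}, L ∈ D.PL → v₁.1 ≠ L.1 ∧ v₂.1 ≠ L.1 := fun m =>
    ⟨fun e => h.P0 _ m (e ▸ hJ.1), fun e => h.P0 _ m (e ▸ hJ.2)⟩
  have sl : ∀ {L L'}, L ∈ D.PL → L' ∈ D.PL → L.1 ≠ L'.1 → slope L ≠ slope L' := by
    intro L L' m m' hd e
    exact hd (by rw [(ord_spec (h.P0 _ m)).1, (ord_spec (h.P0 _ m')).1, e])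
  have lk : ∀ {v : Vx F} {L L' i j i' j'}, L ∈ D.PL → L' ∈ D.PL → L.1 ≠ L'.1 →
      D.cfg.cov v (D.p L i j) → D.cfg.cov v (D.p L' i' j') →
      D.cfg.lnk v.1 (D.p L i j) (D.p L' i' j') := by
    intro v L L' i j i' j' m m' hd a b
    rcases h.cov_pp m m' a b with ⟨q, -⟩ | ⟨-, -, q⟩
    · exact absurd (congrArg Prod.fst q) hd
    · exact q
  have sx : ∀ {L L' : Ln F} {j j' : Bool}, D.x L j = D.x L' j' → D.x L (!j) = D.x L' (!j') →
      (slope L)⁻¹ = (slope L')⁻¹ ∨ (slope L)⁻¹ = -(slope L')⁻¹ := by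
    intro L L' j j' e1 e2
    unfold Data.x xa at e1 e2
    cases j <;> cases j' <;> simp only [bit, Bool.not_false, Bool.not_true, Bool.false_eq_true,
      ↓reduceIte] at e1 e2
    · left; linear_combination e2 - e1
    · right; linear_combination e2 - e1
    · right; linear_combination e1 - e2
    · left; linear_combination e1 - e2
  have sy : ∀ {L L' : Ln F} {j j' : Bool}, D.y L j = D.y L' j' → D.y L (!j) = D.y L' (!j') →
      slope L = slope L' ∨ slope L = -slope L' := by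
    intro L L' j j' e1 e2
    unfold Data.y ya at e1 e2
    cases j <;> cases j' <;> simp only [bit, Bool.not_false, Bool.not_true, Bool.false_eq_true,
      ↓reduceIte] at e1 e2
    · left; linear_combination e2 - e1
    · right; linear_combination e2 - e1
    · right; linear_combination e1 - e2
    · left; linear_combination e1 - e2
  rcases h.two_cover m1 c1 (nn m1).1 (nn m1).2 with ⟨a, b, j1, i1, k1, u1, w1⟩ |
      ⟨a, b, j1, i1, k1, u1, w1⟩ <;>
    rcases h.two_cover m2 c2 (nn m2).1 (nn m2).2 with ⟨a', -, j2, i2, k2, u2, w2⟩ |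
      ⟨a', -, j2, i2, k2, u2, w2⟩ <;>
    rcases h.two_cover m3 c3 (nn m3).1 (nn m3).2 with ⟨a'', -, j3, i3, k3, u3, w3⟩ |
      ⟨a'', -, j3, i3, k3, u3, w3⟩
  · exact three_signs (fun e => sl m1 m2 d12 (inv_injective e))
      (fun e => sl m1 m3 d13 (inv_injective e)) (fun e => sl m2 m3 d23 (inv_injective e))
      (sx (h.lnk_none m1 m2 (a ▸ lk m1 m2 d12 u1 u2)) (h.lnk_none m1 m2 (b ▸ lk m1 m2 d12 w1 w2)))
      (sx (h.lnk_none m1 m3 (a ▸ lk m1 m3 d13 u1 u3)) (h.lnk_none m1 m3 (b ▸ lk m1 m3 d13 w1 w3)))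
  · rw [a] at a''; simp at a''
  · rw [a] at a'; simp at a'
  · rw [a] at a'; simp at a'
  · rw [a] at a'; simp at a'
  · rw [a] at a'; simp at a'
  · rw [a] at a''; simp at a''
  · exact three_signs (sl m1 m2 d12) (sl m1 m3 d13) (sl m2 m3 d23)
      (sy (h.lnk_zero m1 m2 (a ▸ lk m1 m2 d12 u1 u2)) (h.lnk_zero m1 m2 (b ▸ lk m1 m2 d12 w1 w2)))
      (sy (h.lnk_zero m1 m3 (a ▸ lk m1 m3 d13 u1 u3)) (h.lnk_zero m1 m3 (b ▸ lk m1 m3 d13 w1 w3)))

lemma pencil_P (z : Pt F) (W : Finset (Vx F))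
    (hW : ∀ L ∈ D.PL, On z L → ∀ i j, ∃ v ∈ W, D.cfg.cov v (D.p L i j)) :
    (D.PL.filter fun L => On z L).card ≤ W.card := by
  set U := D.PL.filter fun L => On z L with hU
  have hmem : ∀ {L}, L ∈ U → L ∈ D.PL ∧ On z L := fun hL => mem_filter.mp hL
  rcases U.eq_empty_or_nonempty with he | ⟨L, hL⟩
  · rw [he]; simp
  have h2 : 2 ≤ W.card := by
    have := h.four_le {L} (by simpa using (hmem hL).1) (by simp) (by simp) W
      (by simpa using hW L (hmem hL).1 (hmem hL).2)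
    simpa using this
  obtain ⟨Bz, hB, b1, b2⟩ := h.P6 z
  have h4 := h.four_le (U \ Bz) (fun L hL => (hmem (mem_sdiff.mp hL).1).1)
    (fun L m L' m' => b1 L (hmem (mem_sdiff.mp m).1).1 L' (hmem (mem_sdiff.mp m').1).1
      (hmem (mem_sdiff.mp m).1).2 (hmem (mem_sdiff.mp m').1).2 (mem_sdiff.mp m).2
      (mem_sdiff.mp m').2)
    (fun L m L' m' L'' m'' => b2 L (hmem (mem_sdiff.mp m).1).1 L' (hmem (mem_sdiff.mp m').1).1
      L'' (hmem (mem_sdiff.mp m'').1).1 (hmem (mem_sdiff.mp m).1).2 (hmem (mem_sdiff.mp m').1).2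
      (hmem (mem_sdiff.mp m'').1).2 (mem_sdiff.mp m).2 (mem_sdiff.mp m').2 (mem_sdiff.mp m'').2)
    W (fun L m => hW L (hmem (mem_sdiff.mp m).1).1 (hmem (mem_sdiff.mp m).1).2)
  have h5 := le_card_sdiff Bz U
  by_contra hlt
  have hU3 : U.card = 3 := by omega
  have hW2 : W.card = 2 := by omega
  obtain ⟨v₁, v₂, -, rfl⟩ := card_eq_two.mp hW2
  obtain ⟨L₁, L₂, L₃, d12, d13, d23, hUe⟩ := card_eq_three.mp hU3
  have m1 := hmem (L := L₁) (by simp [hUe])
  have m2 := hmem (L := L₂) (by simp [hUe])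
  have m3 := hmem (L := L₃) (by simp [hUe])
  exact h.three_lines m1.1 m2.1 m3.1 (fun e => d12 (eq_of_same_dir e m1.2 m2.2))
    (fun e => d13 (eq_of_same_dir e m1.2 m3.2)) (fun e => d23 (eq_of_same_dir e m2.2 m3.2))
    (fun i j => by simpa using hW _ m1.1 m1.2 i j) (fun i j => by simpa using hW _ m2.1 m2.2 i j)
    (fun i j => by simpa using hW _ m3.1 m3.2 i j)

lemma A2 (z : Pt F) (W : Finset (Vx F))
    (hW : ∀ x ∈ D.cfg.Cell, ∀ l ∈ D.cfg.Sp, On z l → On x l → ∃ v ∈ W, D.cfg.cov v x) :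
    (D.cfg.Sp.filter fun l => On z l).card ≤ W.card := by
  by_cases hw : D.w ≤ W.card
  · exact (h.F4 z).trans hw
  have hcol : ∀ f ∈ D.FL, On z f → ∀ b, ((f.1, f.2, some b) : Vx F) ∈ W := by
    intro f hf hz b
    by_contra hn
    apply hw
    have := card_le_of_cover (univ : Finset (Fin D.w)) W
      (fun v k => D.cfg.cov v (D.fc f b k)) 1
      (fun k _ => hW _ (fc_mem hf b k) f (h.FL_Sp hf) hz (h.F1a f hf b k)) (by
        intro v hv Z _ hc
        rw [card_le_one]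
        intro k hk k' hk'
        rcases Cfg.cov_cases h.matching (hc k hk) (hc k' hk') with ⟨a, -, -⟩ | ⟨a, -, c⟩
        · exfalso
          have e1 := h.F1b f hf b k _ a rfl
          have e2 := Cfg.cov_colour (hc k hk) a
          rw [h.col_fc hf] at e2
          apply hn
          rw [← e1]
          exact e2 ▸ hv
        · exact h.pair_fc hf (h.dir_ne_of_nsp (h.FL_Sp hf) (h.F1a f hf b k) a) c)
    simpa using this
  let SF := D.FL.filter fun f => On z f
  let WF : Finset (Vx F) := SF.image fun f => (f.1, f.2, some true)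
  have hWF : WF ⊆ W := by
    intro v hv
    obtain ⟨f, hf, rfl⟩ := mem_image.mp hv
    exact hcol f (mem_filter.mp hf).1 (mem_filter.mp hf).2 true
  have hc : WF.card = SF.card := card_image_of_injective _ (fun a b e => by
    simp only [Prod.mk.injEq, and_true] at e
    exact Prod.ext e.1 e.2)
  have h1 := h.pencil_P z (W \ WF) (by
    intro L hL hz i j
    obtain ⟨v, hv, hc⟩ := hW _ (p_mem hL i j) L (h.PL_Sp hL) hz (h.p_on hL i j)
    refine ⟨v, mem_sdiff.mpr ⟨hv, fun hv' => ?_⟩, hc⟩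
    obtain ⟨f, hf, rfl⟩ := mem_image.mp hv'
    have hf' := (mem_filter.mp hf).1
    have h' : D.cfg.lab f.1 (D.p L i j) = (f.2, some true) := hc
    unfold Cfg.lab at h'
    split_ifs at h' with hs
    · have e1 : On (D.p L i j) f := congrArg Prod.fst h'
      exact h.PL_ne_FL hL hf' (h.P2 L hL i j f (h.FL_Sp hf') e1).symm
    · simp at h')
  have h2 := card_sdiff_add_card_eq_card hWF
  have h3 : (D.cfg.Sp.filter fun l => On z l).card
      ≤ (D.PL.filter fun L => On z L).card + SF.card := by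
    change ((D.PL ∪ D.FL).filter fun l => On z l).card ≤ _
    rw [filter_union]
    exact card_union_le _ _
  omega

lemma M_filter_le (d : Dir F) : (D.cfg.M.filter fun t => t.1 = d).card ≤
    (D.Mx.filter fun t => t.1 = d).card + (D.My.filter fun t => t.1 = d).card
      + (D.Mf.filter fun t => t.1 = d).card := by
  change ((D.Mx ∪ D.My ∪ D.Mf).filter fun t => t.1 = d).card ≤ _
  rw [filter_union, filter_union]
  exact (card_union_le _ _).trans (add_le_add (card_union_le _ _) le_rfl)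

lemma B_special {d : Dir F} (hd : d ∈ JJ F) (W : Finset (Vx F))
    (hW : ∀ x ∈ D.cfg.Cell, (d, val d x) ∈ D.cfg.Sp → ∃ v ∈ W, D.cfg.cov v x) :
    (D.cfg.Sp.filter fun l => l.1 = d).card + (D.cfg.M.filter fun t => t.1 = d).card + 1
      ≤ W.card := by
  have hk : (D.cfg.Sp.filter fun l => l.1 = d).card ≤ D.G.card := by
    have : (D.cfg.Sp.filter fun l => l.1 = d) ⊆ D.G.image fun a => (d, a) := by
      intro l hl
      obtain ⟨h1, h2⟩ := mem_filter.mp hl
      rcases mem_union.mp h1 with h3 | h3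
      · exact absurd (h2 ▸ hd) (h.P0 l h3)
      · exact mem_image.mpr ⟨l.2, (mem_FL.mp h3).2, by rw [← h2]⟩
    exact (card_le_card this).trans card_image_le
  have hf0 : (D.Mf.filter fun t => t.1 = d) = ∅ := by
    apply filter_eq_empty_iff.mpr
    intro t ht
    obtain ⟨φ, hφ, rfl⟩ := mem_image.mp ht
    exact fun e : D.host φ = d => h.F3a φ (mem_product.mp hφ).1 (e ▸ hd)
  have hh : (D.cfg.M.filter fun t => t.1 = d).card + 1 ≤ D.G.card := by
    have a := h.M_filter_le d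
    have b := card_filter_le D.Mx (fun t => t.1 = d)
    have c := card_filter_le D.My (fun t => t.1 = d)
    have e1 := h.F0x
    have e2 := h.F0y
    rw [hf0, card_empty] at a
    by_cases hn : d = none
    · have : (D.My.filter fun t => t.1 = d) = ∅ := by
        apply filter_eq_empty_iff.mpr
        intro t ht
        obtain ⟨φ, -, rfl⟩ := mem_image.mp ht
        simp [hn]
      rw [this, card_empty] at a
      omega
    · have : (D.Mx.filter fun t => t.1 = d) = ∅ := by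
        apply filter_eq_empty_iff.mpr
        intro t ht
        obtain ⟨φ, -, rfl⟩ := mem_image.mp ht
        exact fun e => hn e.symm
      rw [this, card_empty] at a
      omega
  let U : Finset (Ln F × Bool × Fin D.w) := (D.G.image fun a => (d, a)) ×ˢ univ
  have hUF : ∀ t ∈ U, t.1 ∈ D.FL ∧ t.1.1 = d := by
    intro t ht
    obtain ⟨a, ha, e⟩ := mem_image.mp (mem_product.mp ht).1
    rw [← e]
    exact ⟨mem_FL.mpr ⟨hd, ha⟩, rfl⟩
  have hUc : U.card = D.G.card * (2 * D.w) := by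
    rw [card_product, card_image_of_injective _ (fun a b e => congrArg Prod.snd e)]
    simp
  have := card_le_of_cover U W (fun v t => D.cfg.cov v (D.fc t.1 t.2.1 t.2.2)) D.w
    (fun t ht => hW _ (fc_mem (hUF t ht).1 _ _) (by
      rw [← (hUF t ht).2, ← (h.F1a _ (hUF t ht).1 t.2.1 t.2.2).eq]
      exact h.FL_Sp (hUF t ht).1)) (by
      intro v _ Z hZ hc
      rcases Z.eq_empty_or_nonempty with rfl | ⟨s, hs⟩
      · simp
      have ms := (hUF s (hZ hs)).1
      by_cases hsp : (v.1, val v.1 (D.fc s.1 s.2.1 s.2.2)) ∈ D.cfg.Sp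
      · have : Z ⊆ univ.image fun k => (s.1, s.2.1, k) := by
          intro t ht
          have mt := (hUF t (hZ ht)).1
          rcases Cfg.cov_cases h.matching (hc s hs) (hc t ht) with ⟨a, b, c⟩ | ⟨a, -, -⟩
          · have e1 := h.F1b _ ms _ _ _ a rfl
            have e2 := h.F1b _ mt _ _ _ a b.symm
            rw [h.col_fc ms, h.col_fc mt] at c
            exact mem_image.mpr ⟨t.2.2, mem_univ _, Prod.ext (e1.symm.trans e2) (Prod.ext c rfl)⟩
          · exact absurd hsp a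
        exact (card_le_card this).trans (card_image_le.trans (by simp))
      · by_cases hall : ∀ t ∈ Z, val v.1 (D.fc s.1 s.2.1 s.2.2) = val v.1 (D.fc t.1 t.2.1 t.2.2)
        · refine le_trans (card_le_card ?_)
            (h.F2 (v.1, val v.1 (D.fc s.1 s.2.1 s.2.2)) (fun e => hsp (h.FL_Sp e)))
          intro t ht
          exact mem_filter.mpr ⟨mem_product.mpr ⟨(hUF t (hZ ht)).1, mem_univ _⟩, (hall t ht).symm⟩
        · push Not at hall
          obtain ⟨t0, ht0, hne⟩ := hall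
          have lk : ∀ t ∈ Z, D.cfg.lnk v.1 (D.fc s.1 s.2.1 s.2.2) (D.fc t.1 t.2.1 t.2.2) := by
            intro t ht
            rcases Cfg.cov_cases h.matching (hc s hs) (hc t ht) with ⟨a, -, -⟩ | ⟨-, -, c⟩
            · exact absurd a hsp
            · exact c
          obtain ⟨φ, hφ, he, hs'⟩ := (h.lnk_fc ms (lk t0 ht0)).resolve_left hne
          have : Z ⊆ {(φ.1, false, φ.2.1), (φ.1, true, φ.2.2)} := by
            intro t ht
            have mt := (hUF t (hZ ht)).1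
            have fin : val (D.host φ) (D.fc t.1 t.2.1 t.2.2) = val (D.host φ) (D.aa φ) ∨
                val (D.host φ) (D.fc t.1 t.2.1 t.2.2) = val (D.host φ) (D.cc φ) := by
              rcases h.lnk_fc ms (lk t ht) with q | ⟨ψ, hψ, he', q⟩
              · rw [he] at q
                rcases hs' with ⟨q', -⟩ | ⟨q', -⟩
                · exact Or.inl (by rw [← q, q'])
                · exact Or.inr (by rw [← q, q'])
              · have : φ = ψ := h.F3b φ ψ hφ hψ (he.symm.trans he')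
                subst this
                rw [he] at q
                rcases q with ⟨-, q⟩ | ⟨-, q⟩
                · exact Or.inr q
                · exact Or.inl q
            rcases fin with q | q
            · obtain ⟨e1, e2, e3⟩ := h.fc_inj mt hφ ((h.F3c φ hφ _ mt _ _).1 q)
              exact mem_insert.mpr (Or.inl (Prod.ext e1 (Prod.ext e2 e3)))
            · obtain ⟨e1, e2, e3⟩ := h.fc_inj mt hφ ((h.F3c φ hφ _ mt _ _).2 q)
              exact mem_insert.mpr (Or.inr (mem_singleton.mpr (Prod.ext e1 (Prod.ext e2 e3))))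
          exact (card_le_card this).trans (card_le_two.trans h.F5))
  rw [hUc] at this
  have hw : 0 < D.w := lt_of_lt_of_le (by norm_num) h.F5
  have h2 : 2 * D.G.card ≤ W.card := by
    apply Nat.le_of_mul_le_mul_left _ hw
    nlinarith
  omega

lemma B_ordinary {d : Dir F} (hd : d ∉ JJ F) (W : Finset (Vx F))
    (hW : ∀ x ∈ D.cfg.Cell, (d, val d x) ∈ D.cfg.Sp → ∃ v ∈ W, D.cfg.cov v x) :
    (D.cfg.Sp.filter fun l => l.1 = d).card + (D.cfg.M.filter fun t => t.1 = d).card + 1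
      ≤ W.card := by
  set U := D.PL.filter fun L => L.1 = d with hU
  have hmem : ∀ {L}, L ∈ U → L ∈ D.PL ∧ L.1 = d := fun hL => mem_filter.mp hL
  have hk : (D.cfg.Sp.filter fun l => l.1 = d).card ≤ U.card := by
    apply card_le_card
    intro l hl
    obtain ⟨h1, h2⟩ := mem_filter.mp hl
    rcases mem_union.mp h1 with h3 | h3
    · exact mem_filter.mpr ⟨h3, h2⟩
    · exact absurd (h2 ▸ (mem_FL.mp h3).1) hd
  obtain ⟨k1, k2⟩ := h.P1 d hd
  rw [← hU] at k1 k2
  have h4 := h.four_le U (fun L hL => (hmem hL).1)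
    (fun L m L' m' e => h.P5 L (hmem m).1 L' (hmem m').1 e ((hmem m).2.trans (hmem m').2.symm))
    (fun L m L' m' L'' m'' a b c => absurd (two_lt_card.mpr ⟨L, m, L', m', L'', m'', a, b, c⟩)
      (not_lt.mpr k2))
    W (fun L m i j => hW _ (p_mem (hmem m).1 i j) (by
      rw [← (hmem m).2, ← (h.p_on (hmem m).1 i j).eq]; exact h.PL_Sp (hmem m).1))
  have a := h.M_filter_le d
  have e1 : (D.Mx.filter fun t => t.1 = d) = ∅ := by
    apply filter_eq_empty_iff.mpr
    intro t ht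
    obtain ⟨φ, -, rfl⟩ := mem_image.mp ht
    exact fun e => hd (e ▸ none_mem_JJ)
  have e2 : (D.My.filter fun t => t.1 = d) = ∅ := by
    apply filter_eq_empty_iff.mpr
    intro t ht
    obtain ⟨φ, -, rfl⟩ := mem_image.mp ht
    exact fun e => hd (e ▸ zero_mem_JJ)
  rw [e1, e2, card_empty] at a
  rcases (D.Mf.filter fun t => t.1 = d).eq_empty_or_nonempty with e3 | ⟨t, ht⟩
  · rw [e3, card_empty] at a
    omega
  · obtain ⟨φ, hφ, rfl⟩ := mem_image.mp (mem_filter.mp ht).1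
    have hφd : D.host φ = d := (mem_filter.mp ht).2
    have k3 := h.P1h φ (mem_product.mp hφ).1
    rw [hφd, ← hU] at k3
    have : (D.Mf.filter fun t => t.1 = d).card ≤ 1 := by
      rw [card_le_one]
      intro s hs t ht
      obtain ⟨ψ, hψ, rfl⟩ := mem_image.mp (mem_filter.mp hs).1
      obtain ⟨χ, hχ, rfl⟩ := mem_image.mp (mem_filter.mp ht).1
      have : ψ = χ := h.F3b ψ χ (mem_product.mp hψ).1 (mem_product.mp hχ).1
        ((mem_filter.mp hs).2.trans (mem_filter.mp ht).2.symm)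
      rw [this]
    omega

theorem hypergraph (hne : (unc D.Sp).Nonempty)
    (R0 : ∀ C : Finset (Ln F), C.card ≤ Fintype.card F + D.cfg.M.card → (∀ l ∈ C, l ∉ D.Sp) →
      (∀ x ∈ unc D.Sp, ∃ l ∈ C, On x l) →
      (∃ z, ∀ d, (d, val d z) ∉ D.Sp → (d, val d z) ∈ C) ∨
      (∃ d, ∀ a, (d, a) ∉ D.Sp → (d, a) ∈ C)) :
    ∃ (n : ℕ) (part : Fin n → Fin (Fintype.card F + 1)) (H : Finset (Finset (Fin n))),
      IsPartite (Fintype.card F + 1) part H ∧ IsIntersecting H ∧ nu H = 1 ∧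
        tau H = Fintype.card F + 1 :=
  exists_hypergraph _ card_Dir D.cfg.X D.cfg.lab (hne.mono subset_union_left)
    (fun _ hx _ hy => Cfg.intersect h.matching h.H1 h.I1 hx hy)
    (fun W hW => Cfg.cover_bound h.matching h.H1 R0 h.A0 h.A1 h.A2
      (fun d W hW => by
        by_cases hd : d ∈ JJ F
        · exact h.B_special hd W hW
        · exact h.B_ordinary hd W hW) W hW)

end Data.Good

end Vale.Agent.P045
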