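import Vale.Agent.P045.Rand

/-! Random choice of the options of the lines of type P. -/

set_option linter.unusedSectionVars false

namespace Vale.Agent.P045

open Finset

variable {F : Type} [Field F] [Fintype F] [DecidableEq F]

namespace Options

/-- a value of the option of `L` that clashes with the options of lines of smaller rank -/
def Bad (T : Finset (Ln F)) (rk : Ln F → ℕ) (opt : Ln F → F) (L : Ln F) (α : F) : Prop :=
  (∃ L' ∈ T, rk L' < rk L ∧ ∃ j j', xa L α j = xa L' (opt L') j' ∨ ya L α j = ya L' (opt L') j') ∨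
  (∃ L₁ ∈ T, ∃ L₂ ∈ T, L₁ ≠ L₂ ∧ rk L₁ < rk L ∧ rk L₂ < rk L ∧ ∃ i₁ j₁ i₂ j₂ l,
    On (pc L₁ (opt L₁) i₁ j₁) l ∧ On (pc L₂ (opt L₂) i₂ j₂) l ∧ ∃ i j, On (pc L α i j) l)

lemma bad_congr {T : Finset (Ln F)} {rk : Ln F → ℕ} {opt opt' : Ln F → F} {L : Ln F} {α : F}
    (h : ∀ L', rk L' < rk L → opt L' = opt' L') (hb : Bad T rk opt L α) : Bad T rk opt' L α := by
  rcases hb with ⟨L', h1, h2, h3⟩ | ⟨L₁, h1, L₂, h2, h3, h4, h5, h6⟩
  · exact Or.inl ⟨L', h1, h2, h L' h2 ▸ h3⟩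
  · exact Or.inr ⟨L₁, h1, L₂, h2, h3, h4, h5, h L₁ h4 ▸ h L₂ h5 ▸ h6⟩

open Classical in
lemma card_bad {PL T : Finset (Ln F)} {rk : Ln F → ℕ} {opt : Ln F → F} {w : ℕ} (hT : T ⊆ PL)
    (hw : T.card ≤ w) (hw1 : 1 ≤ w) (hord : ∀ L ∈ PL, L.1 ∉ JJ F)
    (hP2 : ∀ L ∈ PL, ∀ i j, ∀ l ∈ PL, On (pc L (opt L) i j) l → l = L) {L : Ln F} (hL : L ∈ T) :
    (univ.filter fun α => Bad T rk opt L α).card ≤ 72 * w ^ 2 := by
  have hs := (ord_spec (hord L (hT hL))).2.1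
  set A : Finset F := T.biUnion fun L' => (univ : Finset (Bool × Bool)).biUnion fun t =>
    {xa L' (opt L') t.2 - bit t.1 * (slope L)⁻¹,
      (ya L' (opt L') t.2 - L.2 - bit t.1 * slope L) / slope L}
  set B : Finset F := (T ×ˢ T).biUnion fun p =>
    (univ : Finset ((Bool × Bool) × (Bool × Bool))).biUnion fun t => univ.filter fun α =>
      p.1 ≠ p.2 ∧ p.1 ≠ L ∧ ∃ l, On (pc p.1 (opt p.1) t.1.1 t.1.2) l ∧
        On (pc p.2 (opt p.2) t.2.1 t.2.2) l ∧ ∃ i j, On (pc L α i j) l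
  have hsub : (univ.filter fun α => Bad T rk opt L α) ⊆ A ∪ B := by
    intro α hα
    rcases (mem_filter.1 hα).2 with ⟨L', h1, -, j, j', h3⟩ |
      ⟨L₁, h1, L₂, h2, h3, h4, -, i₁, j₁, i₂, j₂, h6⟩
    · refine mem_union_left _ (mem_biUnion.2 ⟨L', h1, mem_biUnion.2 ⟨(j, j'), mem_univ _, ?_⟩⟩)
      simp only [mem_insert, mem_singleton]
      rcases h3 with h | h
      · left; rw [← h, xa]; ring
      · right; rw [← h, ya]; field_simp; ring
    · refine mem_union_right _ (mem_biUnion.2 ⟨(L₁, L₂), mem_product.2 ⟨h1, h2⟩,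
        mem_biUnion.2 ⟨((i₁, j₁), (i₂, j₂)), mem_univ _, mem_filter.2 ⟨mem_univ _, h3, ?_, h6⟩⟩⟩)
      rintro rfl
      exact lt_irrefl _ h4
  have hA : A.card ≤ w * (4 * 2) :=
    (card_biUnion_le_card_mul _ _ (4 * 2) fun L' _ =>
      (card_biUnion_le_card_mul _ _ 2 fun t _ => card_le_two).trans (by simp)).trans
      (Nat.mul_le_mul_right _ hw)
  have hB : B.card ≤ w * w * (16 * 4) := by
    refine (card_biUnion_le_card_mul _ _ (16 * 4) fun p hp =>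
      (card_biUnion_le_card_mul _ _ 4 fun t _ => ?_).trans (by simp)).trans ?_
    · obtain ⟨hp1, hp2⟩ := mem_product.1 hp
      rcases (univ.filter fun α => p.1 ≠ p.2 ∧ p.1 ≠ L ∧ ∃ l, On (pc p.1 (opt p.1) t.1.1 t.1.2) l ∧
        On (pc p.2 (opt p.2) t.2.1 t.2.2) l ∧ ∃ i j, On (pc L α i j) l).eq_empty_or_nonempty with
        h | ⟨a, ha⟩
      · rw [h]; simp
      obtain ⟨h1, h2, l, h3, h4, -⟩ := (mem_filter.1 ha).2
      have hne : pc p.1 (opt p.1) t.1.1 t.1.2 ≠ pc p.2 (opt p.2) t.2.1 t.2.2 := fun e =>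
        h1 (hP2 _ (hT hp2) _ _ _ (hT hp1) (e ▸ pc_on (hord _ (hT hp1)) _ _ _))
      have hl : l ≠ L := fun e => h2 (hP2 _ (hT hp1) _ _ _ (hT hL) (e ▸ h3)).symm
      refine le_trans (card_le_card fun b hb => ?_) (card_pc_on_le (hord L (hT hL)) hl)
      obtain ⟨-, -, l', h5, h6, h7⟩ := (mem_filter.1 hb).2
      exact mem_filter.2 ⟨mem_univ _, line_unique hne h5 h6 h3 h4 ▸ h7⟩
    · rw [card_product]
      exact Nat.mul_le_mul_right _ (Nat.mul_le_mul hw hw)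
  refine (card_le_card hsub).trans ((card_union_le _ _).trans ?_)
  nlinarith

end Options

open Options in
theorem options (PL : Finset (Ln F)) (Val : Ln F → Finset F) (w R : ℕ)
    (hord : ∀ L ∈ PL, L.1 ∉ JJ F) (hw : ∀ z, (PL.filter fun L => On z L).card ≤ w) (hw1 : 1 ≤ w)
    (hVal : ∀ L ∈ PL, R ≤ (Val L).card)
    (hP2 : ∀ L ∈ PL, ∀ α ∈ Val L, ∀ i j, ∀ l ∈ PL, On (pc L α i j) l → l = L)
    (hnum : 3 * Fintype.card F ^ 2 * (72 * w ^ 3) ^ 3 < R ^ 3) :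
    ∃ opt : Ln F → F, (∀ L ∈ PL, opt L ∈ Val L) ∧ ∀ z, ∃ Bz : Finset (Ln F), Bz.card ≤ 2 ∧
      (∀ L ∈ PL, ∀ L' ∈ PL, On z L → On z L' → L ∉ Bz → L' ∉ Bz → L ≠ L' → ∀ j j',
        xa L (opt L) j ≠ xa L' (opt L') j' ∧ ya L (opt L) j ≠ ya L' (opt L') j') ∧
      (∀ L₁ ∈ PL, ∀ L₂ ∈ PL, ∀ L₃ ∈ PL, On z L₁ → On z L₂ → On z L₃ →
        L₁ ∉ Bz → L₂ ∉ Bz → L₃ ∉ Bz → L₁ ≠ L₂ → L₁ ≠ L₃ → L₂ ≠ L₃ →
        ∀ i₁ j₁ i₂ j₂ i₃ j₃ l, On (pc L₁ (opt L₁) i₁ j₁) l → On (pc L₂ (opt L₂) i₂ j₂) l →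
          ¬ On (pc L₃ (opt L₃) i₃ j₃) l) := by
  classical
  have hq : 1 ≤ Fintype.card F ^ 2 := Nat.one_le_pow _ _ Fintype.card_pos
  have hR : 72 * w ^ 3 < R := lt_of_pow_lt_pow_left₀ 3 (Nat.zero_le _)
    (lt_of_le_of_lt (Nat.le_mul_of_pos_left _ (by omega)) hnum)
  have hW : 0 < 72 * w ^ 3 := by positivity
  have : Nonempty (Fin R) := ⟨⟨0, by omega⟩⟩
  have he : ∀ L, ∃ e : Fin R → F, L ∈ PL → Function.Injective e ∧ ∀ r, e r ∈ Val L := by
    intro L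
    by_cases hL : L ∈ PL
    · obtain ⟨e⟩ : Nonempty (Fin R ↪ Val L) :=
        Function.Embedding.nonempty_of_card_le (by simpa using hVal L hL)
      exact ⟨fun r => e r, fun _ => ⟨Subtype.val_injective.comp e.injective, fun r => (e r).2⟩⟩
    · exact ⟨fun _ => 0, fun h => absurd h hL⟩
  choose e he using he
  set rk : Ln F → ℕ := fun L => Fintype.equivFin (Ln F) L
  have hrk : Function.Injective rk := Fin.val_injective.comp (Fintype.equivFin _).injective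
  set T : Pt F → Finset (Ln F) := fun z => PL.filter fun L => On z L
  set B : Pt F → Ln F → (Ln F → Fin R) → Finset (Fin R) := fun z L ω =>
    univ.filter fun r => Bad (T z) rk (fun L => e L (ω L)) L (e L r)
  have hW' : (0 : ℝ) < 72 * w ^ 3 := by exact_mod_cast hW
  have hR' : (72 * w ^ 3 : ℝ) < R := by exact_mod_cast hR
  have hR0 : (0 : ℝ) < R := hW'.trans hR'
  set Λ : ℝ := R / (72 * w ^ 3)
  have hΛ : 1 ≤ Λ := (one_le_div hW').2 hR'.le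
  have key : ∀ z, pr (fun ω : Ln F → Fin R => 3 ≤ ((T z).filter fun L => ω L ∈ B z L ω).card) ≤
      3 / Λ ^ 3 := by
    intro z
    have h1 := av_pow_count rk (T z) (B z) (fun L _ L' _ hLL' ω b => by
        have h : ∀ L'', rk L'' < rk L → e L'' (Function.update ω L' b L'') = e L'' (ω L'') := by
          intro L'' h
          rw [Function.update_of_ne]
          rintro rfl
          omega
        refine filter_congr fun r _ => ⟨bad_congr h, bad_congr fun L'' h' => (h L'' h').symm⟩)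
      (fun _ => 72 * w ^ 2 / R) (fun L hL ω => by
        have hL' := (mem_filter.1 hL).1
        rw [Fintype.card_fin, div_mul_cancel₀ _ hR0.ne']
        have h2 := card_bad (rk := rk) (opt := fun L => e L (ω L)) (filter_subset _ _) (hw z) hw1 hord
          (fun L hL => hP2 L hL _ ((he L hL).2 _)) hL
        have h3 : (B z L ω).card ≤ 72 * w ^ 2 := by
          refine le_trans (card_le_card_of_injOn (e L) (fun r hr => ?_) (he L hL').1.injOn) h2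
          simpa [B] using hr
        exact_mod_cast h3) Λ hΛ
    refine (pr_le_av_div (by positivity) (fun ω => by positivity)
      fun ω h => pow_le_pow_right₀ hΛ h).trans (div_le_div_of_nonneg_right (h1.trans ?_)
        (by positivity))
    refine le_trans (Real.exp_le_exp.2 ?_) (Real.exp_one_lt_d9.le.trans (by norm_num))
    rw [sum_const, nsmul_eq_mul]
    have h4 : ((T z).card : ℝ) ≤ w := by exact_mod_cast hw z
    calc (Λ - 1) * ((T z).card * (72 * w ^ 2 / R)) ≤ Λ * (w * (72 * w ^ 2 / R)) := by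
          gcongr; linarith
      _ = 1 := by
          have : (w : ℝ) ≠ 0 := by positivity
          simp only [Λ]; field_simp
  obtain ⟨ω, hω⟩ := exists_not_of_pr_lt_one ((pr_exists_le univ _ _ fun z _ => key z).trans_lt (by
    have h : (3 * Fintype.card F ^ 2 * (72 * w ^ 3) ^ 3 : ℝ) < R ^ 3 := by exact_mod_cast hnum
    rw [card_univ, card_Pt, div_pow, div_div_eq_mul_div, ← mul_div_assoc, div_lt_one (by positivity)]
    push_cast
    linarith))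
  refine ⟨fun L => e L (ω L), fun L hL => (he L hL).2 _, fun z =>
    ⟨(T z).filter fun L => ω L ∈ B z L ω, ?_, ?_, ?_⟩⟩
  · by_contra h
    exact hω ⟨z, mem_univ _, by omega⟩
  · intro L hL L' hL' h1 h2 h3 h4 h5 j j'
    have m1 : L ∈ T z := mem_filter.2 ⟨hL, h1⟩
    have m2 : L' ∈ T z := mem_filter.2 ⟨hL', h2⟩
    rw [← not_or]
    intro h
    rcases lt_or_gt_of_ne (hrk.ne h5) with hl | hl
    · exact h4 (mem_filter.2 ⟨m2, mem_filter.2 ⟨mem_univ _,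
        Or.inl ⟨L, m1, hl, j', j, h.imp Eq.symm Eq.symm⟩⟩⟩)
    · exact h3 (mem_filter.2 ⟨m1, mem_filter.2 ⟨mem_univ _, Or.inl ⟨L', m2, hl, j, j', h⟩⟩⟩)
  · intro L₁ hL₁ L₂ hL₂ L₃ hL₃ h1 h2 h3 b1 b2 b3 n1 n2 n3 i₁ j₁ i₂ j₂ i₃ j₃ l o1 o2 o3
    have m1 : L₁ ∈ T z := mem_filter.2 ⟨hL₁, h1⟩
    have m2 : L₂ ∈ T z := mem_filter.2 ⟨hL₂, h2⟩
    have m3 : L₃ ∈ T z := mem_filter.2 ⟨hL₃, h3⟩
    have r1 := hrk.ne n1
    have r2 := hrk.ne n2
    have r3 := hrk.ne n3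
    by_cases c1 : rk L₂ < rk L₁ ∧ rk L₃ < rk L₁
    · exact b1 (mem_filter.2 ⟨m1, mem_filter.2 ⟨mem_univ _,
        Or.inr ⟨L₂, m2, L₃, m3, n3, c1.1, c1.2, i₂, j₂, i₃, j₃, l, o2, o3, i₁, j₁, o1⟩⟩⟩)
    by_cases c2 : rk L₁ < rk L₂ ∧ rk L₃ < rk L₂
    · exact b2 (mem_filter.2 ⟨m2, mem_filter.2 ⟨mem_univ _,
        Or.inr ⟨L₁, m1, L₃, m3, n2, c2.1, c2.2, i₁, j₁, i₃, j₃, l, o1, o3, i₂, j₂, o2⟩⟩⟩)
    exact b3 (mem_filter.2 ⟨m3, mem_filter.2 ⟨mem_univ _, Or.inr ⟨L₁, m1, L₂, m2, n1, by omega,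
      by omega, i₁, j₁, i₂, j₂, l, o1, o2, i₃, j₃, o3⟩⟩⟩)

end Vale.Agent.P045
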