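import Vale.Agent.P045.Rand

/-! Random pools of coordinates. -/

set_option linter.unusedSectionVars false

namespace Vale.Agent.P045

open Finset

variable {F : Type} [Field F] [Fintype F] [DecidableEq F]

namespace Pools

/-- the labels -/
abbrev Lab (M : ℕ) : Type := Bool ⊕ Fin M

/-- the pool of colour `b` read along the embedding `e` of the coordinates -/
def pool {M : ℕ} (e : F → F ⊕ F) (ω : F ⊕ F → Lab M) (b : Bool) : Finset F :=
  univ.filter fun a => ω (e a) = Sum.inl b ∧ (ω (e (a + 1))).isRight = true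

/-- the required value of a variable -/
def ok {M : ℕ} (k i : Bool) (v : Lab M) : Prop := if i then v.isRight = true else v = Sum.inl k

instance {M : ℕ} (k i : Bool) (v : Lab M) : Decidable (ok k i v) := by
  unfold ok; infer_instance

/-- the eight variables of a parameter -/
def var (L : Ln F) (α : F) (t : Bool × Bool × Bool) : F ⊕ F :=
  if t.1 then Sum.inr (ya L α t.2.2 + bit t.2.1) else Sum.inl (xa L α t.2.2 + bit t.2.1)

/-- the parameter is valid -/
def valid {M : ℕ} (k : Bool) (L : Ln F) (α : F) (ω : F ⊕ F → Lab M) : Prop :=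
  ∀ t : Bool × Bool × Bool, ok k t.2.1 (ω (var L α t))

instance {M : ℕ} (k : Bool) (L : Ln F) (α : F) (ω : F ⊕ F → Lab M) :
    Decidable (valid k L α ω) := by
  unfold valid; infer_instance

lemma pool_disjoint {M : ℕ} (e : F → F ⊕ F) (ω : F ⊕ F → Lab M) :
    Disjoint (pool e ω false) (pool e ω true) := by
  rw [Finset.disjoint_left]
  intro a h1 h2
  have h := (mem_filter.mp h1).2.1.symm.trans (mem_filter.mp h2).2.1
  simp at h

lemma pool_iso {M : ℕ} (e : F → F ⊕ F) (ω : F ⊕ F → Lab M) (b b' : Bool) :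
    ∀ a ∈ pool e ω b, a + 1 ∉ pool e ω b' := by
  intro a h1 h2
  have h := (mem_filter.mp h1).2.2
  rw [(mem_filter.mp h2).2.1] at h
  simp at h

lemma mem_of_valid {M : ℕ} {k : Bool} {L : Ln F} {α : F} {ω : F ⊕ F → Lab M}
    (h : valid k L α ω) (j : Bool) :
    xa L α j ∈ pool Sum.inl ω k ∧ ya L α j ∈ pool Sum.inr ω k := by
  have h1 := h (false, false, j)
  have h2 := h (false, true, j)
  have h3 := h (true, false, j)
  have h4 := h (true, true, j)
  simp only [ok, var, bit, if_true, Bool.false_eq_true, if_false, add_zero] at h1 h2 h3 h4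
  exact ⟨mem_filter.mpr ⟨mem_univ _, h1, h2⟩, mem_filter.mpr ⟨mem_univ _, h3, h4⟩⟩

lemma var_inj {L : Ln F} (hL : L.1 ∉ JJ F) (α : F) : Function.Injective (var L α) := by
  rintro ⟨s, i, j⟩ ⟨s', i', j'⟩ h
  cases s <;> cases s' <;> simp only [var, if_true, Bool.false_eq_true, if_false,
    Sum.inl.injEq, Sum.inr.injEq, reduceCtorEq] at h
  · obtain ⟨rfl, rfl⟩ := xa_bit_inj hL α h
    rfl
  · obtain ⟨rfl, rfl⟩ := ya_bit_inj hL α h
    rfl

lemma var_eq {L : Ln F} (hL : L.1 ∉ JJ F) {α β : F} {t t' : Bool × Bool × Bool}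
    (h : var L α t = var L β t') : ∃ i j i' j', pc L α i j = pc L β i' j' := by
  obtain ⟨s, i, j⟩ := t
  obtain ⟨s', i', j'⟩ := t'
  cases s <;> cases s' <;> simp only [var, if_true, Bool.false_eq_true, if_false,
    Sum.inl.injEq, Sum.inr.injEq, reduceCtorEq] at h
  · refine ⟨i, j, i', j', eq_of_val (d := none) (e := L.1)
      (fun he => hL (he ▸ Data.none_mem_JJ)) h ?_⟩
    exact (pc_on hL α i j).trans (pc_on hL β i' j').symm
  · refine ⟨j, i, j', i', eq_of_val (d := some 0) (e := L.1)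
      (fun he => hL (he ▸ Data.zero_mem_JJ)) ?_ ?_⟩
    · rw [val_zero_pc, val_zero_pc, h]
    · exact (pc_on hL α j i).trans (pc_on hL β j' i').symm

lemma av_ok (M : ℕ) (k i : Bool) : av (fun v : Lab M => if ok k i v then (1 : ℝ) else 0)
    = if i then (M : ℝ) / (M + 2) else 1 / (M + 2) := by
  unfold av
  rw [Fintype.sum_sum_type]
  cases i <;> cases k <;> simp [ok, add_comm]

lemma av_valid {M : ℕ} (hM : 8 ≤ M) (k : Bool) {L : Ln F} (hL : L.1 ∉ JJ F) (α : F) :
    1 / (8 * (M : ℝ) ^ 4) ≤ av (fun ω : F ⊕ F → Lab M => if valid k L α ω then (1 : ℝ) else 0) := by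
  have e : (fun ω : F ⊕ F → Lab M => if valid k L α ω then (1 : ℝ) else 0)
      = fun ω => ∏ t : Bool × Bool × Bool, if ok k t.2.1 (ω (var L α t)) then (1 : ℝ) else 0 := by
    funext ω
    rw [Finset.prod_boole]
    simp [valid]
  rw [e, av_prod_blocks univ (fun t => {var L α t})
    (fun t ω => if ok k t.2.1 (ω (var L α t)) then (1 : ℝ) else 0)
    (fun a _ b _ h => by simpa using fun h' => h (var_inj hL α h'))
    (fun a _ ω ω' h => by rw [h _ (mem_singleton_self _)])]
  have e2 : ∀ t : Bool × Bool × Bool,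
      av (fun ω : F ⊕ F → Lab M => if ok k t.2.1 (ω (var L α t)) then (1 : ℝ) else 0)
        = if t.2.1 then (M : ℝ) / (M + 2) else 1 / (M + 2) := fun t => by
    rw [av_single (var L α t) (fun v : Lab M => if ok k t.2.1 v then (1 : ℝ) else 0), av_ok]
  simp only [e2, Fintype.prod_prod_type, Fintype.prod_bool, if_true, Bool.false_eq_true, if_false]
  have hM' : (8 : ℝ) ≤ M := by exact_mod_cast hM
  have h1 : (M + 2 : ℝ) ≤ 5 / 4 * M := by linarith
  have h2 : (M + 2 : ℝ) ^ 8 ≤ (5 / 4 * M) ^ 8 := pow_le_pow_left₀ (by linarith) h1 8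
  have h3 : 0 ≤ (M : ℝ) ^ 8 := by positivity
  calc 1 / (8 * (M : ℝ) ^ 4) ≤ (M : ℝ) ^ 4 / (M + 2) ^ 8 := by
        rw [div_le_div_iff₀ (by positivity) (by positivity)]
        nlinarith
    _ = _ := by
        field_simp

lemma pr_size {M g : ℕ} (hM : 8 ≤ M) (hg : 8 * Fintype.card F ≤ M * g) (e : F → F ⊕ F) :
    pr (fun ω : F ⊕ F → Lab M => g ≤ (pool e ω false ∪ pool e ω true).card) ≤ 1 / 4 := by
  have hq : 0 < Fintype.card F := Fintype.card_pos
  have hg0 : 0 < g := by
    rcases Nat.eq_zero_or_pos g with rfl | h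
    · omega
    · exact h
  have hg1 : (0 : ℝ) < g := by exact_mod_cast hg0
  have hM' : (8 : ℝ) ≤ M := by exact_mod_cast hM
  have hg' : 8 * (Fintype.card F : ℝ) ≤ M * g := by exact_mod_cast hg
  refine (pr_le_av_div (f := fun ω => ∑ a : F, if (ω (e a)).isLeft = true then (1 : ℝ) else 0) hg1
    (fun ω => sum_nonneg fun a _ => by split_ifs <;> norm_num) fun ω h => ?_).trans ?_
  · rw [sum_boole]
    have h1 : pool e ω false ∪ pool e ω true ⊆ univ.filter fun a => (ω (e a)).isLeft = true := by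
      intro a ha
      rcases mem_union.mp ha with ha | ha <;> simp [(mem_filter.mp ha).2.1]
    exact_mod_cast h.trans (card_le_card h1)
  · have e2 : ∀ a : F, av (fun ω : F ⊕ F → Lab M => if (ω (e a)).isLeft = true then (1 : ℝ) else 0)
        = 2 / (M + 2) := fun a => by
      rw [av_single (e a) (fun v : Lab M => if v.isLeft = true then (1 : ℝ) else 0)]
      unfold av
      rw [Fintype.sum_sum_type]
      simp [add_comm]
    rw [av_sum]
    simp only [e2, sum_const, card_univ, nsmul_eq_mul]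
    rw [div_le_iff₀ hg1, ← mul_div_assoc, div_le_iff₀ (by positivity)]
    nlinarith

lemma pr_line {M R n : ℕ} (hM : 8 ≤ M) (k : Bool) {L : Ln F} (hL : L.1 ∉ JJ F) (C : Finset F)
    (hC : 272 * M ^ 4 * (R + n + 2) ≤ C.card) :
    pr (fun ω : F ⊕ F → Lab M => (C.filter fun α => valid k L α ω).card < R)
      ≤ Real.exp (-(R + n + 2 : ℝ)) / (1 / 2) ^ R := by
  obtain ⟨I, hI, hc, hind⟩ := exists_disjoint_cells L C
  have hM' : (8 : ℝ) ≤ M := by exact_mod_cast hM
  have hI2 : 16 * M ^ 4 * (R + n + 2) ≤ I.card := by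
    have : 272 * M ^ 4 * (R + n + 2) = 17 * (16 * M ^ 4 * (R + n + 2)) := by ring
    omega
  have hI3 : 16 * (M : ℝ) ^ 4 * (R + n + 2) ≤ I.card := by exact_mod_cast hI2
  refine (pr_le_av_div (f := fun ω => ∏ α ∈ I, if valid k L α ω then (1 / 2 : ℝ) else 1)
    (c := (1 / 2) ^ R) (by positivity)
    (fun ω => prod_nonneg fun a _ => by split_ifs <;> norm_num) fun ω h => ?_).trans ?_
  · rw [prod_ite_eq_pow, one_pow, mul_one]
    refine pow_le_pow_of_le_one (by norm_num) (by norm_num) ?_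
    exact (card_le_card (filter_subset_filter _ hI)).trans h.le
  · refine div_le_div_of_nonneg_right ?_ (by positivity)
    rw [av_prod_blocks I (fun α => univ.image (var L α))
      (fun α ω => if valid k L α ω then (1 / 2 : ℝ) else 1)]
    · have h1 : ∀ α ∈ I, av (fun ω : F ⊕ F → Lab M => if valid k L α ω then (1 / 2 : ℝ) else 1)
          ≤ Real.exp (-(1 / (16 * (M : ℝ) ^ 4))) := by
        intro α _
        have e : (fun ω : F ⊕ F → Lab M => if valid k L α ω then (1 / 2 : ℝ) else 1)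
            = fun ω => 1 + (-(1 / 2)) * (if valid k L α ω then (1 : ℝ) else 0) := by
          funext ω
          split_ifs <;> norm_num
        rw [e, av_add, av_const, av_mul_left]
        have h2 := av_valid hM k hL α
        have h3 := Real.add_one_le_exp (-(1 / (16 * (M : ℝ) ^ 4)))
        have h4 : 1 / (16 * (M : ℝ) ^ 4) = 1 / 2 * (1 / (8 * (M : ℝ) ^ 4)) := by
          field_simp
          norm_num
        linarith
      refine (prod_le_prod (fun α _ => av_nonneg fun ω => by split_ifs <;> norm_num) h1).trans ?_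
      rw [prod_const, ← Real.exp_nat_mul, Real.exp_le_exp, mul_neg, neg_le_neg_iff, mul_one_div,
        le_div_iff₀ (by positivity)]
      linarith
    · intro a ha b hb hab
      rw [Finset.disjoint_left]
      intro z h1 h2
      obtain ⟨t, -, rfl⟩ := mem_image.mp h1
      obtain ⟨t', -, h3⟩ := mem_image.mp h2
      obtain ⟨i, j, i', j', h4⟩ := var_eq hL h3
      exact hab (hind b hb a ha i j i' j' h4).symm
    · intro a _ ω ω' h
      have : valid k L a ω ↔ valid k L a ω' :=
        forall_congr' fun t => by rw [h _ (mem_image_of_mem _ (mem_univ t))]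
      simp only [this]

end Pools

open Pools in
theorem pools (PL : Finset (Ln F)) (κ : Ln F → Bool) (Cand : Ln F → Finset F) (M g R n : ℕ)
    (hord : ∀ L ∈ PL, L.1 ∉ JJ F) (hM : 8 ≤ M) (hg : 8 * Fintype.card F ≤ M * g)
    (hn : PL.card ≤ 2 ^ n) (hC : ∀ L ∈ PL, 272 * M ^ 4 * (R + n + 2) ≤ (Cand L).card) :
    ∃ A B : Bool → Finset F, (A false ∪ A true).card < g ∧ (B false ∪ B true).card < g ∧
      Disjoint (A false) (A true) ∧ Disjoint (B false) (B true) ∧
      (∀ b b', ∀ a ∈ A b, a + 1 ∉ A b') ∧ (∀ b b', ∀ a ∈ B b, a + 1 ∉ B b') ∧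
      ∀ L ∈ PL, R ≤ ((Cand L).filter fun α =>
        ∀ j, xa L α j ∈ A (κ L) ∧ ya L α j ∈ B (κ L)).card := by
  have h1 := pr_size (F := F) hM hg Sum.inl
  have h2 := pr_size (F := F) hM hg Sum.inr
  have h3 := pr_exists_le PL (fun L (ω : F ⊕ F → Lab M) =>
    ((Cand L).filter fun α => valid (κ L) L α ω).card < R) _
    fun L hL => pr_line hM (κ L) (hord L hL) (Cand L) (hC L hL)
  have h4 : (PL.card : ℝ) * (Real.exp (-(R + n + 2 : ℝ)) / (1 / 2) ^ R) ≤ 1 / 3 := by
    have p1 : (PL.card : ℝ) ≤ 2 ^ n := by exact_mod_cast hn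
    have p2 : (2 : ℝ) ≤ Real.exp 1 := by linarith [Real.add_one_le_exp (1 : ℝ)]
    have p3 : (2 : ℝ) ^ (n + R) ≤ Real.exp (R + n) := by
      have := pow_le_pow_left₀ (by norm_num) p2 (n + R)
      rwa [← Real.exp_nat_mul, mul_one, Nat.cast_add, add_comm (n : ℝ)] at this
    have p4 : (3 : ℝ) ≤ Real.exp 2 := by linarith [Real.add_one_le_exp (2 : ℝ)]
    have p5 := Real.exp_pos (R + n : ℝ)
    calc _ ≤ (2 : ℝ) ^ n * (Real.exp (-(R + n + 2 : ℝ)) / (1 / 2) ^ R) :=
          mul_le_mul_of_nonneg_right p1 (by positivity)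
      _ = 2 ^ (n + R) / (Real.exp (R + n) * Real.exp 2) := by
          rw [Real.exp_neg, Real.exp_add, pow_add, one_div_pow]
          field_simp
      _ ≤ 1 / 3 := by
          rw [div_le_div_iff₀ (by positivity) (by norm_num)]
          nlinarith
  obtain ⟨ω, hω⟩ := exists_not_of_pr_lt_one (lt_of_le_of_lt ((pr_or _ _).trans
    (add_le_add ((pr_or _ _).trans (add_le_add h1 h2)) (h3.trans h4))) (by norm_num))
  push Not at hω
  refine ⟨pool Sum.inl ω, pool Sum.inr ω, hω.1.1, hω.1.2, pool_disjoint _ _, pool_disjoint _ _,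
    pool_iso _ _, pool_iso _ _, fun L hL => (hω.2 L hL).trans (card_le_card fun α hα => ?_)⟩
  exact mem_filter.mpr ⟨(mem_filter.mp hα).1, mem_of_valid (mem_filter.mp hα).2⟩

end Vale.Agent.P045
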