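import Vale.Agent.P045.FCells
import Vale.Agent.P045.Pools
import Vale.Agent.P045.Options
import Vale.Agent.P045.Count

/-! Construction of the data from a good random set of lines. -/

set_option linter.unusedSectionVars false

namespace Vale.Agent.P045

open Finset

variable {F : Type} [Field F] [Fintype F] [DecidableEq F]

/-- a second line in a given direction, tangent to one of two parabolas -/
def tang (s : Dir F → F) (d : Dir F) : Ln F :=
  (d, if s d = d.getD 0 ^ 2 then d.getD 0 ^ 2 + 1 else d.getD 0 ^ 2)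

lemma tang_notMem (s : Dir F → F) (d : Dir F) : tang s d ∉ Sof s := by
  intro h
  have := (mem_Sof.mp h).2
  simp only [tang] at this
  split_ifs at this with h1
  · rw [h1] at this; simp at this
  · exact h1 this.symm

lemma card_quad (a b : F) : (univ.filter fun m : F => b - m * a = m ^ 2).card ≤ 2 := by
  by_contra h
  obtain ⟨x, hx, y, hy, z, hz, hxy, hxz, hyz⟩ := two_lt_card.mp (not_le.mp h)
  have hx := (mem_filter.mp hx).2
  have hy := (mem_filter.mp hy).2
  have hz := (mem_filter.mp hz).2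
  have e1 : x + y + a = 0 := mul_left_cancel₀ (sub_ne_zero.mpr hxy) (by linear_combination hy - hx)
  have e2 : x + z + a = 0 := mul_left_cancel₀ (sub_ne_zero.mpr hxz) (by linear_combination hz - hx)
  exact hyz (by linear_combination e1 - e2)

lemma card_tang (s : Dir F → F) (Hs : Finset (Dir F)) (hH : ∀ d ∈ Hs, d ∉ JJ F) (z : Pt F) :
    ((Hs.image (tang s)).filter fun l => On z l).card ≤ 4 := by
  have : ((Hs.image (tang s)).filter fun l => On z l) ⊆
      ((univ.filter fun m : F => z.2 - m * z.1 = m ^ 2) ∪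
        (univ.filter fun m : F => z.2 - 1 - m * z.1 = m ^ 2)).image fun m => tang s (some m) := by
    intro l hl
    obtain ⟨h1, h2⟩ := mem_filter.mp hl
    obtain ⟨d, hd, rfl⟩ := mem_image.mp h1
    cases d with
    | none => exact absurd Data.none_mem_JJ (hH _ hd)
    | some m =>
      refine mem_image.mpr ⟨m, ?_, rfl⟩
      simp only [On, tang, val, Option.getD_some] at h2
      simp only [mem_union, mem_filter, mem_univ, true_and]
      split_ifs at h2
      · right; linear_combination h2
      · left; exact h2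
  have h1 := card_quad z.1 z.2
  have h2 := card_quad z.1 (z.2 - 1)
  exact (card_le_card this).trans (card_image_le.trans ((card_union_le _ _).trans (by omega)))

lemma card_FL_on (G : Finset F) (z : Pt F) : ((JJ F ×ˢ G).filter fun l => On z l).card ≤ 4 := by
  have : ((JJ F ×ˢ G).filter fun l => On z l) ⊆ (JJ F).image fun d => (d, val d z) := by
    intro l hl
    obtain ⟨h1, h2⟩ := mem_filter.mp hl
    exact mem_image.mpr ⟨l.1, (mem_product.mp h1).1, h2.eq.symm⟩
  exact (card_le_card this).trans (card_image_le.trans card_JJ_le)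

lemma card_avoid_pts (f : Ln F) (P : Finset (Pt F)) (hP : ∀ x ∈ P, On x f) (X : Finset (Ln F)) :
    P.card ≤ (P.filter fun x => ∀ l ∈ X, On x l → l = f).card + X.card := by
  have : P ⊆ (P.filter fun x => ∀ l ∈ X, On x l → l = f) ∪
      (X.erase f).biUnion fun l => P.filter fun x => On x l := by
    intro x hx
    by_cases h : ∀ l ∈ X, On x l → l = f
    · exact mem_union_left _ (mem_filter.mpr ⟨hx, h⟩)
    · push Not at h
      obtain ⟨l, hl, h1, h2⟩ := h
      exact mem_union_right _ (mem_biUnion.mpr ⟨l, mem_erase.mpr ⟨h2, hl⟩, mem_filter.mpr ⟨hx, h1⟩⟩)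
  refine (card_le_card this).trans ((card_union_le _ _).trans (add_le_add le_rfl ?_))
  refine card_biUnion_le.trans ((sum_le_sum (g := fun _ => 1) fun l hl =>
    card_inter_le_one (mem_erase.mp hl).1.symm P hP).trans ?_)
  simpa using card_erase_le

lemma card_avoid_cells {L : Ln F} (hL : L.1 ∉ JJ F) (C : Finset F) (X : Finset (Ln F)) :
    C.card ≤ (C.filter fun α => ∀ i j, ∀ l ∈ X, On (pc L α i j) l → l = L).card + 4 * X.card := by
  have : C ⊆ (C.filter fun α => ∀ i j, ∀ l ∈ X, On (pc L α i j) l → l = L) ∪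
      (X.erase L).biUnion fun l => univ.filter fun α : F => ∃ i j, On (pc L α i j) l := by
    intro x hx
    by_cases h : ∀ i j, ∀ l ∈ X, On (pc L x i j) l → l = L
    · exact mem_union_left _ (mem_filter.mpr ⟨hx, h⟩)
    · push Not at h
      obtain ⟨i, j, l, hl, h1, h2⟩ := h
      exact mem_union_right _ (mem_biUnion.mpr ⟨l, mem_erase.mpr ⟨h2, hl⟩,
        mem_filter.mpr ⟨mem_univ _, i, j, h1⟩⟩)
  refine (card_le_card this).trans ((card_union_le _ _).trans (add_le_add le_rfl ?_))
  refine card_biUnion_le.trans ((sum_le_sum (g := fun _ => 4) fun l hl =>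
    card_pc_on_le hL (mem_erase.mp hl).1).trans ?_)
  have := card_erase_le (s := X) (a := L)
  simp only [sum_const, smul_eq_mul]
  omega

theorem build (s : Dir F → F) (N w H g M R R₁ n : ℕ)
    (hlines : ∀ l : Ln F, l.1 ∈ JJ F →
      Fintype.card F ≤ 4 * ((unc (Sof s)).filter fun x => On x l).card)
    (hpts : ∀ z, ((Sof s).filter fun l => On z l).card ≤ N)
    (hcand : ∀ L : Ln F, L.1 ∉ JJ F → Fintype.card F ≤ 3400 *
      (univ.filter fun α : F => ∀ i j, ∀ l ∈ Sof s, On (pc L α i j) l → l = L).card)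
    (hw : N + 8 ≤ w) (hH : H + 3 ≤ Fintype.card F) (hg : g ≤ Fintype.card F)
    (a1 : 4 * (2 * w * R₁ + (H + 4 * g)) ≤ Fintype.card F) (a2 : 0 < R₁) (a3 : 12 * g ≤ R₁)
    (a4 : 3 * ((Fintype.card F + 1) * Fintype.card F) < 4 ^ (w + 1))
    (b1 : 4 * g * w * w + 16 * g * w ≤ H)
    (c1 : 8 ≤ M) (c2 : 8 * Fintype.card F ≤ M * g) (c3 : 2 * Fintype.card F ≤ 2 ^ n)
    (c4 : 3400 * (272 * M ^ 4 * (R + n + 2) + 4 * (H + 4 * g + 16 * g * w + 8 * g * w * w))
      ≤ Fintype.card F)
    (d1 : 3 * Fintype.card F ^ 2 * (72 * w ^ 3) ^ 3 < R ^ 3) :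
    ∃ D : Data F, D.Good ∧ Sof s ⊆ D.Sp ∧ (D.Sp \ Sof s).card ≤ H + 4 * g ∧
      D.cfg.M.card ≤ 2 * g + 4 * g * w * w := by
  classical
  obtain ⟨Hs, hHs, hHc⟩ := exists_subset_card_eq (s := OD F) (n := H)
    (by have := le_card_OD (F := F); omega)
  have hHo : ∀ d ∈ Hs, d ∉ JJ F := fun d hd => mem_OD.mp (hHs hd)
  obtain ⟨G, -, hG⟩ := exists_subset_card_eq (s := (univ : Finset F)) (n := g) (by simpa using hg)
  set S := Sof s with hS
  set Tl := Hs.image (tang s) with hTl
  set PL := S ∪ Tl with hPL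
  set FL := JJ F ×ˢ G with hFL
  have hTc : Tl.card ≤ H := card_image_le.trans hHc.le
  have hFc : FL.card ≤ 4 * g := by
    rw [hFL, card_product, hG]; exact Nat.mul_le_mul_right _ card_JJ_le
  have hSc : S.card ≤ Fintype.card F := card_Sof_le s
  have hTo : ∀ l ∈ Tl, l.1 ∉ JJ F ∧ l = tang s l.1 := by
    intro l hl
    obtain ⟨d, hd, rfl⟩ := mem_image.mp hl
    exact ⟨hHo d hd, rfl⟩
  have hord : ∀ L ∈ PL, L.1 ∉ JJ F := by
    intro L hL
    rcases mem_union.mp hL with h | h
    · exact (mem_Sof.mp h).1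
    · exact (hTo L h).1
  have hFJ : ∀ f ∈ FL, f.1 ∈ JJ F := fun f hf => (mem_product.mp hf).1
  have hPz : ∀ z, (PL.filter fun l => On z l).card ≤ N + 4 := by
    intro z
    rw [hPL, filter_union]
    exact (card_union_le _ _).trans (add_le_add (hpts z) (card_tang s Hs hHo z))
  -- cells of type F
  obtain ⟨fc, f1, f2, f3⟩ := fcells FL
    (fun f => ((unc S).filter fun x => On x f).filter fun x => ∀ l ∈ Tl ∪ FL, On x l → l = f) w R₁
    (fun f _ x hx => (mem_filter.mp (mem_filter.mp hx).1).2)
    (fun f hf => by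
      have h1 := card_avoid_pts f ((unc S).filter fun x => On x f)
        (fun x hx => (mem_filter.mp hx).2) (Tl ∪ FL)
      have h2 := hlines f (hFJ f hf)
      have h3 := card_union_le Tl FL
      omega) a2 (by omega) a4
  have F1a : ∀ f ∈ FL, ∀ b k, On (fc f b k) f := fun f hf b k =>
    (mem_filter.mp (mem_filter.mp (f1 f hf b k)).1).2
  have F1b : ∀ f ∈ FL, ∀ b k, ∀ l ∈ PL ∪ FL, On (fc f b k) l → l = f := by
    intro f hf b k l hl hon
    obtain ⟨h1, h2⟩ := mem_filter.mp (f1 f hf b k)
    rw [hPL, union_assoc] at hl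
    rcases mem_union.mp hl with h | h
    · exact absurd hon (mem_unc.mp (mem_filter.mp h1).1 l h)
    · exact h2 l h hon
  -- host directions
  obtain ⟨host, g1, g2, g3⟩ := hosts FL w fc Hs (by
    rw [hHc]
    refine le_trans (add_le_add ?_ ?_) b1
    · exact Nat.mul_le_mul_right _ (Nat.mul_le_mul_right _ hFc)
    · exact Nat.mul_le_mul_right _ (by omega))
  -- candidates
  let U1 : Finset (Ln F × Bool × Fin w) := FL ×ˢ univ
  let U2 : Finset (Ln F × Fin w × Fin w) := FL ×ˢ univ
  have hU1 : U1.card ≤ 8 * g * w := by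
    simp only [U1, card_product, card_univ, Fintype.card_prod, Fintype.card_bool, Fintype.card_fin]
    nlinarith
  have hU2 : U2.card ≤ 4 * g * w * w := by
    simp only [U2, card_product, card_univ, Fintype.card_prod, Fintype.card_fin]
    rw [mul_assoc (4 * g)]
    exact Nat.mul_le_mul_right _ hFc
  let X1 : Finset (Ln F) := U1.image fun t => (none, val none (fc t.1 t.2.1 t.2.2))
  let X2 : Finset (Ln F) := U1.image fun t => (some 0, val (some 0) (fc t.1 t.2.1 t.2.2))
  let X3 : Finset (Ln F) := U2.image fun φ => (host φ, val (host φ) (fc φ.1 false φ.2.1))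
  let X4 : Finset (Ln F) := U2.image fun φ => (host φ, val (host φ) (fc φ.1 true φ.2.2))
  let X : Finset (Ln F) := (Tl ∪ FL) ∪ ((X1 ∪ X2) ∪ (X3 ∪ X4))
  have hX : X.card ≤ H + 4 * g + 16 * g * w + 8 * g * w * w := by
    have e1 : X1.card ≤ 8 * g * w := card_image_le.trans hU1
    have e2 : X2.card ≤ 8 * g * w := card_image_le.trans hU1
    have e3 : X3.card ≤ 4 * g * w * w := card_image_le.trans hU2
    have e4 : X4.card ≤ 4 * g * w * w := card_image_le.trans hU2
    have e5 := card_union_le (Tl ∪ FL) ((X1 ∪ X2) ∪ (X3 ∪ X4))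
    have e6 := card_union_le Tl FL
    have e7 := card_union_le (X1 ∪ X2) (X3 ∪ X4)
    have e8 := card_union_le X1 X2
    have e9 := card_union_le X3 X4
    have e10 : 16 * g * w = 2 * (8 * g * w) := by ring
    have e11 : 8 * g * w * w = 2 * (4 * g * w * w) := by ring
    change ((Tl ∪ FL) ∪ ((X1 ∪ X2) ∪ (X3 ∪ X4))).card ≤ _
    omega
  let Cand : Ln F → Finset F := fun L =>
    (univ.filter fun α : F => ∀ i j, ∀ l ∈ S, On (pc L α i j) l → l = L).filter
      fun α => ∀ i j, ∀ l ∈ X, On (pc L α i j) l → l = L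
  -- pools
  obtain ⟨A, B, p1, p2, p3, p4, p5, p6, p7⟩ := pools PL (fun L => decide (L ∈ S)) Cand M g R n
    hord c1 c2 (by
      have := card_union_le S Tl
      rw [← hPL] at this
      omega) (fun L hL => by
      have h1 := card_avoid_cells (hord L hL)
        (univ.filter fun α : F => ∀ i j, ∀ l ∈ S, On (pc L α i j) l → l = L) X
      have h2 := hcand L (hord L hL)
      change _ ≤ ((univ.filter fun α : F => ∀ i j, ∀ l ∈ S, On (pc L α i j) l → l = L).filter
        fun α => ∀ i j, ∀ l ∈ X, On (pc L α i j) l → l = L).card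
      omega)
  have hCS : ∀ L, ∀ α ∈ Cand L, ∀ i j, ∀ l ∈ PL ∪ FL, On (pc L α i j) l → l = L := by
    intro L α hα i j l hl hon
    obtain ⟨h1, h2⟩ := mem_filter.mp hα
    rw [hPL, union_assoc] at hl
    rcases mem_union.mp hl with h | h
    · exact (mem_filter.mp h1).2 i j l h hon
    · exact h2 i j l (mem_union_left _ h) hon
  -- options
  obtain ⟨opt, o1, o2⟩ := options PL (fun L => (Cand L).filter fun α =>
      ∀ j, xa L α j ∈ A (decide (L ∈ S)) ∧ ya L α j ∈ B (decide (L ∈ S))) w R hord
    (fun z => (hPz z).trans (by omega)) (by omega) p7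
    (fun L _ α hα i j l hl => hCS L α (mem_filter.mp hα).1 i j l (mem_union_left _ hl)) d1
  have oC : ∀ L ∈ PL, opt L ∈ Cand L := fun L hL => (mem_filter.mp (o1 L hL)).1
  have oX : ∀ L ∈ PL, ∀ i j, ∀ l ∈ X, On (pc L (opt L) i j) l → l = L := fun L hL =>
    (mem_filter.mp (oC L hL)).2
  have oA : ∀ L ∈ PL, ∀ j, xa L (opt L) j ∈ A (decide (L ∈ S)) := fun L hL j =>
    ((mem_filter.mp (o1 L hL)).2 j).1
  have oB : ∀ L ∈ PL, ∀ j, ya L (opt L) j ∈ B (decide (L ∈ S)) := fun L hL j =>
    ((mem_filter.mp (o1 L hL)).2 j).2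
  let D : Data F := ⟨PL, opt, G, w, fc, host⟩
  have hsub : ∀ (A : Bool → Finset F) (b : Bool), A b ⊆ A false ∪ A true := by
    intro A b
    cases b
    · exact subset_union_left
    · exact subset_union_right
  have hdis : ∀ (A : Bool → Finset F), Disjoint (A false) (A true) → ∀ b b', b ≠ b' →
      ∀ a ∈ A b, ∀ a' ∈ A b', a ≠ a' := by
    intro A hA b b' hb a ha a' ha' e
    subst e
    cases b <;> cases b'
    · exact hb rfl
    · exact disjoint_left.mp hA ha ha'
    · exact disjoint_left.mp hA ha' ha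
    · exact hb rfl
  have F0x : D.Mx.card < g := by
    refine lt_of_le_of_lt ?_ p1
    have : D.Mx ⊆ (A false ∪ A true).image fun a => (none, a, a + 1) := by
      intro t ht
      obtain ⟨u, hu, rfl⟩ := mem_image.mp ht
      exact mem_image.mpr ⟨_, hsub A _ (oA u.1 (mem_product.mp hu).1 u.2), rfl⟩
    exact (card_le_card this).trans card_image_le
  have F0y : D.My.card < g := by
    refine lt_of_le_of_lt ?_ p2
    have : D.My ⊆ (B false ∪ B true).image fun a => (some 0, a, a + 1) := by
      intro t ht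
      obtain ⟨u, hu, rfl⟩ := mem_image.mp ht
      exact mem_image.mpr ⟨_, hsub B _ (oB u.1 (mem_product.mp hu).1 u.2), rfl⟩
    exact (card_le_card this).trans card_image_le
  have hSd : ∀ d ∉ JJ F, (d, s d) ∈ PL.filter fun L => L.1 = d := fun d hd =>
    mem_filter.mpr ⟨mem_union_left _ (mem_Sof.mpr ⟨hd, rfl⟩), rfl⟩
  refine ⟨D, ?_, subset_union_left.trans subset_union_left, ?_, ?_⟩
  · refine
      { P0 := hord
        P1 := fun d hd => ⟨card_pos.mpr ⟨_, hSd d hd⟩, ?_⟩
        P1h := fun φ hφ => ?_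
        P2 := fun L hL i j l hl => hCS L _ (oC L hL) i j l hl
        P3x := fun L hL L' hL' j j' (e : xa L (opt L) j + 1 = xa L' (opt L') j') =>
          p5 _ _ _ (oA L hL j) (e ▸ oA L' hL' j')
        P3y := fun L hL L' hL' j j' (e : ya L (opt L) j + 1 = ya L' (opt L') j') =>
          p6 _ _ _ (oB L hL j) (e ▸ oB L' hL' j')
        P4x := fun L hL i j f hf b k e => ?_
        P4y := fun L hL i j f hf b k e => ?_
        P4f := fun L hL i j φ hφ => ⟨fun e => ?_, fun e => ?_⟩
        P5 := fun L hL L' hL' hne hd j j' => ?_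
        P6 := o2
        F0x := hG ▸ F0x
        F0y := hG ▸ F0y
        F1a := F1a
        F1b := F1b
        F1c := f2
        F2 := f3
        F3a := fun φ hφ => hHo _ (g1 φ hφ)
        F3b := g2
        F3c := g3
        F4 := fun z => ?_
        F5 := le_trans (by omega) hw }
    · have : (PL.filter fun L => L.1 = d) ⊆ {(d, s d), tang s d} := by
        intro L hL
        obtain ⟨h1, rfl⟩ := mem_filter.mp hL
        rcases mem_union.mp h1 with h | h
        · exact mem_insert.mpr (Or.inl (by rw [← (mem_Sof.mp h).2]))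
        · exact mem_insert.mpr (Or.inr (mem_singleton.mpr (hTo L h).2))
      exact (card_le_card this).trans card_le_two
    · have hd := g1 φ hφ
      exact one_lt_card.mpr ⟨_, hSd _ (hHo _ hd), tang s (host φ),
        mem_filter.mpr ⟨mem_union_right _ (mem_image_of_mem _ hd), rfl⟩,
        fun e : (host φ, s (host φ)) = tang s (host φ) => tang_notMem s (host φ)
          (e ▸ (mem_Sof (s := s) (l := (host φ, s (host φ)))).mpr ⟨hHo _ hd, rfl⟩)⟩
    · have := oX L hL i j (none, val none (fc f b k)) (mem_union_right _ (mem_union_left _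
        (mem_union_left _ (mem_image.mpr ⟨(f, b, k), mem_product.mpr ⟨hf, mem_univ _⟩, rfl⟩)))) e
      exact hord L hL (this ▸ Data.none_mem_JJ)
    · have := oX L hL i j (some 0, val (some 0) (fc f b k)) (mem_union_right _ (mem_union_left _
        (mem_union_right _ (mem_image.mpr ⟨(f, b, k), mem_product.mpr ⟨hf, mem_univ _⟩, rfl⟩)))) e
      exact hord L hL (this ▸ Data.zero_mem_JJ)
    · have := oX L hL i j (host φ, val (host φ) (fc φ.1 false φ.2.1)) (mem_union_right _
        (mem_union_right _ (mem_union_left _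
          (mem_image.mpr ⟨φ, mem_product.mpr ⟨hφ, mem_univ _⟩, rfl⟩)))) e
      have h2 := F1b φ.1 hφ false φ.2.1 L (mem_union_left _ hL) (this ▸ on_self _ _)
      exact hord L hL (h2 ▸ hFJ _ hφ)
    · have := oX L hL i j (host φ, val (host φ) (fc φ.1 true φ.2.2)) (mem_union_right _
        (mem_union_right _ (mem_union_right _
          (mem_image.mpr ⟨φ, mem_product.mpr ⟨hφ, mem_univ _⟩, rfl⟩)))) e
      have h2 := F1b φ.1 hφ true φ.2.2 L (mem_union_left _ hL) (this ▸ on_self _ _)
      exact hord L hL (h2 ▸ hFJ _ hφ)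
    · have hk : decide (L ∈ S) ≠ decide (L' ∈ S) := by
        intro e
        have e' : L ∈ S ↔ L' ∈ S := by simpa using e
        apply hne
        by_cases h : L ∈ S
        · exact Prod.ext hd (by rw [(mem_Sof.mp h).2, (mem_Sof.mp (e'.mp h)).2, hd])
        · have h1 := (mem_union.mp hL).resolve_left h
          have h2 := (mem_union.mp hL').resolve_left fun q => h (e'.mpr q)
          rw [(hTo L h1).2, (hTo L' h2).2, hd]
      exact ⟨hdis A p3 _ _ hk _ (oA L hL j) _ (oA L' hL' j'),
        hdis B p4 _ _ hk _ (oB L hL j) _ (oB L' hL' j')⟩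
    · change ((PL ∪ FL).filter fun l => On z l).card ≤ w
      rw [filter_union]
      have h1 := hPz z
      have h2 := card_FL_on G z
      exact (card_union_le _ _).trans (by rw [← hFL] at h2; omega)
  · have : D.Sp \ S ⊆ Tl ∪ FL := by
      intro l hl
      obtain ⟨h1, h2⟩ := mem_sdiff.mp hl
      change l ∈ (S ∪ Tl) ∪ FL at h1
      rw [union_assoc] at h1
      exact (mem_union.mp h1).resolve_left h2
    exact (card_le_card this).trans ((card_union_le _ _).trans (add_le_add hTc hFc))
  · change (D.Mx ∪ D.My ∪ D.Mf).card ≤ _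
    have h1 := card_union_le (D.Mx ∪ D.My) D.Mf
    have h2 := card_union_le D.Mx D.My
    have h3 : D.Mf.card ≤ 4 * g * w * w := card_image_le.trans hU2
    omega

end Vale.Agent.P045
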