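import Vale.Agent.P045.Abstract

/-! The concrete configuration: lines of type P (four cells, linked through the horizontal and
vertical pools) and lines of type F (many cells, linked through fresh merged pairs). -/

set_option linter.unusedSectionVars false

namespace Vale.Agent.P045

open Finset

variable {F : Type} [Field F] [Fintype F] [DecidableEq F]

def JJ (F : Type) [Field F] [DecidableEq F] : Finset (Dir F) := {none, some 0, some 1, some (-1)}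
def slope (L : Ln F) : F := L.1.getD 0
def bit (b : Bool) : F := if b then 1 else 0
def xa (L : Ln F) (α : F) (j : Bool) : F := α + bit j * (slope L)⁻¹
def ya (L : Ln F) (α : F) (i : Bool) : F := slope L * α + L.2 + bit i * slope L
def pc (L : Ln F) (α : F) (i j : Bool) : Pt F := (xa L α j + bit i, ya L α i + bit j)

lemma ord_spec {L : Ln F} (h : L.1 ∉ JJ F) :
    L.1 = some (slope L) ∧ slope L ≠ 0 ∧ slope L ≠ 1 ∧ slope L ≠ -1 := by
  obtain ⟨d, c⟩ := L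
  cases d with
  | none => simp [JJ] at h
  | some m => simpa [JJ, slope] using h

lemma ord_inv {L : Ln F} (h : L.1 ∉ JJ F) :
    (slope L)⁻¹ ≠ 0 ∧ (slope L)⁻¹ ≠ 1 ∧ (slope L)⁻¹ ≠ -1 := by
  obtain ⟨-, h0, h1, h2⟩ := ord_spec h
  refine ⟨inv_ne_zero h0, fun h => h1 (inv_eq_one.mp h), fun h => h2 ?_⟩
  rw [← inv_inv (slope L), h]; simp

lemma pc_on {L : Ln F} (h : L.1 ∉ JJ F) (α : F) (i j : Bool) : On (pc L α i j) L := by
  obtain ⟨h1, h0, -, -⟩ := ord_spec h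
  unfold On
  rw [h1]
  simp only [val, pc, xa, ya]
  field_simp
  ring

lemma val_none_pc (L : Ln F) (α : F) (i j : Bool) :
    val none (pc L α i j) = xa L α j + bit i := rfl
lemma val_zero_pc (L : Ln F) (α : F) (i j : Bool) :
    val (some 0) (pc L α i j) = ya L α i + bit j := by simp [val, pc]

lemma xa_bit_inj {L : Ln F} (h : L.1 ∉ JJ F) (α : F) {i j i' j' : Bool}
    (he : xa L α j + bit i = xa L α j' + bit i') : i = i' ∧ j = j' := by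
  obtain ⟨h0, h1, h2⟩ := ord_inv h
  unfold xa at he
  generalize (slope L)⁻¹ = u at *
  cases i <;> cases j <;> cases i' <;> cases j' <;> simp [bit] at he ⊢
  all_goals first
    | exact h0 (by linear_combination he)
    | exact h0 (by linear_combination -he)
    | exact h1 (by linear_combination he)
    | exact h1 (by linear_combination -he)
    | exact h2 (by linear_combination he)
    | exact h2 (by linear_combination -he)

lemma ya_bit_inj {L : Ln F} (h : L.1 ∉ JJ F) (α : F) {i j i' j' : Bool}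
    (he : ya L α i + bit j = ya L α i' + bit j') : i = i' ∧ j = j' := by
  obtain ⟨-, h0, h1, h2⟩ := ord_spec h
  unfold ya at he
  generalize slope L = u at *
  cases i <;> cases j <;> cases i' <;> cases j' <;> simp [bit] at he ⊢
  all_goals first
    | exact h0 (by linear_combination he)
    | exact h0 (by linear_combination -he)
    | exact h1 (by linear_combination he)
    | exact h1 (by linear_combination -he)
    | exact h2 (by linear_combination he)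
    | exact h2 (by linear_combination -he)

lemma pc_inj {L : Ln F} (h : L.1 ∉ JJ F) (α : F) {i j i' j' : Bool}
    (he : pc L α i j = pc L α i' j') : i = i' ∧ j = j' :=
  xa_bit_inj h α (congrArg Prod.fst he)

structure Data (F : Type) where
  PL : Finset (Ln F)
  opt : Ln F → F
  G : Finset F
  w : ℕ
  fc : Ln F → Bool → Fin w → Pt F
  host : Ln F × Fin w × Fin w → Dir F

namespace Data

variable (D : Data F)

def FL : Finset (Ln F) := JJ F ×ˢ D.G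
def Sp : Finset (Ln F) := D.PL ∪ D.FL
def p (L : Ln F) (i j : Bool) : Pt F := pc L (D.opt L) i j
def x (L : Ln F) (j : Bool) : F := xa L (D.opt L) j
def y (L : Ln F) (i : Bool) : F := ya L (D.opt L) i
def aa (φ : Ln F × Fin D.w × Fin D.w) : Pt F := D.fc φ.1 false φ.2.1
def cc (φ : Ln F × Fin D.w × Fin D.w) : Pt F := D.fc φ.1 true φ.2.2
def PC : Finset (Pt F) := (D.PL ×ˢ (univ : Finset (Bool × Bool))).image fun t => D.p t.1 t.2.1 t.2.2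
def FC : Finset (Pt F) :=
  (D.FL ×ˢ (univ : Finset (Bool × Fin D.w))).image fun t => D.fc t.1 t.2.1 t.2.2
def Mx : Finset (Dir F × F × F) :=
  (D.PL ×ˢ (univ : Finset Bool)).image fun t => (none, D.x t.1 t.2, D.x t.1 t.2 + 1)
def My : Finset (Dir F × F × F) :=
  (D.PL ×ˢ (univ : Finset Bool)).image fun t => (some 0, D.y t.1 t.2, D.y t.1 t.2 + 1)
def Mf : Finset (Dir F × F × F) :=
  (D.FL ×ˢ (univ : Finset (Fin D.w × Fin D.w))).image fun φ =>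
    (D.host φ, val (D.host φ) (D.aa φ), val (D.host φ) (D.cc φ))
open Classical in
noncomputable def col (z : Pt F) : Bool :=
  decide ((∃ L ∈ D.PL, ∃ i j, D.p L i j = z ∧ i ≠ j) ∨ ∃ f ∈ D.FL, ∃ i, D.fc f true i = z)
noncomputable def cfg : Cfg F := ⟨D.Sp, D.PC ∪ D.FC, D.col, D.Mx ∪ D.My ∪ D.Mf⟩

structure Good : Prop where
  P0 : ∀ L ∈ D.PL, L.1 ∉ JJ F
  P1 : ∀ d ∉ JJ F, 1 ≤ (D.PL.filter fun L => L.1 = d).card ∧
    (D.PL.filter fun L => L.1 = d).card ≤ 2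
  P1h : ∀ φ, φ.1 ∈ D.FL → 2 ≤ (D.PL.filter fun L => L.1 = D.host φ).card
  P2 : ∀ L ∈ D.PL, ∀ i j, ∀ l ∈ D.Sp, On (D.p L i j) l → l = L
  P3x : ∀ L ∈ D.PL, ∀ L' ∈ D.PL, ∀ j j', D.x L j + 1 ≠ D.x L' j'
  P3y : ∀ L ∈ D.PL, ∀ L' ∈ D.PL, ∀ j j', D.y L j + 1 ≠ D.y L' j'
  P4x : ∀ L ∈ D.PL, ∀ i j, ∀ f ∈ D.FL, ∀ b k, val none (D.p L i j) ≠ val none (D.fc f b k)
  P4y : ∀ L ∈ D.PL, ∀ i j, ∀ f ∈ D.FL, ∀ b k,
    val (some 0) (D.p L i j) ≠ val (some 0) (D.fc f b k)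
  P4f : ∀ L ∈ D.PL, ∀ i j, ∀ φ, φ.1 ∈ D.FL →
    val (D.host φ) (D.p L i j) ≠ val (D.host φ) (D.aa φ) ∧
    val (D.host φ) (D.p L i j) ≠ val (D.host φ) (D.cc φ)
  P5 : ∀ L ∈ D.PL, ∀ L' ∈ D.PL, L ≠ L' → L.1 = L'.1 → ∀ j j',
    D.x L j ≠ D.x L' j' ∧ D.y L j ≠ D.y L' j'
  P6 : ∀ z, ∃ Bz : Finset (Ln F), Bz.card ≤ 2 ∧
    (∀ L ∈ D.PL, ∀ L' ∈ D.PL, On z L → On z L' → L ∉ Bz → L' ∉ Bz → L ≠ L' → ∀ j j',
      D.x L j ≠ D.x L' j' ∧ D.y L j ≠ D.y L' j') ∧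
    (∀ L₁ ∈ D.PL, ∀ L₂ ∈ D.PL, ∀ L₃ ∈ D.PL, On z L₁ → On z L₂ → On z L₃ →
      L₁ ∉ Bz → L₂ ∉ Bz → L₃ ∉ Bz → L₁ ≠ L₂ → L₁ ≠ L₃ → L₂ ≠ L₃ →
      ∀ i₁ j₁ i₂ j₂ i₃ j₃ l, On (D.p L₁ i₁ j₁) l → On (D.p L₂ i₂ j₂) l →
        ¬ On (D.p L₃ i₃ j₃) l)
  F0x : D.Mx.card < D.G.card
  F0y : D.My.card < D.G.card
  F1a : ∀ f ∈ D.FL, ∀ b k, On (D.fc f b k) f
  F1b : ∀ f ∈ D.FL, ∀ b k, ∀ l ∈ D.Sp, On (D.fc f b k) l → l = f
  F1c : ∀ f ∈ D.FL, ∀ b k b' k', D.fc f b k = D.fc f b' k' → b = b' ∧ k = k'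
  F2 : ∀ l ∉ D.FL, ((D.FL ×ˢ (univ : Finset (Bool × Fin D.w))).filter
    fun t => On (D.fc t.1 t.2.1 t.2.2) l).card ≤ D.w
  F3a : ∀ φ, φ.1 ∈ D.FL → D.host φ ∉ JJ F
  F3b : ∀ φ ψ, φ.1 ∈ D.FL → ψ.1 ∈ D.FL → D.host φ = D.host ψ → φ = ψ
  F3c : ∀ φ, φ.1 ∈ D.FL → ∀ f ∈ D.FL, ∀ b k,
    (val (D.host φ) (D.fc f b k) = val (D.host φ) (D.aa φ) → D.fc f b k = D.aa φ) ∧
    (val (D.host φ) (D.fc f b k) = val (D.host φ) (D.cc φ) → D.fc f b k = D.cc φ)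
  F4 : ∀ z, (D.Sp.filter fun l => On z l).card ≤ D.w
  F5 : 2 ≤ D.w

variable {D}

lemma mem_FL {f : Ln F} : f ∈ D.FL ↔ f.1 ∈ JJ F ∧ f.2 ∈ D.G := mem_product

lemma mem_cell {z : Pt F} : z ∈ D.cfg.Cell ↔
    (∃ L ∈ D.PL, ∃ i j, D.p L i j = z) ∨ ∃ f ∈ D.FL, ∃ b k, D.fc f b k = z := by
  simp [cfg, PC, FC]

lemma p_mem {L : Ln F} (hL : L ∈ D.PL) (i j : Bool) : D.p L i j ∈ D.cfg.Cell :=
  mem_cell.mpr (Or.inl ⟨L, hL, i, j, rfl⟩)

lemma fc_mem {f : Ln F} (hf : f ∈ D.FL) (b : Bool) (k : Fin D.w) : D.fc f b k ∈ D.cfg.Cell :=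
  mem_cell.mpr (Or.inr ⟨f, hf, b, k, rfl⟩)

lemma mem_M {e : Dir F} {a b : F} : (e, a, b) ∈ D.cfg.M ↔
    (e = none ∧ ∃ L ∈ D.PL, ∃ j, a = D.x L j ∧ b = a + 1) ∨
    (e = some 0 ∧ ∃ L ∈ D.PL, ∃ j, a = D.y L j ∧ b = a + 1) ∨
    ∃ φ, φ.1 ∈ D.FL ∧ e = D.host φ ∧ a = val e (D.aa φ) ∧ b = val e (D.cc φ) := by
  simp only [cfg, Mx, My, Mf, mem_union, mem_image, mem_product, mem_univ, and_true,
    Prod.mk.injEq, or_assoc]
  refine or_congr ?_ (or_congr ?_ ?_)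
  · constructor
    · rintro ⟨t, ht, rfl, rfl, rfl⟩; exact ⟨rfl, t.1, ht, t.2, rfl, rfl⟩
    · rintro ⟨rfl, L, hL, j, rfl, rfl⟩; exact ⟨(L, j), hL, rfl, rfl, rfl⟩
  · constructor
    · rintro ⟨t, ht, rfl, rfl, rfl⟩; exact ⟨rfl, t.1, ht, t.2, rfl, rfl⟩
    · rintro ⟨rfl, L, hL, j, rfl, rfl⟩; exact ⟨(L, j), hL, rfl, rfl, rfl⟩
  · constructor
    · rintro ⟨t, ht, rfl, rfl, rfl⟩; exact ⟨t, ht, rfl, rfl, rfl⟩
    · rintro ⟨t, ht, rfl, rfl, rfl⟩; exact ⟨t, ht, rfl, rfl, rfl⟩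

lemma none_mem_JJ : (none : Dir F) ∈ JJ F := by simp [JJ]
lemma zero_mem_JJ : (some 0 : Dir F) ∈ JJ F := by simp [JJ]

namespace Good

variable (h : D.Good)
include h

lemma p_on {L : Ln F} (hL : L ∈ D.PL) (i j : Bool) : On (D.p L i j) L := pc_on (h.P0 L hL) _ i j

lemma PL_Sp {L : Ln F} (hL : L ∈ D.PL) : L ∈ D.cfg.Sp := mem_union_left _ hL
lemma FL_Sp {L : Ln F} (hL : L ∈ D.FL) : L ∈ D.cfg.Sp := mem_union_right _ hL

lemma PL_ne_FL {L f : Ln F} (hL : L ∈ D.PL) (hf : f ∈ D.FL) : L ≠ f := by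
  rintro rfl
  exact h.P0 L hL (mem_FL.mp hf).1

lemma p_ne_fc {L f : Ln F} (hL : L ∈ D.PL) (hf : f ∈ D.FL) (i j b : Bool) (k : Fin D.w) :
    D.p L i j ≠ D.fc f b k := fun he => h.P4x L hL i j f hf b k (by rw [he])

lemma p_inj {L L' : Ln F} (hL : L ∈ D.PL) (hL' : L' ∈ D.PL) {i j i' j' : Bool}
    (he : D.p L i j = D.p L' i' j') : L = L' ∧ i = i' ∧ j = j' := by
  have : L' = L := h.P2 L hL i j L' (h.PL_Sp hL') (he ▸ h.p_on hL' i' j')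
  subst this
  exact ⟨rfl, pc_inj (h.P0 _ hL) _ he⟩

lemma fc_inj {f f' : Ln F} (hf : f ∈ D.FL) (hf' : f' ∈ D.FL) {b b' : Bool} {k k' : Fin D.w}
    (he : D.fc f b k = D.fc f' b' k') : f = f' ∧ b = b' ∧ k = k' := by
  have : f' = f := h.F1b f hf b k f' (h.FL_Sp hf') (he ▸ h.F1a f' hf' b' k')
  subst this
  exact ⟨rfl, h.F1c _ hf _ _ _ _ he⟩

lemma col_p {L : Ln F} (hL : L ∈ D.PL) (i j : Bool) : D.cfg.col (D.p L i j) = (i != j) := by
  have : ((∃ L' ∈ D.PL, ∃ i' j', D.p L' i' j' = D.p L i j ∧ i' ≠ j') ∨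
      ∃ f ∈ D.FL, ∃ k, D.fc f true k = D.p L i j) ↔ i ≠ j := by
    constructor
    · rintro (⟨L', hL', i', j', he, hne⟩ | ⟨f, hf, k, he⟩)
      · obtain ⟨-, rfl, rfl⟩ := h.p_inj hL' hL he
        exact hne
      · exact absurd he.symm (h.p_ne_fc hL hf _ _ _ _)
    · intro hne
      exact Or.inl ⟨L, hL, i, j, rfl, hne⟩
  simp only [cfg, col, this]
  cases i <;> cases j <;> simp

lemma col_fc {f : Ln F} (hf : f ∈ D.FL) (b : Bool) (k : Fin D.w) :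
    D.cfg.col (D.fc f b k) = b := by
  have : ((∃ L' ∈ D.PL, ∃ i' j', D.p L' i' j' = D.fc f b k ∧ i' ≠ j') ∨
      ∃ f' ∈ D.FL, ∃ k', D.fc f' true k' = D.fc f b k) ↔ b = true := by
    constructor
    · rintro (⟨L', hL', i', j', he, -⟩ | ⟨f', hf', k', he⟩)
      · exact absurd he (h.p_ne_fc hL' hf _ _ _ _)
      · exact (h.fc_inj hf' hf he).2.1.symm
    · rintro rfl
      exact Or.inr ⟨f, hf, k, rfl⟩
  simp only [cfg, col, this]
  cases b <;> simp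

lemma aa_ne_cc {φ : Ln F × Fin D.w × Fin D.w} (hφ : φ.1 ∈ D.FL) :
    val (D.host φ) (D.aa φ) ≠ val (D.host φ) (D.cc φ) := by
  intro he
  have := (h.F3c φ hφ φ.1 hφ false φ.2.1).2 he
  have := (h.F1c _ hφ _ _ _ _ this).1
  simp at this

lemma matching : D.cfg.Matching := by
  intro d a b a' b' h1 h2
  rcases mem_M.mp h1 with ⟨hd, L, hL, j, rfl, rfl⟩ | ⟨hd, L, hL, j, rfl, rfl⟩ |
      ⟨φ, hφ, hd, rfl, rfl⟩ <;>
    rcases mem_M.mp h2 with ⟨hd', L', hL', j', rfl, rfl⟩ | ⟨hd', L', hL', j', rfl, rfl⟩ |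
      ⟨ψ, hψ, hd', rfl, rfl⟩
  · exact ⟨(h.P3x L' hL' L hL j' j).symm, by simp⟩
  · rw [hd] at hd'; simp at hd'
  · exact absurd (hd' ▸ hd ▸ none_mem_JJ) (h.F3a ψ hψ)
  · rw [hd] at hd'; simp at hd'
  · exact ⟨(h.P3y L' hL' L hL j' j).symm, by simp⟩
  · exact absurd (hd' ▸ hd ▸ zero_mem_JJ) (h.F3a ψ hψ)
  · exact absurd (hd ▸ hd' ▸ none_mem_JJ) (h.F3a φ hφ)
  · exact absurd (hd ▸ hd' ▸ zero_mem_JJ) (h.F3a φ hφ)
  · have : φ = ψ := h.F3b φ ψ hφ hψ (hd.symm.trans hd')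
    subst this
    subst hd
    exact ⟨h.aa_ne_cc hφ, by simp⟩

lemma lnk_p {L : Ln F} (hL : L ∈ D.PL) {i j : Bool} {e : Dir F} {z : Pt F}
    (hl : D.cfg.lnk e (D.p L i j) z) : val e (D.p L i j) = val e z ∨
      (e = none ∧ val e z = D.x L j + bit (!i)) ∨ (e = some 0 ∧ val e z = D.y L i + bit (!j)) := by
  have hx : val none (D.p L i j) = D.x L j + bit i := rfl
  have hy : val (some 0) (D.p L i j) = D.y L i + bit j := val_zero_pc _ _ _ _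
  rcases hl with hl | hl | hl
  · exact Or.inl hl
  · right
    rcases mem_M.mp hl with ⟨rfl, L', hL', j', h1, h2⟩ | ⟨rfl, L', hL', j', h1, h2⟩ |
      ⟨φ, hφ, rfl, h1, h2⟩
    · refine Or.inl ⟨rfl, ?_⟩
      rw [hx] at h1 h2
      cases i
      · simpa [bit] using h2
      · exact absurd (by simpa [bit] using h1) (h.P3x L hL L' hL' j j')
    · refine Or.inr ⟨rfl, ?_⟩
      rw [hy] at h1 h2
      cases j
      · simpa [bit] using h2
      · exact absurd (by simpa [bit] using h1) (h.P3y L hL L' hL' i j')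
    · exact absurd h1 (h.P4f L hL i j φ hφ).1
  · right
    rcases mem_M.mp hl with ⟨rfl, L', hL', j', h1, h2⟩ | ⟨rfl, L', hL', j', h1, h2⟩ |
      ⟨φ, hφ, rfl, h1, h2⟩
    · refine Or.inl ⟨rfl, ?_⟩
      rw [hx] at h2
      cases i
      · rw [h1] at h2
        exact absurd (by simpa [bit] using h2.symm) (h.P3x L' hL' L hL j' j)
      · simpa [bit] using h2.symm
    · refine Or.inr ⟨rfl, ?_⟩
      rw [hy] at h2
      cases j
      · rw [h1] at h2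
        exact absurd (by simpa [bit] using h2.symm) (h.P3y L' hL' L hL j' i)
      · simpa [bit] using h2.symm
    · exact absurd h2 (h.P4f L hL i j φ hφ).2

lemma lnk_fc {f : Ln F} (hf : f ∈ D.FL) {b : Bool} {k : Fin D.w} {e : Dir F} {z : Pt F}
    (hl : D.cfg.lnk e (D.fc f b k) z) : val e (D.fc f b k) = val e z ∨
      ∃ φ, φ.1 ∈ D.FL ∧ e = D.host φ ∧ ((D.fc f b k = D.aa φ ∧ val e z = val e (D.cc φ)) ∨
        (D.fc f b k = D.cc φ ∧ val e z = val e (D.aa φ))) := by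
  have hx : ∀ L i j, val none (D.p L i j) = D.x L j + bit i := fun _ _ _ => rfl
  have hy : ∀ L i j, val (some 0) (D.p L i j) = D.y L i + bit j :=
    fun _ _ _ => val_zero_pc _ _ _ _
  rcases hl with hl | hl | hl
  · exact Or.inl hl
  · right
    rcases mem_M.mp hl with ⟨rfl, L', hL', j', h1, h2⟩ | ⟨rfl, L', hL', j', h1, h2⟩ |
      ⟨φ, hφ, rfl, h1, h2⟩
    · exact absurd (by rw [hx, h1]; simp [bit]) (h.P4x L' hL' false j' f hf b k)
    · exact absurd (by rw [hy, h1]; simp [bit]) (h.P4y L' hL' j' false f hf b k)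
    · exact ⟨φ, hφ, rfl, Or.inl ⟨(h.F3c φ hφ f hf b k).1 h1, h2⟩⟩
  · right
    rcases mem_M.mp hl with ⟨rfl, L', hL', j', h1, h2⟩ | ⟨rfl, L', hL', j', h1, h2⟩ |
      ⟨φ, hφ, rfl, h1, h2⟩
    · exact absurd (by rw [hx, h2, h1]; simp [bit]) (h.P4x L' hL' true j' f hf b k)
    · exact absurd (by rw [hy, h2, h1]; simp [bit]) (h.P4y L' hL' j' true f hf b k)
    · exact ⟨φ, hφ, rfl, Or.inr ⟨(h.F3c φ hφ f hf b k).2 h2, h1⟩⟩

lemma H1 : ∀ x ∈ D.cfg.Cell, ∀ l ∈ D.cfg.Sp, ∀ l' ∈ D.cfg.Sp, On x l → On x l' → l = l' := by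
  intro x hx l hl l' hl' h1 h2
  rcases mem_cell.mp hx with ⟨L, hL, i, j, rfl⟩ | ⟨f, hf, b, k, rfl⟩
  · rw [h.P2 L hL i j l hl h1, h.P2 L hL i j l' hl' h2]
  · rw [h.F1b f hf b k l hl h1, h.F1b f hf b k l' hl' h2]

omit h in
lemma lnk_symm {c : Cfg F} {e : Dir F} {x y : Pt F} (hl : c.lnk e x y) : c.lnk e y x := by
  rcases hl with hl | hl | hl
  · exact Or.inl hl.symm
  · exact Or.inr (Or.inr hl)
  · exact Or.inr (Or.inl hl)

lemma I1 : ∀ l ∈ D.cfg.Sp, ∀ x ∈ D.cfg.Cell, ∀ y ∈ D.cfg.Cell, On x l → On y l →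
    D.cfg.col x ≠ D.cfg.col y → ∃ e, e ≠ l.1 ∧ D.cfg.lnk e x y := by
  intro l hl x hx y hy hxl hyl hc
  have hX : ∀ L ∈ D.PL, ∀ j, D.cfg.lnk none (D.p L false j) (D.p L true j) := fun L hL j =>
    Or.inr (Or.inl (mem_M.mpr (Or.inl ⟨rfl, L, hL, j, by simp [p, val_none_pc, bit, Data.x],
      by simp [p, val_none_pc, bit]⟩)))
  have hY : ∀ L ∈ D.PL, ∀ i, D.cfg.lnk (some 0) (D.p L i false) (D.p L i true) := fun L hL i =>
    Or.inr (Or.inl (mem_M.mpr (Or.inr (Or.inl ⟨rfl, L, hL, i,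
      by simp [p, val_zero_pc, bit, Data.y], by simp [p, val_zero_pc, bit]⟩))))
  rcases mem_cell.mp hx with ⟨L, hL, i, j, rfl⟩ | ⟨f, hf, b, k, rfl⟩ <;>
    rcases mem_cell.mp hy with ⟨L', hL', i', j', rfl⟩ | ⟨f', hf', b', k', rfl⟩
  · have e1 := h.P2 L hL i j l hl hxl
    have e2 := h.P2 L' hL' i' j' l hl hyl
    subst e1
    subst e2
    rw [h.col_p hL, h.col_p hL] at hc
    have n1 : none ≠ l.1 := fun he => h.P0 l hL (he ▸ none_mem_JJ)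
    have n2 : some 0 ≠ l.1 := fun he => h.P0 l hL (he ▸ zero_mem_JJ)
    cases i <;> cases j <;> cases i' <;> cases j' <;> simp at hc
    all_goals first
      | exact ⟨_, n1, hX l hL _⟩
      | exact ⟨_, n1, lnk_symm (hX l hL _)⟩
      | exact ⟨_, n2, hY l hL _⟩
      | exact ⟨_, n2, lnk_symm (hY l hL _)⟩
  · exact absurd ((h.P2 L hL i j l hl hxl).symm.trans (h.F1b f' hf' b' k' l hl hyl))
      (h.PL_ne_FL hL hf')
  · exact absurd ((h.P2 L' hL' i' j' l hl hyl).symm.trans (h.F1b f hf b k l hl hxl))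
      (h.PL_ne_FL hL' hf)
  · have e1 := h.F1b f hf b k l hl hxl
    have e2 := h.F1b f' hf' b' k' l hl hyl
    subst e1
    subst e2
    rw [h.col_fc hf, h.col_fc hf] at hc
    have hZ : ∀ k k', D.host (l, k, k') ≠ l.1 ∧
        D.cfg.lnk (D.host (l, k, k')) (D.fc l false k) (D.fc l true k') := fun k k' =>
      ⟨fun he => h.F3a (l, k, k') hf (he ▸ (mem_FL.mp hf).1),
        Or.inr (Or.inl (mem_M.mpr (Or.inr (Or.inr ⟨(l, k, k'), hf, rfl, rfl, rfl⟩))))⟩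
    cases b <;> cases b' <;> simp at hc
    · exact ⟨_, hZ k k'⟩
    · exact ⟨_, (hZ k' k).1, lnk_symm (hZ k' k).2⟩

/-- two linked cells of one line of type P -/
lemma pair_p {L : Ln F} (hL : L ∈ D.PL) {i j i' j' : Bool} {e : Dir F} (he : e ≠ L.1)
    (hl : D.cfg.lnk e (D.p L i j) (D.p L i' j')) :
    (i = i' ∧ j = j') ∨ (e = none ∧ j = j') ∨ (e = some 0 ∧ i = i') := by
  rcases h.lnk_p hL hl with h1 | ⟨rfl, h1⟩ | ⟨rfl, h1⟩
  · left
    have := eq_of_val he h1 ((h.p_on hL i j).trans (h.p_on hL i' j').symm)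
    exact (h.p_inj hL hL this).2
  · exact Or.inr (Or.inl ⟨rfl, (xa_bit_inj (h.P0 L hL) _ h1).2.symm⟩)
  · rw [p, val_zero_pc] at h1
    exact Or.inr (Or.inr ⟨rfl, (ya_bit_inj (h.P0 L hL) _ h1).1.symm⟩)

/-- two linked cells of the same colour on a line of type F coincide -/
lemma pair_fc {f : Ln F} (hf : f ∈ D.FL) {b : Bool} {k k' : Fin D.w} {e : Dir F} (he : e ≠ f.1)
    (hl : D.cfg.lnk e (D.fc f b k) (D.fc f b k')) : k = k' := by
  rcases h.lnk_fc hf hl with h1 | ⟨φ, hφ, rfl, ⟨h1, h2⟩ | ⟨h1, h2⟩⟩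
  · have := eq_of_val he h1 ((h.F1a f hf b k).trans (h.F1a f hf b k').symm)
    exact (h.F1c f hf _ _ _ _ this).2
  · have h3 := (h.F3c φ hφ f hf b k').2 h2
    have e1 := (h.fc_inj hf hφ h1).2.1
    have e2 := (h.fc_inj hf hφ h3).2.1
    rw [e1] at e2; simp at e2
  · have h3 := (h.F3c φ hφ f hf b k').1 h2
    have e1 := (h.fc_inj hf hφ h1).2.1
    have e2 := (h.fc_inj hf hφ h3).2.1
    rw [e1] at e2; simp at e2

lemma A0 : ∀ x ∈ D.cfg.Cell, ∃ l ∈ D.cfg.Sp, On x l ∧ ∃ y ∈ D.cfg.Cell, On y l ∧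
    ∀ e, e ≠ l.1 → ¬ D.cfg.lnk e x y := by
  intro x hx
  rcases mem_cell.mp hx with ⟨L, hL, i, j, rfl⟩ | ⟨f, hf, b, k, rfl⟩
  · refine ⟨L, h.PL_Sp hL, h.p_on hL i j, D.p L (!i) (!j), p_mem hL _ _, h.p_on hL _ _, ?_⟩
    intro e he hl
    rcases h.pair_p hL he hl with h1 | h1 | h1 <;> simp at h1
  · have : Nontrivial (Fin D.w) := Fin.nontrivial_iff_two_le.mpr h.F5
    obtain ⟨k', hk'⟩ := exists_ne k
    exact ⟨f, h.FL_Sp hf, h.F1a f hf b k, D.fc f b k', fc_mem hf _ _, h.F1a f hf b k',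
      fun e he hl => hk' (h.pair_fc hf he hl).symm⟩

lemma A1 : ∀ x ∈ D.cfg.Cell, ∀ l ∈ D.cfg.Sp, On x l → ∀ z, On z l → ∀ e, e ≠ l.1 →
    D.cfg.lnk e z x → z ∈ D.cfg.Cell := by
  intro x hx l hl hxl z hzl e he hlk
  have key : ∀ y ∈ D.cfg.Cell, On y l → val e z = val e y → z ∈ D.cfg.Cell := by
    intro y hy hyl hv
    rw [eq_of_val he hv (hzl.trans hyl.symm)]; exact hy
  rcases mem_cell.mp hx with ⟨L, hL, i, j, rfl⟩ | ⟨f, hf, b, k, rfl⟩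
  · have e1 := h.P2 L hL i j l hl hxl
    subst e1
    rcases h.lnk_p hL (lnk_symm hlk) with h1 | ⟨rfl, h1⟩ | ⟨rfl, h1⟩
    · exact key _ hx hxl h1.symm
    · exact key _ (p_mem hL (!i) j) (h.p_on hL _ _) h1
    · exact key _ (p_mem hL i (!j)) (h.p_on hL _ _) (by rw [h1, p, val_zero_pc]; rfl)
  · have e1 := h.F1b f hf b k l hl hxl
    subst e1
    rcases h.lnk_fc hf (lnk_symm hlk) with h1 | ⟨φ, hφ, rfl, ⟨h1, h2⟩ | ⟨h1, h2⟩⟩
    · exact key _ hx hxl h1.symm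
    · have e2 := (h.fc_inj hf hφ h1).1
      exact key _ (fc_mem hφ true φ.2.2) (e2 ▸ h.F1a _ hφ _ _) h2
    · have e2 := (h.fc_inj hf hφ h1).1
      exact key _ (fc_mem hφ false φ.2.1) (e2 ▸ h.F1a _ hφ _ _) h2

end Good
end Data

end Vale.Agent.P045
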