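import Mathlib

namespace Vale.Agent.P045

/-- `H` is `r`-partite and `r`-uniform for the partition of the vertices given by `part`:
every edge contains exactly one vertex of each of the `r` parts. -/
def IsPartite {V : Type} (r : ℕ) (part : V → Fin r) (H : Finset (Finset V)) : Prop :=
  ∀ e ∈ H, ∀ i : Fin r, ∃! v : V, v ∈ e ∧ part v = i

/-- `T` is a vertex cover: it meets every edge. -/
def IsCover {V : Type} (H : Finset (Finset V)) (T : Finset V) : Prop :=
  ∀ e ∈ H, ∃ v ∈ T, v ∈ e

/-- The covering number: the minimum size of a vertex cover. -/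
noncomputable def tau {V : Type} (H : Finset (Finset V)) : ℕ :=
  sInf {n : ℕ | ∃ T : Finset V, IsCover H T ∧ T.card = n}

/-- `M` is a set of pairwise disjoint edges of `H`. -/
def IsMatching {V : Type} (H M : Finset (Finset V)) : Prop :=
  M ⊆ H ∧ ∀ e ∈ M, ∀ f ∈ M, e ≠ f → Disjoint e f

/-- The matching number: the maximum number of pairwise disjoint edges. -/
noncomputable def nu {V : Type} (H : Finset (Finset V)) : ℕ :=
  sSup {n : ℕ | ∃ M : Finset (Finset V), IsMatching H M ∧ M.card = n}

/-- `H` has an edge and every two edges share a vertex. -/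
def IsIntersecting {V : Type} (H : Finset (Finset V)) : Prop :=
  H.Nonempty ∧ ∀ e ∈ H, ∀ f ∈ H, ∃ v, v ∈ e ∧ v ∈ f

end Vale.Agent.P045
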