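import Vale.Agent.P045.Rand

/-! Choice of the cells on the special lines and of their host directions. -/

set_option linter.unusedSectionVars false

namespace Vale.Agent.P045

open Finset

variable {F : Type} [Field F] [Fintype F] [DecidableEq F]

namespace FCells

/-- distinct representatives when every set is at least as large as the family -/
lemma exists_inj_choice {ι α : Type} [DecidableEq ι] [DecidableEq α] [Nonempty α]
    (Φ : Finset ι) (A : ι → Finset α) (h : ∀ φ ∈ Φ, Φ.card ≤ (A φ).card) :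
    ∃ g : ι → α, (∀ φ ∈ Φ, g φ ∈ A φ) ∧ ∀ φ ∈ Φ, ∀ ψ ∈ Φ, g φ = g ψ → φ = ψ := by
  have hall : ∀ s : Finset Φ, s.card ≤ (s.biUnion fun x => A x.1).card := by
    intro s
    rcases s.eq_empty_or_nonempty with rfl | ⟨x, hx⟩
    · simp
    · have h1 : s.card ≤ Φ.card := by
        have := card_le_univ s
        simpa using this
      exact h1.trans ((h x.1 x.2).trans (card_le_card (subset_biUnion_of_mem (fun y : Φ => A y.1) hx)))
  obtain ⟨g, hg, hgA⟩ := (Finset.all_card_le_biUnion_card_iff_exists_injective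
    (fun x : Φ => A x.1)).mp hall
  refine ⟨fun φ => if hφ : φ ∈ Φ then g ⟨φ, hφ⟩ else Classical.arbitrary α, ?_, ?_⟩
  · intro φ hφ
    simp only [dif_pos hφ]
    exact hgA ⟨φ, hφ⟩
  · intro φ hφ ψ hψ he
    simp only [dif_pos hφ, dif_pos hψ] at he
    exact congrArg Subtype.val (hg he)

/-- an injection of a small finite type into a finite set -/
lemma exists_inj_into {κ α : Type} [Fintype κ] (A : Finset α) (h : Fintype.card κ ≤ A.card) :
    ∃ e : κ → α, Function.Injective e ∧ ∀ k, e k ∈ A := by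
  have h' : Fintype.card κ ≤ Fintype.card A := by simpa using h
  obtain ⟨e⟩ := Function.Embedding.nonempty_of_card_le h'
  exact ⟨fun k => (e k).1, fun a b hab => e.injective (Subtype.ext hab), fun k => (e k).2⟩

lemma card_same_val_le {c a : Pt F} (hca : c ≠ a) :
    (univ.filter fun d : Dir F => val d c = val d a).card ≤ 1 := by
  rw [card_le_one]
  intro d hd e he
  exact dir_unique hca (mem_filter.mp hd).2 (mem_filter.mp he).2

/-- directions joining `a` to another point of `C` -/
lemma card_bad_le {κ : Type} [DecidableEq κ] (C : Finset κ) (c : κ → Pt F) (a : Pt F) :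
    (univ.filter fun d : Dir F => ∃ t ∈ C, c t ≠ a ∧ val d (c t) = val d a).card ≤ C.card := by
  have hsub : (univ.filter fun d : Dir F => ∃ t ∈ C, c t ≠ a ∧ val d (c t) = val d a) ⊆
      C.biUnion fun t => univ.filter fun d : Dir F => c t ≠ a ∧ val d (c t) = val d a := by
    intro d hd
    obtain ⟨t, ht, h⟩ := (mem_filter.mp hd).2
    exact mem_biUnion.mpr ⟨t, ht, mem_filter.mpr ⟨mem_univ _, h⟩⟩
  refine (card_le_card hsub).trans (card_biUnion_le.trans ?_)
  have : ∀ t ∈ C, (univ.filter fun d : Dir F => c t ≠ a ∧ val d (c t) = val d a).card ≤ 1 := by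
    intro t _
    by_cases h : c t = a
    · simp [h]
    · refine le_trans (card_le_card ?_) (card_same_val_le h)
      intro d hd
      exact mem_filter.mpr ⟨mem_univ _, (mem_filter.mp hd).2.2⟩
  refine (sum_le_sum this).trans ?_
  simp

end FCells

theorem fcells (FL : Finset (Ln F)) (Af : Ln F → Finset (Pt F)) (w R : ℕ)
    (hA : ∀ f ∈ FL, ∀ x ∈ Af f, On x f) (hc : ∀ f ∈ FL, 2 * w * R ≤ (Af f).card)
    (h0 : 0 < R) (h1 : 3 * FL.card ≤ R)
    (hq : 3 * ((Fintype.card F + 1) * Fintype.card F) < 4 ^ (w + 1)) :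
    ∃ fc : Ln F → Bool → Fin w → Pt F, (∀ f ∈ FL, ∀ b k, fc f b k ∈ Af f) ∧
      (∀ f ∈ FL, ∀ b k b' k', fc f b k = fc f b' k' → b = b' ∧ k = k') ∧
      ∀ l, l ∉ FL → ((FL ×ˢ (univ : Finset (Bool × Fin w))).filter
        fun t => On (fc t.1 t.2.1 t.2.2) l).card ≤ w := by
  have : Nonempty (Fin R) := ⟨⟨0, h0⟩⟩
  have hex : ∀ f : Ln F, ∃ e : (Bool × Fin w) × Fin R → Pt F,
      f ∈ FL → Function.Injective e ∧ ∀ k, e k ∈ Af f := by
    intro f
    by_cases hf : f ∈ FL
    · obtain ⟨e, he⟩ := FCells.exists_inj_into (κ := (Bool × Fin w) × Fin R) (Af f)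
        (by simpa using hc f hf)
      exact ⟨e, fun _ => he⟩
    · exact ⟨fun _ => (0, 0), fun h => absurd h hf⟩
  choose e he using hex
  set T : Finset (Ln F × Bool × Fin w) := FL ×ˢ (univ : Finset (Bool × Fin w)) with hT
  have hR : (0 : ℝ) < R := by exact_mod_cast h0
  have key : ∀ l ∈ (univ.filter fun l : Ln F => l ∉ FL),
      pr (fun ω : Ln F × Bool × Fin w → Fin R =>
        w + 1 ≤ (T.filter fun t => On (e t.1 (t.2, ω t)) l).card) ≤ 3 / 4 ^ (w + 1) := by
    intro l hl
    have hl' : l ∉ FL := (mem_filter.mp hl).2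
    let B : Ln F × Bool × Fin w → Finset (Fin R) := fun t => univ.filter fun r => On (e t.1 (t.2, r)) l
    have hav := av_pow_count (ι := Ln F × Bool × Fin w) (β := Fin R) (fun _ => 0) T
      (fun t _ => B t) (fun _ _ _ _ _ _ _ => rfl) (fun t => ((B t).card : ℝ) / R)
      (fun t _ _ => by rw [Fintype.card_fin, div_mul_cancel₀ _ hR.ne']) 4 (by norm_num)
    have hsum : ∑ t ∈ T, (B t).card ≤ FL.card := by
      rw [hT, sum_product]
      have : ∀ f ∈ FL, ∑ y : Bool × Fin w, (B (f, y)).card ≤ 1 := by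
        intro f hf
        have hfl : f ≠ l := fun h => hl' (h ▸ hf)
        have e1 : ∑ y : Bool × Fin w, (B (f, y)).card =
            (univ.filter fun z : (Bool × Fin w) × Fin R => On (e f z) l).card := by
          rw [card_filter, Fintype.sum_prod_type (α₁ := Bool × Fin w) (α₂ := Fin R)]
          apply sum_congr rfl
          intro y _
          rw [card_filter]
        rw [e1, card_le_one]
        intro x hx y hy
        apply (he f hf).1
        exact point_unique hfl (hA f hf _ ((he f hf).2 x)) (hA f hf _ ((he f hf).2 y))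
          (mem_filter.mp hx).2 (mem_filter.mp hy).2
      refine (sum_le_sum this).trans ?_
      simp
    have hsum' : (4 - 1 : ℝ) * ∑ t ∈ T, ((B t).card : ℝ) / R ≤ 1 := by
      rw [← sum_div, ← Nat.cast_sum]
      have a1 : ((∑ t ∈ T, (B t).card : ℕ) : ℝ) ≤ FL.card := by exact_mod_cast hsum
      have a2 : (3 : ℝ) * FL.card ≤ R := by exact_mod_cast h1
      rw [← mul_div_assoc, div_le_one hR]
      linarith
    have hexp : Real.exp ((4 - 1 : ℝ) * ∑ t ∈ T, ((B t).card : ℝ) / R) ≤ 3 :=
      (Real.exp_le_exp.mpr hsum').trans (Real.exp_one_lt_d9.le.trans (by norm_num))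
    refine (pr_le_av_div (c := (4 : ℝ) ^ (w + 1))
      (f := fun ω : Ln F × Bool × Fin w → Fin R => (4 : ℝ) ^ (T.filter fun t => ω t ∈ B t).card)
      (by positivity) (fun ω => by positivity) ?_).trans ?_
    · intro ω hω
      apply pow_le_pow_right₀ (by norm_num)
      refine hω.trans (le_of_eq ?_)
      apply congrArg
      apply filter_congr
      intro t _
      simp [B]
    · exact div_le_div_of_nonneg_right (hav.trans hexp) (by positivity)
  have hall := pr_exists_le _ _ _ key
  have hlt : ((univ.filter fun l : Ln F => l ∉ FL).card : ℝ) * (3 / 4 ^ (w + 1)) < 1 := by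
    have a1 : (univ.filter fun l : Ln F => l ∉ FL).card ≤
        (Fintype.card F + 1) * Fintype.card F := by
      rw [← card_Ln]; exact card_le_univ _
    have a2 : 3 * (univ.filter fun l : Ln F => l ∉ FL).card < 4 ^ (w + 1) := by omega
    have a3 : (3 : ℝ) * (univ.filter fun l : Ln F => l ∉ FL).card < 4 ^ (w + 1) := by
      exact_mod_cast a2
    rw [← mul_div_assoc, div_lt_one (by positivity)]
    linarith
  obtain ⟨ω, hω⟩ := exists_not_of_pr_lt_one (hall.trans_lt hlt)
  refine ⟨fun f b k => e f ((b, k), ω (f, b, k)), ?_, ?_, ?_⟩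
  · intro f hf b k
    exact (he f hf).2 _
  · intro f hf b k b' k' h
    have := congrArg Prod.fst ((he f hf).1 h)
    exact Prod.mk.inj this
  · intro l hl
    by_contra hcon
    exact hω ⟨l, mem_filter.mpr ⟨mem_univ _, hl⟩, Nat.succ_le_of_lt (not_le.mp hcon)⟩

theorem hosts (FL : Finset (Ln F)) (w : ℕ) (fc : Ln F → Bool → Fin w → Pt F)
    (Hs : Finset (Dir F)) (hH : FL.card * w * w + 4 * FL.card * w ≤ Hs.card) :
    ∃ host : Ln F × Fin w × Fin w → Dir F, (∀ φ, φ.1 ∈ FL → host φ ∈ Hs) ∧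
      (∀ φ ψ, φ.1 ∈ FL → ψ.1 ∈ FL → host φ = host ψ → φ = ψ) ∧
      ∀ φ, φ.1 ∈ FL → ∀ f ∈ FL, ∀ b k,
        (val (host φ) (fc f b k) = val (host φ) (fc φ.1 false φ.2.1) →
          fc f b k = fc φ.1 false φ.2.1) ∧
        (val (host φ) (fc f b k) = val (host φ) (fc φ.1 true φ.2.2) →
          fc f b k = fc φ.1 true φ.2.2) := by
  set T : Finset (Ln F × Bool × Fin w) := FL ×ˢ (univ : Finset (Bool × Fin w)) with hT
  set Φ : Finset (Ln F × Fin w × Fin w) := FL ×ˢ (univ : Finset (Fin w × Fin w)) with hΦ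
  let c : Ln F × Bool × Fin w → Pt F := fun t => fc t.1 t.2.1 t.2.2
  let bad : Pt F → Finset (Dir F) := fun a =>
    univ.filter fun d : Dir F => ∃ t ∈ T, c t ≠ a ∧ val d (c t) = val d a
  have hTc : T.card = 2 * FL.card * w := by
    rw [hT, card_product]; simp; ring
  have hΦc : Φ.card = FL.card * w * w := by
    rw [hΦ, card_product]; simp; ring
  have hbad : ∀ a, (bad a).card ≤ 2 * FL.card * w := fun a =>
    hTc ▸ FCells.card_bad_le T c a
  have hmem : ∀ φ : Ln F × Fin w × Fin w, φ.1 ∈ FL → φ ∈ Φ := fun φ h =>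
    mem_product.mpr ⟨h, mem_univ _⟩
  obtain ⟨g, hg, hinj⟩ := FCells.exists_inj_choice Φ
    (fun φ => Hs \ (bad (fc φ.1 false φ.2.1) ∪ bad (fc φ.1 true φ.2.2))) (by
      intro φ _
      have a1 := le_card_sdiff (bad (fc φ.1 false φ.2.1) ∪ bad (fc φ.1 true φ.2.2)) Hs
      have a2 := card_union_le (bad (fc φ.1 false φ.2.1)) (bad (fc φ.1 true φ.2.2))
      have a3 := hbad (fc φ.1 false φ.2.1)
      have a4 := hbad (fc φ.1 true φ.2.2)
      have a5 : 4 * FL.card * w = 2 * FL.card * w + 2 * FL.card * w := by ring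
      omega)
  refine ⟨g, fun φ h => (mem_sdiff.mp (hg φ (hmem φ h))).1,
    fun φ ψ h h' => hinj φ (hmem φ h) ψ (hmem ψ h'), ?_⟩
  intro φ h f hf b k
  have hn := (mem_sdiff.mp (hg φ (hmem φ h))).2
  rw [mem_union, not_or] at hn
  have ht : (f, b, k) ∈ T := mem_product.mpr ⟨hf, mem_univ _⟩
  constructor
  · intro hv
    by_contra hne
    exact hn.1 (mem_filter.mpr ⟨mem_univ _, (f, b, k), ht, hne, hv⟩)
  · intro hv
    by_contra hne
    exact hn.2 (mem_filter.mpr ⟨mem_univ _, (f, b, k), ht, hne, hv⟩)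

end Vale.Agent.P045
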