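import Vale.Agent.P045.Rand

/-! Every ordinary line has many good options with high probability. -/

set_option linter.unusedSectionVars false

namespace Vale.Agent.P045

open Finset

variable {F : Type} [Field F] [Fintype F] [DecidableEq F]

namespace RandCand

lemma pow_ge {q : ℝ} (hq : 200 ≤ q) {t : ℕ} (ht : (t : ℝ) ≤ q) : 1 / 64 ≤ (1 - 4 / q) ^ t := by
  have h0 : 0 < q - 4 := by linarith
  have h1 : Real.exp (-(4 / (q - 4))) ≤ 1 - 4 / q := by
    have := Real.add_one_le_exp (4 / (q - 4))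
    rw [Real.exp_neg, inv_le_comm₀ (Real.exp_pos _) (by
      rw [sub_pos, div_lt_one (by linarith)]; linarith)]
    refine le_trans (le_of_eq ?_) this
    have : q ≠ 0 := by linarith
    field_simp; ring
  refine le_trans ?_ (pow_le_pow_left₀ (Real.exp_pos _).le h1 t)
  rw [← Real.exp_nat_mul]
  have h2 : (1 / 64 : ℝ) = Real.exp (-(6 * Real.log 2)) := by
    rw [Real.exp_neg, show (6 : ℝ) = (6 : ℕ) by norm_num, Real.exp_nat_mul,
      Real.exp_log two_pos]
    norm_num
  rw [h2, Real.exp_le_exp, mul_neg, neg_le_neg_iff, ← mul_div_assoc, div_le_iff₀ h0]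
  nlinarith [Real.log_two_gt_d9]

lemma one_line (hq : 200 ≤ Fintype.card F) {L : Ln F} (hL : L.1 ∉ JJ F) :
    pr (fun s : Dir F → F => 3400 * (univ.filter fun α : F =>
      ∀ i j, ∀ l ∈ Sof s, On (pc L α i j) l → l = L).card < Fintype.card F) ≤
        Real.exp (-(Fintype.card F / 6800)) := by
  obtain ⟨I, -, hI, hdis⟩ := exists_disjoint_cells L univ
  rw [card_univ] at hI
  have hq' : (200 : ℝ) ≤ Fintype.card F := by exact_mod_cast hq
  have hI' : (Fintype.card F : ℝ) ≤ 17 * I.card := by exact_mod_cast hI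
  have h1 := av_death (ι := Dir F) (β := F) (fun d a α => ∃ i j, On (pc L α i j) (d, a)) I
    ((OD F).erase L.1) 4 (1 / 2) 1 (by norm_num) (by norm_num) (by norm_num) (by linarith)
    (fun d hd a x hx y hy ⟨i, j, h⟩ ⟨i', j', h'⟩ => hdis x hx y hy i j i' j'
      (point_unique (l := L) (l' := (d, a)) (fun e => (mem_erase.1 hd).1 (by rw [e]))
        (pc_on hL _ _ _) (pc_on hL _ _ _) h h'))
    (fun d _ x _ => by
      have : (univ.filter fun a => ∃ i j, On (pc L x i j) (d, a)).card ≤ 4 := by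
        refine le_trans (card_le_card (t := (univ : Finset (Bool × Bool)).image
          fun t => val d (pc L x t.1 t.2)) fun a ha => ?_) (card_image_le.trans (by simp))
        obtain ⟨i, j, h⟩ := (mem_filter.1 ha).2
        exact mem_image.2 ⟨(i, j), mem_univ _, h⟩
      have h : ((univ.filter fun a => ∃ i j, On (pc L x i j) (d, a)).card : ℝ) ≤ 4 := by
        exact_mod_cast this
      linarith) I Subset.rfl
  have h2 : 1 / 64 ≤ (1 - 4 / (Fintype.card F : ℝ)) ^ ((OD F).erase L.1).card := pow_ge hq' (by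
    exact_mod_cast card_erase_le.trans ((Nat.le_succ _).trans card_OD_le))
  have h3 : (1 - 4 / (Fintype.card F : ℝ)) ^ ((OD F).erase L.1).card ≤ 1 :=
    pow_le_one₀ (by rw [sub_nonneg, div_le_one (by linarith)]; linarith)
      (sub_le_self _ (by positivity))
  have h4 := h1.trans (pow_le_pow_left₀ (by linarith)
    (show _ ≤ Real.exp (-(1 / 128)) by linarith [Real.add_one_le_exp (-(1 / 128))]) _)
  refine (pr_le_av_div (Real.exp_pos (-(I.card / 200))) (fun s => prod_nonneg fun x _ => by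
    split_ifs <;> norm_num) fun s hs => ?_).trans
      ((div_le_div_of_nonneg_right h4 (Real.exp_pos _).le).trans ?_)
  · rw [prod_ite_eq_pow, one_pow, one_mul]
    have h5 : (I.filter fun x => ¬ ∃ d ∈ (OD F).erase L.1, ∃ i j, On (pc L x i j) (d, s d)).card ≤
        (univ.filter fun α : F => ∀ i j, ∀ l ∈ Sof s, On (pc L α i j) l → l = L).card := by
      refine card_le_card fun α hα => mem_filter.2 ⟨mem_univ _, fun i j l hl h => ?_⟩
      obtain ⟨h6, h7⟩ := mem_Sof.1 hl
      by_contra hne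
      refine (mem_filter.1 hα).2 ⟨l.1, mem_erase.2 ⟨fun e => hne ?_, mem_OD.2 h6⟩, i, j, h7 ▸ h⟩
      exact eq_of_same_dir e h (pc_on hL _ _ _)
    set k := (I.filter fun x =>
      ¬ ∃ d ∈ (OD F).erase L.1, ∃ i j, On (pc L x i j) (d, s d)).card
    have h6 : (200 : ℝ) * k ≤ I.card := by exact_mod_cast (by omega : 200 * k ≤ I.card)
    have h7 : Real.exp (-1) ≤ 1 / 2 := by
      rw [Real.exp_neg, one_div]
      exact inv_anti₀ two_pos (by linarith [Real.add_one_le_exp 1])
    refine le_trans ?_ (pow_le_pow_left₀ (Real.exp_pos _).le h7 k)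
    rw [← Real.exp_nat_mul, Real.exp_le_exp]
    linarith
  · rw [← Real.exp_nat_mul, ← Real.exp_sub, Real.exp_le_exp]
    linarith

end RandCand

theorem rand_cand (n : ℕ) (hq : Fintype.card F ≤ 2 ^ n)
    (h : 100000 * (n + 1) ≤ Fintype.card F) :
    pr (fun s : Dir F → F => ∃ L : Ln F, L.1 ∉ JJ F ∧
      3400 * (univ.filter fun α : F => ∀ i j, ∀ l ∈ Sof s, On (pc L α i j) l → l = L).card
        < Fintype.card F) ≤ 1 / 10 := by
  have h1 := pr_exists_le (univ.filter fun L : Ln F => L.1 ∉ JJ F) _ _ fun L hL =>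
    RandCand.one_line (by omega) (mem_filter.1 hL).2
  refine (pr_mono fun s ⟨L, hL, hs⟩ => ⟨L, mem_filter.2 ⟨mem_univ _, hL⟩, hs⟩).trans (h1.trans ?_)
  have h2 : (univ.filter fun L : Ln F => L.1 ∉ JJ F).card ≤ 2 * 4 ^ n := by
    refine (card_le_univ _).trans ?_
    rw [card_Ln, show 4 = 2 * 2 by norm_num, mul_pow]
    have : 1 ≤ 2 ^ n := Nat.one_le_two_pow
    nlinarith
  have h3 : ((univ.filter fun L : Ln F => L.1 ∉ JJ F).card : ℝ) ≤ 2 * 4 ^ n := by exact_mod_cast h2
  have h4 : (100000 * (n + 1) : ℝ) ≤ Fintype.card F := by exact_mod_cast h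
  have h5 : (20 : ℝ) ^ (n + 1) ≤ Real.exp (Fintype.card F / 6800) := by
    have h6 : (20 : ℝ) ≤ Real.exp 14 := by
      have := Real.add_one_le_exp 7
      rw [show (14 : ℝ) = 7 + 7 by norm_num, Real.exp_add]
      nlinarith
    refine (pow_le_pow_left₀ (by norm_num) h6 _).trans ?_
    rw [← Real.exp_nat_mul, Real.exp_le_exp]
    push_cast
    have : (0 : ℝ) ≤ n := n.cast_nonneg
    linarith
  have h7 : (4 : ℝ) ^ n ≤ 20 ^ n := pow_le_pow_left₀ (by norm_num) (by norm_num) n
  rw [Real.exp_neg, ← div_eq_mul_inv, div_le_iff₀ (Real.exp_pos _)]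
  rw [pow_succ] at h5
  linarith

end Vale.Agent.P045
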