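import Vale.Agent.P045.Rand

/-! The union bound for the sets `Kset`. -/

set_option linter.unusedSectionVars false

namespace Vale.Agent.P045

open Finset

variable {F : Type} [Field F] [Fintype F] [DecidableEq F]

namespace RandKset

lemma card_Pset_le {m : ℕ} (T : Finset (Ln F)) (c : Fin m → Ln F) :
    (Pset T c).card ≤ T.card * m := by
  have h : Pset T c ⊆ (T ×ˢ (univ : Finset (Fin m))).biUnion fun p =>
      univ.filter fun x => On x p.1 ∧ On x (c p.2) ∧ c p.2 ≠ p.1 := by
    intro x hx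
    obtain ⟨l, hl, j, h⟩ := (mem_filter.mp hx).2
    exact mem_biUnion.mpr ⟨(l, j), mem_product.mpr ⟨hl, mem_univ _⟩,
      mem_filter.mpr ⟨mem_univ _, h⟩⟩
  refine (card_le_card h).trans (card_biUnion_le.trans ?_)
  refine (sum_le_card_nsmul _ _ 1 fun p _ => ?_).trans (by simp)
  rw [card_le_one]
  intro x hx y hy
  obtain ⟨h1, h2, h3⟩ := (mem_filter.mp hx).2
  obtain ⟨h4, h5, -⟩ := (mem_filter.mp hy).2
  exact point_unique h3 h2 h5 h1 h4

lemma card_rich_le (P : Finset (Pt F)) :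
    (univ.filter fun l : Ln F => Rich P l).card ≤ P.card ^ 2 := by
  have h : (univ.filter fun l : Ln F => Rich P l) ⊆ (P ×ˢ P).biUnion fun p =>
      univ.filter fun l => On p.1 l ∧ On p.2 l ∧ p.1 ≠ p.2 := by
    intro l hl
    obtain ⟨x, hx, y, hy, hxy⟩ := one_lt_card.mp (show 1 < _ from (mem_filter.mp hl).2)
    rw [mem_filter] at hx hy
    exact mem_biUnion.mpr ⟨(x, y), mem_product.mpr ⟨hx.1, hy.1⟩,
      mem_filter.mpr ⟨mem_univ _, hx.2, hy.2, hxy⟩⟩
  refine (card_le_card h).trans (card_biUnion_le.trans ?_)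
  refine (sum_le_card_nsmul _ _ 1 fun p _ => ?_).trans (by simp [sq])
  rw [card_le_one]
  intro l hl l' hl'
  obtain ⟨h1, h2, h3⟩ := (mem_filter.mp hl).2
  obtain ⟨h4, h5, -⟩ := (mem_filter.mp hl').2
  exact line_unique h3 h1 h2 h4 h5

lemma third_le {q k : ℕ} (hk : k + 1 ≤ q) : (1 : ℝ) / 3 ≤ (1 - 1 / (q : ℝ)) ^ k := by
  rcases Nat.eq_zero_or_pos k with rfl | hk0
  · norm_num
  have hq2 : (2 : ℝ) ≤ q := by exact_mod_cast (by omega : 2 ≤ q)
  have hkq : (k : ℝ) ≤ q - 1 := by
    have : ((k + 1 : ℕ) : ℝ) ≤ q := by exact_mod_cast hk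
    push_cast at this
    linarith
  have hq1 : (0 : ℝ) < q - 1 := by linarith
  have h1 : Real.exp (-(1 / ((q : ℝ) - 1))) ≤ 1 - 1 / q := by
    have h2 := Real.add_one_le_exp (1 / ((q : ℝ) - 1))
    have h3 : (1 / ((q : ℝ) - 1) + 1)⁻¹ = 1 - 1 / q := by
      field_simp
      ring
    rw [Real.exp_neg, ← h3]
    exact inv_anti₀ (by positivity) h2
  have h4 : Real.exp (-(1 / ((q : ℝ) - 1))) ^ k ≤ (1 - 1 / (q : ℝ)) ^ k :=
    pow_le_pow_left₀ (Real.exp_pos _).le h1 k
  refine le_trans ?_ h4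
  rw [← Real.exp_nat_mul]
  have h5 : (-1 : ℝ) ≤ k * -(1 / ((q : ℝ) - 1)) := by
    rw [mul_neg, neg_le_neg_iff, mul_one_div, div_le_one hq1]
    exact hkq
  refine le_trans ?_ (Real.exp_le_exp.mpr h5)
  rw [Real.exp_neg, one_div]
  exact inv_anti₀ (Real.exp_pos _) (Real.exp_one_lt_d9.le.trans (by norm_num))

/-- intercepts of rich lines -/
def rr (P : Finset (Pt F)) (d : Dir F) : Finset F := univ.filter fun a => Rich P (d, a)

/-- the possible patterns of chosen rich lines -/
def WW (P : Finset (Pt F)) : Finset (Dir F → Option F) :=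
  Fintype.piFinset fun d => insert none ((rr P d).image some)

def IW (W : Dir F → Option F) : Finset (Dir F) := univ.filter fun d => W d ≠ none

def PW (P : Finset (Pt F)) (W : Dir F → Option F) : Finset (Pt F) :=
  P.filter fun x => ∀ d a, W d = some a → ¬ On x (d, a)

def TW (W : Dir F → Option F) : Finset (Dir F) := (OD F).filter fun d => W d = none

noncomputable def gW (P : Finset (Pt F)) (W : Dir F → Option F) (s : Dir F → F) : ℝ :=
  ∏ x ∈ PW P W, if ∃ d ∈ TW W, On x (d, s d) ∧ ¬ Rich P (d, s d) then 5 / 4 else 1 / 2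

lemma gW_nonneg (P : Finset (Pt F)) (W : Dir F → Option F) (s : Dir F → F) : 0 ≤ gW P W s :=
  prod_nonneg fun x _ => by split_ifs <;> norm_num

lemma av_gW_le (P : Finset (Pt F)) (W : Dir F → Option F) : av (gW P W) ≤ 1 := by
  have hq : (1 : ℝ) ≤ Fintype.card F := by exact_mod_cast Fintype.card_pos
  have h := av_death (fun (d : Dir F) (a : F) (x : Pt F) => On x (d, a) ∧ ¬ Rich P (d, a))
    (PW P W) (TW W) 1 (1 / 2) (5 / 4) (by norm_num) (by norm_num) (by norm_num) hq
    (by
      intro d _ a x hx y hy h1 h2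
      by_contra hxy
      refine h1.2 (one_lt_card.mpr ⟨x, ?_, y, ?_, hxy⟩)
      · exact mem_filter.mpr ⟨(mem_filter.mp hx).1, h1.1⟩
      · exact mem_filter.mpr ⟨(mem_filter.mp hy).1, h2.1⟩)
    (by
      intro d _ x _
      have h1 : (univ.filter fun a => On x (d, a) ∧ ¬ Rich P (d, a)).card ≤ 1 := by
        rw [card_le_one]
        intro a ha b hb
        exact ((mem_filter.mp ha).2.1.symm.trans (mem_filter.mp hb).2.1 : a = b)
      have h2 : ((univ.filter fun a => On x (d, a) ∧ ¬ Rich P (d, a)).card : ℝ) ≤ 1 := by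
        exact_mod_cast h1
      nlinarith)
    (PW P W) subset_rfl
  refine le_trans h (pow_le_one₀ ?_ ?_)
  · have h1 : (1 - 1 / (Fintype.card F : ℝ)) ^ (TW W).card ≤ 1 := by
      refine pow_le_one₀ ?_ ?_
      · rw [sub_nonneg, div_le_one (by linarith)]; exact hq
      · have : 0 ≤ 1 / (Fintype.card F : ℝ) := by positivity
        linarith
    linarith
  · have h1 := third_le (q := Fintype.card F) (k := (TW W).card)
      (le_trans (Nat.succ_le_succ (card_filter_le _ _)) card_OD_le)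
    linarith

lemma av_piece (P : Finset (Pt F)) (W : Dir F → Option F) :
    av (fun s : Dir F → F =>
      (∏ d ∈ IW W, if s d = (W d).getD 0 then (1 : ℝ) else 0) * gW P W s)
      ≤ ∏ d, if W d = none then (1 : ℝ) else 1 / Fintype.card F := by
  rw [av_fix (IW W) (fun d => (W d).getD 0) (gW P W)]
  · rw [prod_ite_eq_pow, one_pow, one_mul]
    exact mul_le_of_le_one_right (by positivity) (av_gW_le P W)
  · intro s s' h
    refine prod_congr rfl fun x _ => if_congr ?_ rfl rfl
    refine exists_congr fun d => and_congr_right fun hd => ?_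
    rw [h d fun h' => (mem_filter.mp h').2 (mem_filter.mp hd).2]

lemma sum_pieces (P : Finset (Pt F)) :
    (∑ W ∈ WW P, ∏ d, if W d = none then (1 : ℝ) else 1 / Fintype.card F)
      ≤ Real.exp ((P.card : ℝ) ^ 2 / Fintype.card F) := by
  have hq : (0 : ℝ) < Fintype.card F := by exact_mod_cast Fintype.card_pos
  rw [WW, ← prod_univ_sum (fun d => insert none ((rr P d).image some))
    (fun _ o => if o = none then (1 : ℝ) else 1 / Fintype.card F)]
  have h1 : ∀ d : Dir F, (∑ o ∈ insert none ((rr P d).image some),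
      if o = none then (1 : ℝ) else 1 / Fintype.card F) =
        ((rr P d).card : ℝ) / Fintype.card F + 1 := by
    intro d
    rw [sum_insert (by simp), sum_image (fun a _ b _ h => Option.some_injective _ h)]
    simp [div_eq_mul_inv, add_comm]
  have h2 : ∑ d, (rr P d).card = (univ.filter fun l : Ln F => Rich P l).card := by
    simp only [rr, card_filter]
    rw [Fintype.sum_prod_type]
  have h3 : (∑ d, ((rr P d).card : ℝ)) ≤ (P.card : ℝ) ^ 2 := by
    have := card_rich_le P
    rw [← h2] at this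
    exact_mod_cast this
  calc _ ≤ ∏ d : Dir F, Real.exp (((rr P d).card : ℝ) / Fintype.card F) := by
        refine prod_le_prod (fun d _ => ?_) fun d _ => ?_
        · rw [h1]; positivity
        · rw [h1]; exact Real.add_one_le_exp _
    _ = Real.exp ((∑ d, ((rr P d).card : ℝ)) / Fintype.card F) := by
        rw [sum_div, Real.exp_sum]
    _ ≤ _ := Real.exp_le_exp.mpr (div_le_div_of_nonneg_right h3 hq.le)

lemma bad_le (P : Finset (Pt F)) (J : ℕ) (s : Dir F → F)
    (h : 10 * (P ∩ unc (Sof s)).card + 5 * J ≤ (Kset (Sof s) P).card) :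
    (2 : ℝ) ^ J ≤ ∑ W ∈ WW P,
      (∏ d ∈ IW W, if s d = (W d).getD 0 then (1 : ℝ) else 0) * gW P W s := by
  let W : Dir F → Option F := fun d => if d ∈ OD F ∧ Rich P (d, s d) then some (s d) else none
  have hW : W ∈ WW P := by
    refine Fintype.mem_piFinset.mpr fun d => ?_
    by_cases hd : d ∈ OD F ∧ Rich P (d, s d)
    · exact mem_insert_of_mem (mem_image.mpr ⟨s d, mem_filter.mpr ⟨mem_univ _, hd.2⟩,
        (if_pos hd).symm⟩)
    · exact mem_insert.mpr (Or.inl (if_neg hd))
  refine le_trans ?_ (single_le_sum (f := fun W =>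
    (∏ d ∈ IW W, if s d = (W d).getD 0 then (1 : ℝ) else 0) * gW P W s)
    (fun W _ => mul_nonneg (prod_nonneg fun d _ => by split_ifs <;> norm_num) (gW_nonneg P W s)) hW)
  have h1 : (∏ d ∈ IW W, if s d = (W d).getD 0 then (1 : ℝ) else 0) = 1 := by
    refine prod_eq_one fun d hd => if_pos ?_
    by_cases hd' : d ∈ OD F ∧ Rich P (d, s d)
    · have : W d = some (s d) := if_pos hd'
      rw [this]
      rfl
    · exact absurd (if_neg hd') (mem_filter.mp hd).2
  rw [h1, one_mul, gW, prod_ite_eq_pow]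
  have hS : ∀ d ∈ OD F, (d, s d) ∈ Sof s := fun d hd => mem_image_of_mem _ hd
  have hK : Kset (Sof s) P ⊆ (PW P W).filter fun x =>
      ∃ d ∈ TW W, On x (d, s d) ∧ ¬ Rich P (d, s d) := by
    intro x hx
    obtain ⟨hxP, ⟨l, hl, hxl⟩, hr⟩ := mem_filter.mp hx
    obtain ⟨d, hd, rfl⟩ := mem_image.mp hl
    refine mem_filter.mpr ⟨mem_filter.mpr ⟨hxP, fun e a hea hx => ?_⟩, d,
      mem_filter.mpr ⟨hd, if_neg fun h' => hr _ hl hxl h'.2⟩, hxl, hr _ hl hxl⟩
    by_cases he : e ∈ OD F ∧ Rich P (e, s e)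
    · have h2 : W e = some (s e) := if_pos he
      obtain rfl : s e = a := Option.some_injective _ (h2.symm.trans hea)
      exact hr _ (hS e he.1) hx he.2
    · have h2 : W e = none := if_neg he
      rw [h2] at hea
      exact absurd hea (by simp)
  have hN : ((PW P W).filter fun x =>
      ¬ ∃ d ∈ TW W, On x (d, s d) ∧ ¬ Rich P (d, s d)) ⊆ P ∩ unc (Sof s) := by
    intro x hx
    obtain ⟨hx1, hx2⟩ := mem_filter.mp hx
    obtain ⟨hxP, hx3⟩ := mem_filter.mp hx1
    refine mem_inter.mpr ⟨hxP, mem_unc.mpr fun l hl hxl => ?_⟩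
    obtain ⟨d, hd, rfl⟩ := mem_image.mp hl
    by_cases hr : Rich P (d, s d)
    · exact hx3 d (s d) (if_pos ⟨hd, hr⟩) hxl
    · exact hx2 ⟨d, mem_filter.mpr ⟨hd, if_neg fun h' => hr h'.2⟩, hxl, hr⟩
  have c1 := card_le_card hK
  have c2 := card_le_card hN
  set Y := (P ∩ unc (Sof s)).card
  calc (2 : ℝ) ^ J ≤ ((5 / 4) ^ 5) ^ J * ((5 / 4) ^ 10 * (1 / 2)) ^ Y := by
        have a1 : (2 : ℝ) ^ J ≤ ((5 / 4) ^ 5) ^ J := pow_le_pow_left₀ (by norm_num) (by norm_num) J
        have a2 : (1 : ℝ) ≤ ((5 / 4) ^ 10 * (1 / 2)) ^ Y := one_le_pow₀ (by norm_num)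
        exact a1.trans (le_mul_of_one_le_right (by positivity) a2)
    _ = (5 / 4) ^ (10 * Y + 5 * J) * (1 / 2) ^ Y := by
        rw [mul_pow, ← pow_mul, ← pow_mul, pow_add]
        ring
    _ ≤ _ := mul_le_mul (pow_le_pow_right₀ (by norm_num) (h.trans c1))
        (pow_le_pow_of_le_one (by norm_num) (by norm_num) c2) (by positivity) (by positivity)

lemma pr_fixed (P : Finset (Pt F)) (J : ℕ) :
    pr (fun s : Dir F → F => 10 * (P ∩ unc (Sof s)).card + 5 * J ≤ (Kset (Sof s) P).card)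
      ≤ Real.exp ((P.card : ℝ) ^ 2 / Fintype.card F) / 2 ^ J := by
  refine (pr_le_av_div (by positivity) (fun s => sum_nonneg fun W _ =>
    mul_nonneg (prod_nonneg fun d _ => by split_ifs <;> norm_num) (gW_nonneg P W s))
    (bad_le P J)).trans (div_le_div_of_nonneg_right ?_ (by positivity))
  rw [av_sum]
  exact (sum_le_sum fun W _ => av_piece P W).trans (sum_pieces P)

end RandKset

open RandKset in
theorem rand_kset (n t m N0 : ℕ) (hq : Fintype.card F ≤ 2 ^ n)
    (h1 : t ^ 2 * m ≤ Fintype.card F) (h2 : 5 * ((2 * n + 1) * (t + m) + 2 * m + 4) ≤ N0) :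
    pr (fun s : Dir F → F => ∃ (T : Finset (Ln F)) (c : Fin m → Ln F), T.card = t ∧
      10 * (Pset T c ∩ unc (Sof s)).card + N0 ≤ (Kset (Sof s) (Pset T c)).card) ≤ 1 / 10 := by
  have hq0 : (0 : ℝ) < Fintype.card F := by exact_mod_cast Fintype.card_pos
  set J := (2 * n + 1) * (t + m) + 2 * m + 4 with hJ
  let K : Finset (Finset (Ln F) × (Fin m → Ln F)) := powersetCard t univ ×ˢ univ
  have hK : K.card ≤ 2 ^ ((2 * n + 1) * (t + m)) := by
    have hL : Fintype.card (Ln F) ≤ 2 ^ (2 * n + 1) := by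
      rw [card_Ln]
      have : 1 ≤ Fintype.card F := Fintype.card_pos
      calc _ ≤ (2 * 2 ^ n) * 2 ^ n := Nat.mul_le_mul (by omega) hq
        _ = _ := by ring
    rw [card_product, card_powersetCard, card_univ, card_univ, Fintype.card_fun, Fintype.card_fin,
      pow_mul, pow_add]
    exact Nat.mul_le_mul ((Nat.choose_le_pow _ _).trans (Nat.pow_le_pow_left hL _))
      (Nat.pow_le_pow_left hL _)
  have hb := pr_exists_le K (fun k (s : Dir F → F) =>
    10 * (Pset k.1 k.2 ∩ unc (Sof s)).card + 5 * J ≤ (Kset (Sof s) (Pset k.1 k.2)).card)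
    (4 ^ m / 2 ^ J) (by
      intro k hk
      refine (pr_fixed _ J).trans (div_le_div_of_nonneg_right ?_ (by positivity))
      have hT : k.1.card = t := (mem_powersetCard.mp (mem_product.mp hk).1).2
      have hP := card_Pset_le k.1 k.2
      rw [hT] at hP
      have h3 : (Pset k.1 k.2).card ^ 2 ≤ m * Fintype.card F :=
        calc _ ≤ (t * m) ^ 2 := Nat.pow_le_pow_left hP 2
          _ = m * (t ^ 2 * m) := by ring
          _ ≤ _ := Nat.mul_le_mul_left _ h1
      have h4 : ((Pset k.1 k.2).card : ℝ) ^ 2 / Fintype.card F ≤ m * 1 := by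
        rw [div_le_iff₀ hq0, mul_one]
        exact_mod_cast h3
      refine (Real.exp_le_exp.mpr h4).trans ?_
      rw [Real.exp_nat_mul]
      exact pow_le_pow_left₀ (Real.exp_pos _).le (Real.exp_one_lt_d9.le.trans (by norm_num)) m)
  refine le_trans (pr_mono ?_) (hb.trans ?_)
  · rintro s ⟨T, c, hT, h⟩
    exact ⟨(T, c), mem_product.mpr ⟨mem_powersetCard.mpr ⟨subset_univ _, hT⟩, mem_univ _⟩,
      le_trans (Nat.add_le_add_left h2 _) h⟩
  · have hK' : (K.card : ℝ) ≤ 2 ^ ((2 * n + 1) * (t + m)) := by exact_mod_cast hK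
    refine (mul_le_mul_of_nonneg_right hK' (by positivity)).trans ?_
    rw [hJ, pow_add, pow_add, pow_mul 2 2 m]
    have e : ∀ A B : ℝ, 0 < A → 0 < B → A * (B / (A * B * 2 ^ 4)) ≤ 1 / 10 := by
      intro A B hA hB
      have : A * (B / (A * B * 2 ^ 4)) = 1 / 16 := by
        field_simp
        norm_num
      rw [this]
      norm_num
    have e2 : ((2 : ℝ) ^ 2) ^ m = 4 ^ m := by norm_num
    rw [e2]
    exact e _ _ (by positivity) (by positivity)

end Vale.Agent.P045
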