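import Vale.Agent.P045.Rand

/-! Two-sided concentration of the number of uncovered points on every line. -/

set_option linter.unusedSectionVars false

namespace Vale.Agent.P045

open Finset

variable {F : Type} [Field F] [Fintype F] [DecidableEq F]

namespace RandLines

/-- number of points of `l` missed by the sampled lines of the other directions -/
def Y (l : Ln F) (s : Dir F → F) : ℕ :=
  ((pts l).filter fun x => ¬ ∃ d ∈ (OD F).erase l.1, On x (d, s d)).card

/-- survival probability of one point -/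
noncomputable def rr (T : Finset (Dir F)) : ℝ := (1 - 1 / (Fintype.card F : ℝ)) ^ T.card

lemma Y_eq {l : Ln F} {s : Dir F → F} (h : l ∉ Sof s) :
    ((unc (Sof s)).filter fun x => On x l).card = Y l s := by
  unfold Y
  refine congrArg Finset.card ?_
  ext x
  simp only [mem_filter, mem_unc, mem_pts]
  constructor
  · rintro ⟨h1, h2⟩
    refine ⟨h2, ?_⟩
    rintro ⟨d, hd, h3⟩
    exact h1 _ (mem_image.2 ⟨d, mem_of_mem_erase hd, rfl⟩) h3
  · rintro ⟨h1, h2⟩
    refine ⟨fun l' hl' h3 => ?_, h1⟩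
    obtain ⟨d, hd, rfl⟩ := mem_image.1 hl'
    refine h2 ⟨d, mem_erase.2 ⟨fun e => h ?_, hd⟩, h3⟩
    rwa [eq_of_same_dir (l := l) (l' := (d, s d)) e.symm h1 h3]

lemma two_le : (2 : ℝ) ≤ Fintype.card F := by exact_mod_cast Fintype.one_lt_card (α := F)

lemma base_nonneg : (0 : ℝ) ≤ 1 - 1 / (Fintype.card F : ℝ) := by
  have := two_le (F := F)
  rw [sub_nonneg, div_le_one (by linarith)]
  linarith

lemma base_le : 1 - 1 / (Fintype.card F : ℝ) ≤ 1 := sub_le_self _ (by positivity)

lemma rr_nonneg (T : Finset (Dir F)) : 0 ≤ rr T := pow_nonneg base_nonneg _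

lemma rr_le (T : Finset (Dir F)) : rr T ≤ 1 := pow_le_one₀ base_nonneg base_le

lemma mgf (l : Ln F) {t : ℝ} (ht : |t| ≤ 1) :
    av (fun s : Dir F → F => Real.exp (t * Y l s)) ≤
      Real.exp (t * (rr ((OD F).erase l.1) * Fintype.card F) + t ^ 2 * Fintype.card F) := by
  have hq := two_le (F := F)
  have h := av_death (β := F) (fun (d : Dir F) (a : F) (x : Pt F) => On x (d, a)) (pts l)
    ((OD F).erase l.1) 1 (Real.exp t) 1 (Real.exp_pos t).le zero_le_one zero_le_one (by linarith)
    (fun d hd a x hx y hy h1 h2 => point_unique (l := l) (l' := (d, a))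
      (fun e => (mem_erase.1 hd).1 (by rw [e])) (mem_pts.1 hx) (mem_pts.1 hy) h1 h2)
    (fun d _ x _ => by
      have : (univ.filter fun a => On x (d, a)) = {val d x} := by
        ext a
        simp [On, eq_comm]
      simp [this]) (pts l) subset_rfl
  simp only [prod_ite_eq_pow, one_pow, one_mul, ← Real.exp_nat_mul, card_pts] at h
  simp only [mul_comm t]
  refine le_trans h ?_
  have h0 := rr_nonneg ((OD F).erase l.1)
  have h1 := rr_le ((OD F).erase l.1)
  change (1 + (Real.exp t - 1) * rr ((OD F).erase l.1)) ^ _ ≤ _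
  generalize rr ((OD F).erase l.1) = r at *
  have h2 := Real.exp_pos t
  have h3 := (abs_le.1 (Real.abs_exp_sub_one_sub_id_le ht)).2
  refine (pow_le_pow_left₀ (by nlinarith) ((add_comm _ _).trans_le
    (Real.add_one_le_exp ((Real.exp t - 1) * r))) _).trans ?_
  rw [← Real.exp_nat_mul, Real.exp_le_exp]
  have h4 : (Real.exp t - 1) * r ≤ t * r + t ^ 2 := by nlinarith [sq_nonneg t]
  nlinarith

lemma tail (l : Ln F) {t c : ℝ} (ht : |t| ≤ 1) :
    pr (fun s : Dir F → F => t * (rr ((OD F).erase l.1) * Fintype.card F) + c ≤ t * Y l s) ≤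
      Real.exp (t ^ 2 * Fintype.card F - c) := by
  refine (pr_le_av_div (Real.exp_pos _) (fun s => (Real.exp_pos (t * Y l s)).le)
    fun s hs => Real.exp_le_exp.2 hs).trans ?_
  refine (div_le_div_of_nonneg_right (mgf l ht) (Real.exp_pos _).le).trans ?_
  rw [← Real.exp_sub]
  exact Real.exp_le_exp.2 (by linarith)

lemma third_le : 1 / 3 ≤ rr (OD F) := by
  have hq := two_le (F := F)
  have h1 : ((OD F).card : ℝ) + 1 ≤ Fintype.card F := by exact_mod_cast card_OD_le (F := F)
  unfold rr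
  generalize (Fintype.card F : ℝ) = q at *
  have h2 : Real.exp (-(1 / (q - 1))) ≤ 1 - 1 / q := by
    have h3 := Real.add_one_le_exp (1 / (q - 1))
    have h4 : 1 - 1 / q = (1 / (q - 1) + 1)⁻¹ := by
      have h5 : q - 1 ≠ 0 := by linarith
      have h6 : q ≠ 0 := by linarith
      rw [div_add_one h5, add_sub_cancel, inv_div, sub_div, div_self h6]
    rw [h4, Real.exp_neg]
    have : 0 < 1 / (q - 1) := one_div_pos.2 (by linarith)
    exact inv_anti₀ (by linarith) h3
  refine le_trans ?_ (pow_le_pow_left₀ (Real.exp_pos _).le h2 _)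
  rw [← Real.exp_nat_mul]
  have h5 : (-1 : ℝ) ≤ (OD F).card * -(1 / (q - 1)) := by
    rw [mul_neg, neg_le_neg_iff, mul_one_div, div_le_one (by linarith)]
    linarith
  refine le_trans ?_ (Real.exp_le_exp.2 h5)
  rw [Real.exp_neg, one_div]
  exact inv_anti₀ (Real.exp_pos _) (Real.exp_one_lt_d9.le.trans (by norm_num))

lemma rr_erase (d : Dir F) : rr (OD F) ≤ rr ((OD F).erase d) ∧
    rr ((OD F).erase d) * Fintype.card F ≤ rr (OD F) * Fintype.card F + 1 := by
  have hq := two_le (F := F)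
  by_cases h : d ∈ OD F
  · have e : rr (OD F) = rr ((OD F).erase d) * (1 - 1 / (Fintype.card F : ℝ)) := by
      unfold rr
      rw [← pow_succ, card_erase_add_one h]
    have h0 := rr_nonneg ((OD F).erase d)
    have h1 := rr_le ((OD F).erase d)
    refine ⟨e ▸ mul_le_of_le_one_right h0 base_le, ?_⟩
    rw [e, mul_assoc, sub_mul, one_div_mul_cancel (by linarith)]
    linarith
  · rw [erase_eq_of_notMem h]
    exact ⟨le_rfl, by linarith⟩

end RandLines

open RandLines in
theorem rand_lines (n D : ℕ) (hq : Fintype.card F ≤ 2 ^ n) (hD : 12 * D ≤ Fintype.card F)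
    (hD2 : 9 * Fintype.card F * (2 * n + 10) ≤ D ^ 2) :
    ∃ A : ℕ, Fintype.card F ≤ 4 * A ∧ pr (fun s : Dir F → F => ∃ l, l ∉ Sof s ∧
      ¬ (A ≤ ((unc (Sof s)).filter fun x => On x l).card ∧
        ((unc (Sof s)).filter fun x => On x l).card ≤ A + (2 * D + 1))) ≤ 1 / 10 := by
  have h2 := two_le (F := F)
  have hq' : (Fintype.card F : ℝ) ≤ 2 ^ n := by exact_mod_cast hq
  have hD' : 12 * (D : ℝ) ≤ Fintype.card F := by exact_mod_cast hD
  have hD2' : 9 * (Fintype.card F : ℝ) * (2 * n + 10) ≤ (D : ℝ) ^ 2 := by exact_mod_cast hD2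
  have hA := Nat.le_ceil (rr (OD F) * Fintype.card F - D)
  have h3 := third_le (F := F)
  refine ⟨⌈rr (OD F) * Fintype.card F - D⌉₊, ?_, ?_⟩
  · have : (Fintype.card F : ℝ) ≤ 4 * (⌈rr (OD F) * Fintype.card F - D⌉₊ : ℝ) := by nlinarith
    exact_mod_cast this
  obtain ⟨η, hη⟩ : ∃ η : ℝ, η * (2 * Fintype.card F) = D := ⟨D / (2 * Fintype.card F), by
    field_simp⟩
  have hD0 : (0 : ℝ) ≤ D := Nat.cast_nonneg D
  have hη0 : 0 ≤ η := by nlinarith
  have hη1 : η ≤ 1 := by nlinarith
  have hexp : η ^ 2 * Fintype.card F - η * D ≤ -(2 * n + 10) := by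
    rw [← hη] at hD2' ⊢
    have hn : (0 : ℝ) ≤ n := Nat.cast_nonneg n
    nlinarith
  have key : ∀ l ∈ (univ : Finset (Ln F)), pr (fun s : Dir F → F =>
      η * (rr ((OD F).erase l.1) * Fintype.card F) + η * D ≤ η * Y l s ∨
      -η * (rr ((OD F).erase l.1) * Fintype.card F) + η * D ≤ -η * Y l s) ≤
      2 * Real.exp (-(2 * n + 10)) := fun l _ => by
    refine (pr_or _ _).trans ?_
    have a1 := tail l (t := η) (c := η * D) (by rwa [abs_of_nonneg hη0])
    have a2 := tail l (t := -η) (c := η * D) (by rwa [abs_neg, abs_of_nonneg hη0])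
    rw [neg_sq] at a2
    have := Real.exp_le_exp.2 hexp
    linarith
  refine le_trans (pr_mono fun s hs => ?_) ((pr_exists_le univ _ _ key).trans ?_)
  · obtain ⟨l, hl, h⟩ := hs
    refine ⟨l, mem_univ l, ?_⟩
    rw [Y_eq hl, not_and_or, not_le, not_le] at h
    obtain ⟨b1, b2⟩ := rr_erase (F := F) l.1
    rcases h with h | h
    · have := Nat.lt_ceil.1 h
      have : (Y l s : ℝ) ≤ rr ((OD F).erase l.1) * Fintype.card F - D := by nlinarith
      exact Or.inr (by nlinarith)
    · have : ((⌈rr (OD F) * Fintype.card F - D⌉₊ : ℝ) + (2 * D + 1)) < Y l s := by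
        exact_mod_cast h
      have : rr ((OD F).erase l.1) * Fintype.card F + D ≤ (Y l s : ℝ) := by linarith
      exact Or.inl (by nlinarith)
  · rw [card_univ, card_Ln, neg_add, Real.exp_add]
    push_cast
    have c1 : (2 : ℝ) ^ n ≤ Real.exp n := by
      rw [← mul_one (n : ℝ), Real.exp_nat_mul]
      exact pow_le_pow_left₀ zero_le_two (by linarith [Real.add_one_le_exp 1]) _
    have c2 : Real.exp (-(2 * n)) * (Real.exp n * Real.exp n) = 1 := by
      rw [← Real.exp_add, ← Real.exp_add, ← Real.exp_zero]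
      exact congrArg _ (by ring)
    have c3 : Real.exp (-10) * 40 ≤ 1 := by
      have := Real.quadratic_le_exp_of_nonneg (x := 10) (by norm_num)
      rw [Real.exp_neg, inv_mul_le_iff₀ (Real.exp_pos _)]
      linarith
    have c4 : ((Fintype.card F : ℝ) + 1) * Fintype.card F ≤ 2 * (Real.exp n * Real.exp n) := by
      nlinarith
    have c5 := Real.exp_pos (-(2 * (n : ℝ)))
    have c6 := Real.exp_pos (-10)
    calc _ ≤ 2 * (Real.exp n * Real.exp n) * (2 * (Real.exp (-(2 * n)) * Real.exp (-10))) :=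
          mul_le_mul_of_nonneg_right c4 (by positivity)
      _ = 4 * (Real.exp (-(2 * n)) * (Real.exp n * Real.exp n)) * Real.exp (-10) := by ring
      _ ≤ 1 / 10 := by rw [c2]; linarith

end Vale.Agent.P045
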