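import Vale.Agent.P045.Rand

/-! Tail bounds for the number of random lines through a point and of random rich lines. -/

set_option linter.unusedSectionVars false

namespace Vale.Agent.P045

open Finset

variable {F : Type} [Field F] [Fintype F] [DecidableEq F]

lemma card_Pset_le {m : ℕ} (T : Finset (Ln F)) (c : Fin m → Ln F) :
    (Pset T c).card ≤ T.card * m := by
  have h : Pset T c ⊆ (T ×ˢ (univ : Finset (Fin m))).biUnion fun u =>
      univ.filter fun x => On x u.1 ∧ On x (c u.2) ∧ c u.2 ≠ u.1 := by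
    intro x hx
    obtain ⟨l, hl, j, h⟩ := (mem_filter.mp hx).2
    exact mem_biUnion.mpr ⟨(l, j), mem_product.mpr ⟨hl, mem_univ _⟩, mem_filter.mpr ⟨mem_univ _, h⟩⟩
  refine (card_le_card h).trans (card_biUnion_le.trans ?_)
  refine (sum_le_card_nsmul _ _ 1 fun u _ => ?_).trans (by simp)
  rw [card_le_one]
  intro x hx y hy
  obtain ⟨h1, h2, h3⟩ := (mem_filter.mp hx).2
  obtain ⟨h4, h5, -⟩ := (mem_filter.mp hy).2
  exact point_unique h3 h2 h5 h1 h4

lemma card_rich_le (P : Finset (Pt F)) :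
    (univ.filter fun l : Ln F => Rich P l).card ≤ P.card ^ 2 := by
  have h : (univ.filter fun l : Ln F => Rich P l) ⊆ (P ×ˢ P).biUnion fun u =>
      univ.filter fun l => u.1 ≠ u.2 ∧ On u.1 l ∧ On u.2 l := by
    intro l hl
    obtain ⟨x, hx, y, hy, hxy⟩ := one_lt_card.mp (mem_filter.mp hl).2
    rw [mem_filter] at hx hy
    exact mem_biUnion.mpr ⟨(x, y), mem_product.mpr ⟨hx.1, hy.1⟩,
      mem_filter.mpr ⟨mem_univ _, hxy, hx.2, hy.2⟩⟩
  refine (card_le_card h).trans (card_biUnion_le.trans ?_)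
  refine (sum_le_card_nsmul _ _ 1 fun u _ => ?_).trans (by simp [sq])
  rw [card_le_one]
  intro l hl l' hl'
  obtain ⟨h1, h2, h3⟩ := (mem_filter.mp hl).2
  obtain ⟨-, h4, h5⟩ := (mem_filter.mp hl').2
  exact line_unique h1 h2 h3 h4 h5

namespace RandRich

lemma tail (Q : Ln F → Prop) [DecidablePred Q] (μ Λ : ℝ) (hΛ : 1 ≤ Λ) (N : ℕ)
    (hμ : ((∑ d ∈ OD F, (univ.filter fun a : F => Q (d, a)).card : ℕ) : ℝ) ≤
      μ * Fintype.card F) :
    pr (fun s : Dir F → F => N < ((Sof s).filter Q).card) ≤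
      Real.exp ((Λ - 1) * μ) / Λ ^ (N + 1) := by
  have hq : (0 : ℝ) < Fintype.card F := by exact_mod_cast Fintype.card_pos
  have h0 : 0 < Λ := by linarith
  have h1 := av_pow_count (ι := Dir F) (β := F) (fun _ => 0) (OD F)
    (fun d _ => univ.filter fun a : F => Q (d, a)) (fun _ _ _ _ _ _ _ => rfl)
    (fun d => ((univ.filter fun a : F => Q (d, a)).card : ℝ) / Fintype.card F)
    (fun d _ _ => by rw [div_mul_cancel₀ _ hq.ne']) Λ hΛ
  refine (pr_le_av_div (f := fun s : Dir F → F =>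
    Λ ^ ((OD F).filter fun d => s d ∈ univ.filter fun a : F => Q (d, a)).card)
    (pow_pos h0 (N + 1)) (fun _ => (pow_pos h0 _).le) fun s hs => ?_).trans ?_
  · refine pow_le_pow_right₀ hΛ (le_trans hs ?_)
    unfold Sof
    rw [filter_image]
    refine card_image_le.trans (card_le_card fun d hd => ?_)
    rw [mem_filter] at hd ⊢
    exact ⟨hd.1, mem_filter.mpr ⟨mem_univ _, hd.2⟩⟩
  · refine div_le_div_of_nonneg_right (h1.trans (Real.exp_le_exp.mpr ?_)) (pow_pos h0 _).le
    refine mul_le_mul_of_nonneg_left ?_ (by linarith)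
    rw [← sum_div, div_le_iff₀ hq]
    exact_mod_cast hμ

lemma sum_fib_le (Q : Ln F → Prop) [DecidablePred Q] :
    ∑ d ∈ OD F, (univ.filter fun a : F => Q (d, a)).card ≤ (univ.filter Q).card := by
  refine (sum_le_sum_of_subset (subset_univ _)).trans (le_of_eq ?_)
  simp only [card_filter]
  exact (Fintype.sum_prod_type fun l : Dir F × F => if Q l then 1 else 0).symm

lemma exp_le (k : ℕ) : Real.exp k ≤ 3 ^ k := by
  rw [← Real.exp_one_pow]
  exact pow_le_pow_left₀ (Real.exp_pos 1).le (Real.exp_one_lt_three.le) k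

end RandRich

open RandRich

theorem rand_points (N : ℕ) (hq : Fintype.card F ≤ 2 ^ N) (hN : 20 ≤ N) :
    pr (fun s : Dir F → F => ∃ z, N < ((Sof s).filter fun l => On z l).card) ≤ 1 / 10 := by
  have h1 : ∀ z ∈ (univ : Finset (Pt F)),
      pr (fun s : Dir F → F => N < ((Sof s).filter fun l => On z l).card) ≤
        3 ^ 7 / 8 ^ (N + 1) := by
    intro z _
    refine (tail (fun l => On z l) 1 8 (by norm_num) N ?_).trans ?_
    · rw [one_mul, Nat.cast_le]
      refine (sum_le_card_nsmul _ _ 1 fun d _ => ?_).trans ?_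
      · rw [card_le_one]
        intro a ha b hb
        exact ((mem_filter.mp ha).2.symm.trans (mem_filter.mp hb).2 :)
      · have := card_OD_le (F := F)
        rw [smul_eq_mul]
        omega
    · refine div_le_div_of_nonneg_right ?_ (by positivity)
      have := exp_le 7
      rwa [show (((7 : ℕ) : ℝ)) = (8 - 1) * 1 by norm_num] at this
  have h2 := pr_exists_le univ _ _ h1
  refine le_trans (pr_mono fun s ⟨z, hz⟩ => ⟨z, mem_univ _, hz⟩) (h2.trans ?_)
  rw [card_univ, card_Pt]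
  have h3 : ((Fintype.card F ^ 2 : ℕ) : ℝ) ≤ (2 ^ N) ^ 2 := by
    exact_mod_cast Nat.pow_le_pow_left hq 2
  have h4 : (2 : ℝ) ^ 20 ≤ 2 ^ N := pow_le_pow_right₀ (by norm_num) hN
  have h5 : (8 : ℝ) ^ (N + 1) = 8 * ((2 ^ N) ^ 2 * 2 ^ N) := by
    rw [pow_succ, show (8 : ℝ) = 2 ^ 3 by norm_num, ← pow_mul, mul_comm 3 N, pow_mul]; ring
  have h6 : (0 : ℝ) < 2 ^ N := by positivity
  refine (mul_le_mul_of_nonneg_right h3 (by positivity)).trans ?_
  rw [h5, ← mul_div_assoc, div_le_div_iff₀ (by positivity) (by norm_num)]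
  have h7 : (0 : ℝ) < (2 ^ N) ^ 2 := by positivity
  nlinarith

theorem rand_rich (n t m j0 : ℕ) (hq : Fintype.card F ≤ 2 ^ n)
    (h1 : t ^ 2 * m ≤ Fintype.card F) (h2 : (2 * n + 1) * (t + m) + 2 * m + 4 ≤ j0) :
    pr (fun s : Dir F → F => ∃ (T : Finset (Ln F)) (c : Fin m → Ln F), T.card = t ∧
      j0 < ((Sof s).filter fun l => Rich (Pset T c) l).card) ≤ 1 / 10 := by
  have h3 : ∀ u ∈ (powersetCard t (univ : Finset (Ln F))) ×ˢ (univ : Finset (Fin m → Ln F)),
      pr (fun s : Dir F → F => j0 < ((Sof s).filter fun l => Rich (Pset u.1 u.2) l).card) ≤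
        2 ^ (2 * m) / 2 ^ (j0 + 1) := by
    rintro ⟨T, c⟩ hu
    have hT : T.card = t := (mem_powersetCard.mp (mem_product.mp hu).1).2
    refine (tail (fun l => Rich (Pset T c) l) m 2 (by norm_num) j0 ?_).trans ?_
    · rw [← Nat.cast_mul, Nat.cast_le]
      refine (sum_fib_le _).trans ((card_rich_le _).trans ?_)
      refine (Nat.pow_le_pow_left (card_Pset_le T c) 2).trans ?_
      rw [hT]
      calc (t * m) ^ 2 = m * (t ^ 2 * m) := by ring
        _ ≤ _ := Nat.mul_le_mul_left m h1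
    · refine div_le_div_of_nonneg_right ?_ (by positivity)
      rw [show ((2 : ℝ) - 1) * m = m by ring, pow_mul]
      exact (exp_le m).trans (pow_le_pow_left₀ (by norm_num) (by norm_num) m)
  have h4 := pr_exists_le _ _ _ h3
  refine le_trans (pr_mono fun s ⟨T, c, hT, hs⟩ => ⟨(T, c), mem_product.mpr
    ⟨mem_powersetCard.mpr ⟨subset_univ _, hT⟩, mem_univ _⟩, hs⟩) (h4.trans ?_)
  have h5 : Fintype.card (Ln F) ≤ 2 ^ (2 * n + 1) := by
    rw [card_Ln]
    have h6 : 0 < 2 ^ n := by positivity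
    calc (Fintype.card F + 1) * Fintype.card F ≤ (2 ^ n + 2 ^ n) * 2 ^ n :=
          Nat.mul_le_mul (by omega) hq
      _ = 2 ^ (2 * n + 1) := by ring
  have h7 : ((powersetCard t (univ : Finset (Ln F))) ×ˢ (univ : Finset (Fin m → Ln F))).card ≤
      2 ^ ((2 * n + 1) * (t + m)) := by
    rw [card_product, card_powersetCard, card_univ, card_univ, Fintype.card_fun, Fintype.card_fin,
      pow_mul, pow_add]
    exact Nat.mul_le_mul ((Nat.choose_le_pow _ _).trans (Nat.pow_le_pow_left h5 _))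
      (Nat.pow_le_pow_left h5 _)
  have h8 : ((((powersetCard t (univ : Finset (Ln F))) ×ˢ
      (univ : Finset (Fin m → Ln F))).card : ℕ) : ℝ) ≤ 2 ^ ((2 * n + 1) * (t + m)) := by
    exact_mod_cast h7
  refine (mul_le_mul_of_nonneg_right h8 (by positivity)).trans ?_
  rw [← mul_div_assoc, ← pow_add, div_le_div_iff₀ (by positivity) (by norm_num), one_mul]
  have h9 : (2 : ℝ) ^ ((2 * n + 1) * (t + m) + 2 * m + 4) ≤ 2 ^ (j0 + 1) :=
    pow_le_pow_right₀ (by norm_num) (by omega)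
  rw [pow_add] at h9
  have h10 : (0 : ℝ) < 2 ^ ((2 * n + 1) * (t + m) + 2 * m) := by positivity
  nlinarith

end Vale.Agent.P045
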