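import Vale.Agent.P045.Geom

set_option linter.unusedSectionVars false

namespace Vale.Agent.P045

open Finset

namespace Smp

section counting

variable {α : Type} [DecidableEq α]

lemma hit_lower (C A : Finset α) (hA : A ⊆ C) (m : ℕ) (hn : 0 < C.card)
    (hma : m * A.card ≤ C.card) :
    (m : ℝ) * A.card * (C.card : ℝ) ^ m ≤ 2 * C.card *
      (((Fintype.piFinset fun _ : Fin m => C).filter fun c => ∃ j, c j ∈ A).card : ℝ) := by
  have hmiss : ((Fintype.piFinset fun _ : Fin m => C).filter fun c => ¬ ∃ j, c j ∈ A) =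
      Fintype.piFinset fun _ : Fin m => C \ A := by
    ext c
    simp only [mem_filter, Fintype.mem_piFinset, not_exists, mem_sdiff]
    exact ⟨fun h j => ⟨h.1 j, h.2 j⟩, fun h => ⟨fun j => (h j).1, fun j => (h j).2⟩⟩
  have hsum := Finset.card_filter_add_card_filter_not
    (s := Fintype.piFinset fun _ : Fin m => C) (fun c => ∃ j, c j ∈ A)
  rw [hmiss, Fintype.card_piFinset, Fintype.card_piFinset] at hsum
  simp only [prod_const, card_univ, Fintype.card_fin, card_sdiff_of_subset hA] at hsum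
  have hac : A.card ≤ C.card := card_le_card hA
  have hsum' := congrArg (Nat.cast : ℕ → ℝ) hsum
  push_cast [Nat.cast_sub hac] at hsum'
  generalize (((Fintype.piFinset fun _ : Fin m => C).filter fun c => ∃ j, c j ∈ A).card : ℝ) = h
    at hsum' ⊢
  have hn' : (0 : ℝ) < C.card := by exact_mod_cast hn
  have hac' : (A.card : ℝ) ≤ C.card := by exact_mod_cast hac
  have hma' : (m : ℝ) * A.card ≤ C.card := by exact_mod_cast hma
  have ha0 : (0 : ℝ) ≤ A.card := Nat.cast_nonneg _
  have hm0 : (0 : ℝ) ≤ m := Nat.cast_nonneg _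
  generalize (C.card : ℝ) = n at *
  generalize (A.card : ℝ) = a at *
  have hu0 : 0 ≤ a / n := by positivity
  have hb : 1 + (m : ℝ) * (a / n) ≤ (1 + a / n) ^ m := one_add_mul_le_pow (by linarith) m
  have h1 : (n - a) ^ m * (1 + a / n) ^ m ≤ n ^ m := by
    rw [← mul_pow]
    apply pow_le_pow_left₀ (mul_nonneg (by linarith) (by linarith))
    have e : (n - a) * (1 + a / n) = n - a * (a / n) := by field_simp; ring
    rw [e]
    nlinarith [mul_nonneg ha0 hu0]
  have hp : 0 ≤ (n - a) ^ m := pow_nonneg (by linarith) m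
  have h2 : (n - a) ^ m * (1 + (m : ℝ) * (a / n)) ≤ n ^ m :=
    (mul_le_mul_of_nonneg_left hb hp).trans h1
  have h3 : (n - a) ^ m * (n + m * a) ≤ n ^ m * n := by
    have := mul_le_mul_of_nonneg_right h2 hn'.le
    have e : (n - a) ^ m * (1 + (m : ℝ) * (a / n)) * n = (n - a) ^ m * (n + m * a) := by
      field_simp
    linarith
  have h4 : (n - a) ^ m ≤ n ^ m := pow_le_pow_left₀ (by linarith) (by linarith) m
  have hh : h = n ^ m - (n - a) ^ m := by linarith
  have hma0 : 0 ≤ (m : ℝ) * a := by positivity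
  rw [hh]
  nlinarith [mul_nonneg (sub_nonneg.2 h4) (sub_nonneg.2 hma')]

lemma pair_card (C A A' : Finset α) (m : ℕ) (j j' : Fin m) (hj : j ≠ j') :
    ((Fintype.piFinset fun _ : Fin m => C).filter fun c => c j ∈ A ∧ c j' ∈ A').card *
      C.card ^ 2 ≤ A.card * A'.card * C.card ^ m := by
  have hsub : ((Fintype.piFinset fun _ : Fin m => C).filter fun c => c j ∈ A ∧ c j' ∈ A') ⊆
      Fintype.piFinset fun i : Fin m => if i = j then A else if i = j' then A' else C := by
    intro c hc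
    simp only [mem_filter, Fintype.mem_piFinset] at hc ⊢
    intro i
    split_ifs with h1 h2
    · exact h1 ▸ hc.2.1
    · exact h2 ▸ hc.2.2
    · exact hc.1 i
  have h1 := card_le_card hsub
  rw [Fintype.card_piFinset, ← mul_prod_erase _ _ (mem_univ j),
    ← mul_prod_erase _ _ (mem_erase.2 ⟨hj.symm, mem_univ j'⟩)] at h1
  have h2 : ∏ i ∈ (univ.erase j).erase j',
      (if i = j then A else if i = j' then A' else C).card = ∏ _i ∈ (univ.erase j).erase j', C.card := by
    refine prod_congr rfl fun i hi => ?_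
    simp only [mem_erase] at hi
    rw [if_neg hi.2.1, if_neg hi.1]
  have h3 : C.card ^ m = C.card * (C.card * ∏ _i ∈ (univ.erase j).erase j', C.card) := by
    rw [mul_prod_erase _ (fun _ => C.card) (mem_erase.2 ⟨hj.symm, mem_univ j'⟩),
      mul_prod_erase _ (fun _ => C.card) (mem_univ j)]
    simp
  rw [h2, if_pos rfl, if_neg hj.symm, if_pos rfl] at h1
  rw [h3]
  calc _ ≤ A.card * (A'.card * ∏ _i ∈ (univ.erase j).erase j', C.card) * C.card ^ 2 :=
        Nat.mul_le_mul_right _ h1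
    _ = _ := by ring

lemma pair_upper (C A A' : Finset α) (hd : Disjoint A A') (m K : ℕ) (hA : A.card ≤ K)
    (hA' : A'.card ≤ K) :
    ((Fintype.piFinset fun _ : Fin m => C).filter
        fun c => (∃ j, c j ∈ A) ∧ ∃ j, c j ∈ A').card * C.card ^ 2 ≤
      m ^ 2 * K ^ 2 * C.card ^ m := by
  have hsub : ((Fintype.piFinset fun _ : Fin m => C).filter
        fun c => (∃ j, c j ∈ A) ∧ ∃ j, c j ∈ A') ⊆
      (univ : Finset (Fin m)).offDiag.biUnion fun p =>
        (Fintype.piFinset fun _ : Fin m => C).filter fun c => c p.1 ∈ A ∧ c p.2 ∈ A' := by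
    intro c hc
    rw [mem_filter] at hc
    obtain ⟨hc, ⟨j, hj⟩, ⟨j', hj'⟩⟩ := hc
    rw [mem_biUnion]
    refine ⟨(j, j'), ?_, mem_filter.2 ⟨hc, hj, hj'⟩⟩
    rw [mem_offDiag]
    refine ⟨mem_univ _, mem_univ _, ?_⟩
    rintro (h : j = j')
    subst h
    exact disjoint_left.1 hd hj hj'
  have h1 := (card_le_card hsub).trans card_biUnion_le
  calc _ ≤ (∑ p ∈ (univ : Finset (Fin m)).offDiag,
        ((Fintype.piFinset fun _ : Fin m => C).filter fun c => c p.1 ∈ A ∧ c p.2 ∈ A').card) *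
          C.card ^ 2 := Nat.mul_le_mul_right _ h1
    _ ≤ ∑ _p ∈ (univ : Finset (Fin m)).offDiag, K ^ 2 * C.card ^ m := by
        rw [sum_mul]
        refine sum_le_sum fun p hp => (pair_card C A A' m p.1 p.2 (mem_offDiag.1 hp).2.2).trans ?_
        rw [sq]; gcongr
    _ ≤ _ := by
        rw [sum_const, smul_eq_mul, offDiag_card, mul_assoc]
        apply Nat.mul_le_mul_right
        simp only [card_univ, Fintype.card_fin, sq]
        omega

lemma sum_card_filter_swap {β γ : Type} (s : Finset β) (t : Finset γ) (p : β → γ → Prop)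
    [∀ b c, Decidable (p b c)] :
    ∑ b ∈ s, (t.filter fun c => p b c).card = ∑ c ∈ t, (s.filter fun b => p b c).card := by
  simp only [card_filter]
  exact sum_comm

end counting

variable {F : Type} [Field F] [Fintype F] [DecidableEq F]

/-- number of lines of `C` through a point -/
def deg (C : Finset (Ln F)) (x : Pt F) : ℕ := (C.filter fun l => On x l).card

lemma dc (C : Finset (Ln F)) (X : Finset (Pt F)) (w : Pt F → ℝ) :
    ∑ l ∈ C, ∑ x ∈ X.filter (fun x => On x l), w x = ∑ x ∈ X, (deg C x : ℝ) * w x := by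
  simp only [sum_filter]
  rw [sum_comm]
  refine sum_congr rfl fun x _ => ?_
  rw [← sum_filter, sum_const, nsmul_eq_mul, deg]

lemma dc1 (C : Finset (Ln F)) (X : Finset (Pt F)) :
    ∑ l ∈ C, ((X.filter (fun x => On x l)).card : ℝ) = ∑ x ∈ X, (deg C x : ℝ) := by
  simpa using dc C X fun _ => 1

lemma sum_deg (C : Finset (Ln F)) :
    ∑ x, (deg C x : ℝ) = C.card * Fintype.card F := by
  rw [← dc1]
  have : ∀ l : Ln F, ((univ.filter fun x => On x l).card : ℝ) = Fintype.card F := fun l => by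
    exact_mod_cast card_pts l
  simp only [this, sum_const, nsmul_eq_mul]

lemma sum_deg_sq (C : Finset (Ln F)) :
    ∑ x, ((deg C x : ℝ) * deg C x - deg C x) ≤ (C.card : ℝ) ^ 2 := by
  rw [sum_sub_distrib, sum_deg, ← dc]
  have : ∀ l ∈ C, ∑ x ∈ univ.filter (fun x => On x l), (deg C x : ℝ) ≤
      Fintype.card F + C.card := by
    intro l hl
    rw [← dc1, ← add_sum_erase _ _ hl]
    apply add_le_add
    · have := card_filter_le (univ.filter fun x => On x l) (fun x => On x l)
      have h2 : (univ.filter fun x => On x l).card = Fintype.card F := card_pts l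
      exact_mod_cast this.trans h2.le
    · have h1 : ∀ l' ∈ C.erase l,
          ((((univ.filter fun x => On x l).filter fun x => On x l').card : ℕ) : ℝ) ≤ 1 := by
        intro l' hl'
        exact_mod_cast card_inter_le_one (mem_erase.1 hl').1.symm _ fun x hx => (mem_filter.1 hx).2
      have h2 := sum_le_card_nsmul _ _ _ h1
      have h3 : ((C.erase l).card : ℝ) ≤ C.card := by exact_mod_cast card_erase_le
      rw [nsmul_eq_mul, mul_one] at h2
      linarith
  have h := sum_le_card_nsmul _ _ _ this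
  rw [nsmul_eq_mul] at h
  nlinarith

lemma nat_sq_sub (k : ℕ) : (0 : ℝ) ≤ (k : ℝ) * k - k := by
  have : k ≤ k * k := Nat.le_mul_self k
  have : (k : ℝ) ≤ k * k := by exact_mod_cast this
  linarith

lemma deg_pos {C : Finset (Ln F)} {x : Pt F} (h : ∃ l ∈ C, On x l) : 1 ≤ deg C x := by
  obtain ⟨l, hl, hx⟩ := h
  exact card_pos.2 ⟨l, mem_filter.2 ⟨hl, hx⟩⟩

lemma deg_zero {C : Finset (Ln F)} {x : Pt F} (h : x ∈ unc C) : deg C x = 0 := by
  rw [deg, card_eq_zero, filter_eq_empty_iff]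
  exact fun l hl => mem_unc.1 h l hl

/-- points of low degree outside `unc S` -/
def Lo (S C : Finset (Ln F)) : Finset (Pt F) :=
  univ.filter fun x => deg C x ≤ 2400 ∧ x ∉ unc S

lemma W_lower (S C : Finset (Ln F)) (E : ℝ) (hcov : ∀ x ∈ unc S, ∃ l ∈ C, On x l)
    (hE : ∑ x ∈ unc S, ((deg C x : ℝ) - 1) ≤ E) :
    (C.card : ℝ) * Fintype.card F - (Fintype.card F : ℝ) ^ 2 + (unc C).card ≤
      (∑ x ∈ Lo S C, (deg C x : ℝ) * ((deg C x : ℝ) - 1)) / 2 + (C.card : ℝ) ^ 2 / 2400 + E := by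
  have key : ∀ x : Pt F, (deg C x : ℝ) - 1 + (if x ∈ unc C then 1 else 0) ≤
      (if x ∈ Lo S C then (deg C x : ℝ) * ((deg C x : ℝ) - 1) else 0) / 2 +
        ((deg C x : ℝ) * deg C x - deg C x) / 2400 +
        (if x ∈ unc S then (deg C x : ℝ) - 1 else 0) := by
    intro x
    have h0 := nat_sq_sub (deg C x)
    by_cases hu : x ∈ unc C
    · have hS : x ∉ unc S := fun h => by
        obtain ⟨l, hl, hx⟩ := hcov x h
        exact mem_unc.1 hu l hl hx
      rw [if_pos hu, if_neg hS, deg_zero hu]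
      simp
    · have h1 : 1 ≤ deg C x := by
        apply deg_pos
        by_contra h
        apply hu
        rw [mem_unc]
        exact fun l hl hx => h ⟨l, hl, hx⟩
      have h1' : (1 : ℝ) ≤ deg C x := by exact_mod_cast h1
      rw [if_neg hu]
      by_cases hS : x ∈ unc S
      · have hL : x ∉ Lo S C := fun h => (mem_filter.1 h).2.2 hS
        rw [if_pos hS, if_neg hL]; linarith
      · rw [if_neg hS]
        by_cases hL : x ∈ Lo S C
        · rw [if_pos hL]
          rcases eq_or_lt_of_le h1 with h | h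
          · rw [← h]; simp
          · have h2 : (2 : ℝ) ≤ deg C x := by exact_mod_cast h
            nlinarith
        · rw [if_neg hL]
          have h2 : 2400 < deg C x := by
            by_contra h
            exact hL (mem_filter.2 ⟨mem_univ _, not_lt.1 h, hS⟩)
          have h2 : (2400 : ℝ) ≤ deg C x := by exact_mod_cast h2.le
          nlinarith
  have h := sum_le_sum fun x (_ : x ∈ (univ : Finset (Pt F))) => key x
  simp only [sum_add_distrib, sum_sub_distrib (f := fun x => (deg C x : ℝ)) (g := fun _ => 1),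
    ← sum_div, sum_ite_mem, univ_inter, sum_const, nsmul_eq_mul, mul_one, card_univ,
    card_Pt, sum_deg] at h
  have h2 := sum_deg_sq C
  rw [sum_sub_distrib, sum_const, nsmul_eq_mul, mul_one] at hE
  push_cast at h
  linarith

/-- low points of `l` hit by a sampled line other than `l` -/
def good {m : ℕ} (S C : Finset (Ln F)) (l : Ln F) (c : Fin m → Ln F) : Finset (Pt F) :=
  ((Lo S C).filter fun x => On x l).filter fun x => ∃ j, On x (c j) ∧ c j ≠ l

/-- points of `unc S` on `l` of degree at least two -/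
def bad (S C : Finset (Ln F)) (l : Ln F) : Finset (Pt F) :=
  ((unc S).filter fun x => 2 ≤ deg C x).filter fun x => On x l

lemma good_le {m : ℕ} (S C : Finset (Ln F)) (l : Ln F) (c : Fin m → Ln F) :
    (good S C l c).card ≤ m := by
  have hsub : good S C l c ⊆ (univ : Finset (Fin m)).biUnion fun j =>
      if c j = l then ∅ else (pts l).filter fun x => On x (c j) := by
    intro x hx
    simp only [good, mem_filter] at hx
    obtain ⟨⟨_, hl⟩, j, hj, hne⟩ := hx
    exact mem_biUnion.2 ⟨j, mem_univ _, by rw [if_neg hne]; exact mem_filter.2 ⟨mem_pts.2 hl, hj⟩⟩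
  refine (card_le_card hsub).trans (card_biUnion_le.trans ?_)
  have : ∀ j ∈ (univ : Finset (Fin m)),
      (if c j = l then ∅ else (pts l).filter fun x => On x (c j)).card ≤ 1 := by
    intro j _
    split_ifs with h
    · simp
    · exact card_inter_le_one (Ne.symm h) _ fun x hx => mem_pts.1 hx
  simpa using sum_le_card_nsmul _ _ _ this

lemma good_lower (S C : Finset (Ln F)) (m : ℕ) (hm : m * 2400 ≤ C.card) (l : Ln F) (hl : l ∈ C) :
    (m : ℝ) * (C.card : ℝ) ^ m * ∑ x ∈ (Lo S C).filter (fun x => On x l), ((deg C x : ℝ) - 1) ≤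
      2 * C.card * ∑ c ∈ Fintype.piFinset fun _ : Fin m => C, ((good S C l c).card : ℝ) := by
  have hsw := sum_card_filter_swap (Fintype.piFinset fun _ : Fin m => C)
    ((Lo S C).filter fun x => On x l) (fun c x => ∃ j, On x (c j) ∧ c j ≠ l)
  have hsw' := congrArg (Nat.cast : ℕ → ℝ) hsw
  push_cast at hsw'
  simp only [good]
  rw [hsw', mul_sum, mul_sum]
  refine sum_le_sum fun x hx => ?_
  rw [mem_filter] at hx
  have hlow : deg C x ≤ 2400 := (mem_filter.1 hx.1).2.1
  have hmem : l ∈ C.filter fun l => On x l := mem_filter.2 ⟨hl, hx.2⟩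
  have hcard : ((C.filter fun l => On x l).erase l).card + 1 = deg C x := card_erase_add_one hmem
  have h := hit_lower C ((C.filter fun l => On x l).erase l)
    ((erase_subset _ _).trans (filter_subset _ _)) m (card_pos.2 ⟨l, hl⟩)
    ((Nat.mul_le_mul_left m (by omega)).trans hm)
  have hc' : (((C.filter fun l => On x l).erase l).card : ℝ) = (deg C x : ℝ) - 1 := by
    rw [← hcard]; push_cast; ring
  rw [hc'] at h
  refine le_trans (le_of_eq (by ring)) (h.trans ?_)
  apply mul_le_mul_of_nonneg_left _ (by positivity)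
  refine Nat.cast_le.2 (card_le_card fun c hc => ?_)
  rw [mem_filter] at hc ⊢
  obtain ⟨hc, j, hj⟩ := hc
  rw [mem_erase, mem_filter] at hj
  exact ⟨hc, j, hj.2.2, hj.1⟩

lemma bad_sum (S C : Finset (Ln F)) (hcov : ∀ x ∈ unc S, ∃ l ∈ C, On x l) :
    ∑ l ∈ C, ((bad S C l).card : ℝ) ≤ 2 * ∑ x ∈ unc S, ((deg C x : ℝ) - 1) := by
  simp only [bad]
  rw [dc1, sum_filter, mul_sum]
  refine sum_le_sum fun x hx => ?_
  have h1 : (1 : ℝ) ≤ deg C x := by exact_mod_cast deg_pos (hcov x hx)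
  split_ifs with h
  · have : (2 : ℝ) ≤ deg C x := by exact_mod_cast h
    linarith
  · linarith

/-- low points of `L` lying on a line of `T` -/
def XL (S C T : Finset (Ln F)) (L : Ln F) : Finset (Pt F) :=
  ((Lo S C).filter fun x => On x L).filter fun x => ∃ l ∈ T, On x l

/-- pairs of such points both hit by the sample -/
def B2 {m : ℕ} (S C T : Finset (Ln F)) (L : Ln F) (c : Fin m → Ln F) : Finset (Pt F × Pt F) :=
  (XL S C T L).offDiag.filter fun p => (∃ j, On p.1 (c j)) ∧ ∃ j, On p.2 (c j)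

lemma XL_le (S C T : Finset (Ln F)) (L : Ln F) (hL : L ∉ T) : (XL S C T L).card ≤ T.card := by
  have hsub : XL S C T L ⊆ T.biUnion fun l => (pts L).filter fun x => On x l := by
    intro x hx
    simp only [XL, mem_filter] at hx
    obtain ⟨⟨_, hl⟩, l, hlT, hx⟩ := hx
    exact mem_biUnion.2 ⟨l, hlT, mem_filter.2 ⟨mem_pts.2 hl, hx⟩⟩
  refine (card_le_card hsub).trans (card_biUnion_le.trans ?_)
  have : ∀ l ∈ T, ((pts L).filter fun x => On x l).card ≤ 1 := fun l hl =>
    card_inter_le_one (fun h : L = l => hL (h ▸ hl)) _ fun x hx => mem_pts.1 hx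
  simpa using sum_le_card_nsmul _ _ _ this

lemma B2_upper (S C T : Finset (Ln F)) (m : ℕ) (L : Ln F) (hL : L ∉ C) (hT : T ⊆ C) :
    (∑ c ∈ Fintype.piFinset fun _ : Fin m => C, (B2 S C T L c).card) * C.card ^ 2 ≤
      T.card ^ 2 * (m ^ 2 * 2400 ^ 2 * C.card ^ m) := by
  have hsw := sum_card_filter_swap (Fintype.piFinset fun _ : Fin m => C)
    (XL S C T L).offDiag (fun c p => (∃ j, On p.1 (c j)) ∧ ∃ j, On p.2 (c j))
  simp only [B2]
  rw [hsw, sum_mul]
  have key : ∀ p ∈ (XL S C T L).offDiag,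
      ((Fintype.piFinset fun _ : Fin m => C).filter
        fun c => (∃ j, On p.1 (c j)) ∧ ∃ j, On p.2 (c j)).card * C.card ^ 2 ≤
        m ^ 2 * 2400 ^ 2 * C.card ^ m := by
    intro p hp
    rw [mem_offDiag] at hp
    obtain ⟨h1, h2, hne⟩ := hp
    simp only [XL, Lo, mem_filter] at h1 h2
    refine le_trans (Nat.mul_le_mul_right _ (card_le_card fun c hc => ?_))
      (pair_upper C (C.filter fun l => On p.1 l) (C.filter fun l => On p.2 l) ?_ m 2400
        h1.1.1.2.1 h2.1.1.2.1)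
    · rw [mem_filter] at hc ⊢
      obtain ⟨hc, ⟨j, hj⟩, ⟨j', hj'⟩⟩ := hc
      have hc' := Fintype.mem_piFinset.1 hc
      exact ⟨hc, ⟨j, mem_filter.2 ⟨hc' j, hj⟩⟩, ⟨j', mem_filter.2 ⟨hc' j', hj'⟩⟩⟩
    · rw [disjoint_left]
      intro l hl hl'
      rw [mem_filter] at hl hl'
      exact hL (line_unique hne hl.2 hl'.2 h1.1.2 h2.1.2 ▸ hl.1)
  refine (sum_le_card_nsmul _ _ _ key).trans ?_
  rw [smul_eq_mul, offDiag_card]
  apply Nat.mul_le_mul_right
  have := XL_le S C T L fun h => hL (hT h)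
  have h2 := Nat.mul_le_mul this this
  rw [sq]; omega

lemma final (S C T : Finset (Ln F)) (hT : T ⊆ C) {m : ℕ} (c : Fin m → Ln F) (hc : ∀ j, c j ∈ C)
    (j0 : ℕ) (ha : (S.filter fun l => Rich (Pset T c) l).card ≤ j0) :
    ∑ l ∈ T, ((good S C l c).card : ℝ) ≤ (Kset S (Pset T c)).card + j0 +
        ∑ L ∈ S, ((B2 S C T L c).card : ℝ) + (T.card : ℝ) ^ 2 ∧
      ((Pset T c ∩ unc S).card : ℝ) ≤ ∑ l ∈ T, ((bad S C l).card : ℝ) := by
  constructor
  · set G : Finset (Pt F) := T.biUnion fun l => good S C l c with hG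
    have hGm : ∀ x ∈ G, x ∈ Lo S C ∧ ∃ l ∈ T, ∃ j, On x l ∧ On x (c j) ∧ c j ≠ l := by
      intro x hx
      obtain ⟨l, hl, hx⟩ := mem_biUnion.1 hx
      simp only [good, mem_filter] at hx
      obtain ⟨⟨h1, h2⟩, j, h3, h4⟩ := hx
      exact ⟨h1, l, hl, j, h2, h3, h4⟩
    have h1 : ∑ l ∈ T, ((good S C l c).card : ℝ) ≤ ∑ x ∈ G, (deg T x : ℝ) := by
      rw [← dc1]
      refine sum_le_sum fun l hl => Nat.cast_le.2 (card_le_card fun x hx => ?_)
      refine mem_filter.2 ⟨mem_biUnion.2 ⟨l, hl, hx⟩, ?_⟩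
      simp only [good, mem_filter] at hx
      exact hx.1.2
    have h2 : ∑ x ∈ G, (deg T x : ℝ) ≤ ∑ x ∈ G, (1 + ((deg T x : ℝ) * deg T x - deg T x)) :=
      sum_le_sum fun x _ => by nlinarith [sq_nonneg ((deg T x : ℝ) - 1)]
    rw [sum_add_distrib, sum_const, nsmul_eq_mul, mul_one] at h2
    have h3 : ∑ x ∈ G, ((deg T x : ℝ) * deg T x - deg T x) ≤
        ∑ x, ((deg T x : ℝ) * deg T x - deg T x) :=
      sum_le_sum_of_subset_of_nonneg (subset_univ _) fun x _ _ => nat_sq_sub _
    have h4 := sum_deg_sq T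
    have h5 : G.card ≤ (Kset S (Pset T c)).card + (j0 + ∑ L ∈ S, (B2 S C T L c).card) := by
      have hsub : G ⊆ Kset S (Pset T c) ∪ (S.filter fun l => Rich (Pset T c) l).biUnion
          fun L => G.filter fun x => On x L := by
        intro x hx
        obtain ⟨hlo, hP⟩ := hGm x hx
        by_cases hr : ∃ L ∈ S, On x L ∧ Rich (Pset T c) L
        · obtain ⟨L, hL, hxL, hR⟩ := hr
          exact mem_union_right _ (mem_biUnion.2 ⟨L, mem_filter.2 ⟨hL, hR⟩, mem_filter.2 ⟨hx, hxL⟩⟩)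
        · refine mem_union_left _ (mem_filter.2 ⟨mem_filter.2 ⟨mem_univ _, hP⟩, ?_,
            fun L hL hxL hR => hr ⟨L, hL, hxL, hR⟩⟩)
          have hn : x ∉ unc S := (mem_filter.1 hlo).2.2
          by_contra h
          exact hn (mem_unc.2 fun l hl hxl => h ⟨l, hl, hxl⟩)
      refine (card_le_card hsub).trans ((card_union_le _ _).trans (Nat.add_le_add_left ?_ _))
      refine card_biUnion_le.trans ?_
      have key : ∀ L ∈ S.filter fun l => Rich (Pset T c) l,
          (G.filter fun x => On x L).card ≤ 1 + (B2 S C T L c).card := by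
        intro L _
        have hX : ∀ x ∈ G.filter fun x => On x L, x ∈ XL S C T L ∧ ∃ j, On x (c j) := by
          intro x hx
          rw [mem_filter] at hx
          obtain ⟨hlo, l, hl, j, h1, h2, _⟩ := hGm x hx.1
          exact ⟨mem_filter.2 ⟨mem_filter.2 ⟨hlo, hx.2⟩, l, hl, h1⟩, j, h2⟩
        have hs : (G.filter fun x => On x L).offDiag ⊆ B2 S C T L c := by
          intro p hp
          rw [mem_offDiag] at hp
          exact mem_filter.2 ⟨mem_offDiag.2 ⟨(hX _ hp.1).1, (hX _ hp.2.1).1, hp.2.2⟩,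
            (hX _ hp.1).2, (hX _ hp.2.1).2⟩
        have := card_le_card hs
        rw [offDiag_card] at this
        generalize (G.filter fun x => On x L).card = a at *
        rcases Nat.lt_or_ge a 2 with h | h
        · omega
        · have := Nat.mul_le_mul_left a h
          omega
      refine (sum_le_sum key).trans ?_
      rw [sum_add_distrib, sum_const, smul_eq_mul, mul_one]
      exact Nat.add_le_add ha (sum_le_sum_of_subset (filter_subset _ _))
    have h5' := (Nat.cast_le (α := ℝ)).2 h5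
    push_cast at h5'
    linarith
  · have hsub : Pset T c ∩ unc S ⊆ T.biUnion fun l => bad S C l := by
      intro x hx
      rw [mem_inter] at hx
      obtain ⟨l, hl, j, h1, h2, h3⟩ := (mem_filter.1 hx.1).2
      refine mem_biUnion.2 ⟨l, hl, mem_filter.2 ⟨mem_filter.2 ⟨hx.2, ?_⟩, h1⟩⟩
      exact one_lt_card.2 ⟨c j, mem_filter.2 ⟨hc j, h2⟩, l, mem_filter.2 ⟨hT hl, h1⟩, h3⟩
    exact_mod_cast (card_le_card hsub).trans card_biUnion_le

lemma select {α : Type} (C : Finset α) (H : α → ℝ) (M q : ℝ) (t : ℕ) (hM : 0 < M)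
    (hn : (C.card : ℝ) ≤ 2 * q) (hH : ∀ l ∈ C, H l ≤ M) (hsum : M * q / 4800 ≤ ∑ l ∈ C, H l)
    (ht : 9600 * (t : ℝ) ≤ q) : ∃ T ⊆ C, T.card = t ∧ t * M / 19200 ≤ ∑ l ∈ T, H l := by
  classical
  have h1 : ∑ l ∈ C, H l ≤ ∑ l ∈ C, ((if M / 19200 ≤ H l then M else 0) + M / 19200) := by
    refine sum_le_sum fun l hl => ?_
    have := hH l hl
    split_ifs with h <;> linarith
  rw [sum_add_distrib, ← sum_filter, sum_const, sum_const, nsmul_eq_mul, nsmul_eq_mul] at h1
  have h2 : (t : ℝ) ≤ (C.filter fun l => M / 19200 ≤ H l).card := by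
    have h3 := mul_le_mul_of_nonneg_right hn hM.le
    have h4 := mul_le_mul_of_nonneg_right ht hM.le
    exact le_of_mul_le_mul_right (by linarith) hM
  obtain ⟨T, hT, hTc⟩ := exists_subset_card_eq (Nat.cast_le.1 h2)
  refine ⟨T, hT.trans (filter_subset _ _), hTc, ?_⟩
  have := card_nsmul_le_sum T H (M / 19200) fun l hl => (mem_filter.1 (hT hl)).2
  rw [nsmul_eq_mul, hTc] at this
  linarith

lemma num1 (b q n t m N : ℝ) (hb : 0 ≤ b) (hq : 0 < q) (hn : q ≤ n) (ht : 0 ≤ t) (hm : 0 ≤ m)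
    (hN : 0 ≤ N) (e1 : b * n ^ 2 ≤ t ^ 2 * (m ^ 2 * 5760000 * N))
    (h2 : 450000000000 * (t * m) ≤ q) : b ≤ t * m * N / 76800 / q := by
  have e2 : b * q ^ 2 ≤ b * n ^ 2 := by gcongr
  have e3 := mul_le_mul_of_nonneg_left h2 (show 0 ≤ t * m * N by positivity)
  have e4 : 0 ≤ t * m * N * (t * m) := by positivity
  rw [le_div_iff₀ hq]
  exact le_of_mul_le_mul_right (a := q) (by nlinarith) hq

lemma B2_total (S C T : Finset (Ln F)) (m t : ℕ) (hdisj : Disjoint S C) (hT : T ⊆ C)
    (hTc : T.card = t) (hS' : (S.card : ℝ) ≤ Fintype.card F)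
    (hn1' : (Fintype.card F : ℝ) ≤ C.card)
    (h2' : 450000000000 * ((t : ℝ) * m) ≤ Fintype.card F) :
    ∑ c ∈ Fintype.piFinset fun _ : Fin m => C, ∑ L ∈ S, ((B2 S C T L c).card : ℝ) ≤
      t * m * (C.card : ℝ) ^ m / 76800 := by
  have hq0 : (0 : ℝ) < Fintype.card F := by exact_mod_cast Fintype.card_pos
  rw [sum_comm]
  have key : ∀ L ∈ S, ∑ c ∈ Fintype.piFinset fun _ : Fin m => C, ((B2 S C T L c).card : ℝ) ≤
      t * m * (C.card : ℝ) ^ m / 76800 / Fintype.card F := by
    intro L hL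
    have e1 := (Nat.cast_le (α := ℝ)).2 (B2_upper S C T m L (disjoint_left.1 hdisj hL) hT)
    push_cast at e1
    rw [hTc] at e1
    exact num1 _ _ _ _ _ _ (sum_nonneg fun _ _ => Nat.cast_nonneg _) hq0 hn1' (Nat.cast_nonneg _)
      (Nat.cast_nonneg _) (by positivity) e1 h2'
  refine (sum_le_card_nsmul _ _ _ key).trans ?_
  rw [nsmul_eq_mul]
  calc _ ≤ (Fintype.card F : ℝ) * (t * m * (C.card : ℝ) ^ m / 76800 / Fintype.card F) := by
        gcongr
    _ = _ := by field_simp

lemma num2 (q n u W E m : ℝ) (hq : 0 < q) (hn1 : q ≤ n) (hn2 : n ≤ 2 * q) (hU : q ^ 2 ≤ 300 * u)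
    (h1 : 96000 * E ≤ m * q) (hmq : m ≤ q) (hW : n * q - q ^ 2 + u ≤ W / 2 + n ^ 2 / 2400 + E) :
    q ^ 2 / 600 ≤ W := by
  have e1 := mul_le_mul_of_nonneg_right hn1 hq.le
  have e2 : n ^ 2 ≤ (2 * q) ^ 2 := pow_le_pow_left₀ (by linarith) hn2 2
  have e3 := mul_le_mul_of_nonneg_right hmq hq.le
  nlinarith

lemma num3 (q n W G M : ℝ) (hq : 0 < q) (hn2 : n ≤ 2 * q) (hG : 0 ≤ G) (hM : 0 ≤ M)
    (hW : q ^ 2 / 600 ≤ W) (h : M * W ≤ 2 * n * G) : M * q / 2400 ≤ G := by
  have e1 := mul_le_mul_of_nonneg_left hW hM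
  have e2 := mul_le_mul_of_nonneg_right hn2 hG
  exact le_of_mul_le_mul_left (a := 4 * q) (by nlinarith) (by positivity)

end Smp

open Smp in
theorem sample {F : Type} [Field F] [Fintype F] [DecidableEq F] (S C : Finset (Ln F))
    (E t m j0 N0 : ℕ) (hS : S.card ≤ Fintype.card F) (hdisj : Disjoint S C)
    (hcov : ∀ x ∈ unc S, ∃ l ∈ C, On x l)
    (hn1 : Fintype.card F ≤ C.card) (hn2 : C.card ≤ 2 * Fintype.card F)
    (hE : ∑ l ∈ C, ((unc S).filter fun x => On x l).card ≤ (unc S).card + E)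
    (hU : Fintype.card F ^ 2 ≤ 300 * (unc C).card) (ht : 0 < t) (hm : 0 < m)
    (h1 : 96000 * E ≤ m * Fintype.card F) (h2 : 450000000000 * (t * m) ≤ Fintype.card F)
    (h3 : 25600 * (N0 + t ^ 2 + j0) ≤ t * m)
    (ha : ∀ (T : Finset (Ln F)) (c : Fin m → Ln F), T.card = t →
      (S.filter fun l => Rich (Pset T c) l).card ≤ j0) :
    ∃ (T : Finset (Ln F)) (c : Fin m → Ln F), T.card = t ∧
      10 * (Pset T c ∩ unc S).card + N0 ≤ (Kset S (Pset T c)).card := by
  have hmt : m ≤ t * m := Nat.le_mul_of_pos_left m ht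
  have htm : t ≤ t * m := Nat.le_mul_of_pos_right t hm
  have hmK : m * 2400 ≤ C.card := by omega
  have hE' : ∑ x ∈ unc S, ((deg C x : ℝ) - 1) ≤ E := by
    have := (Nat.cast_le (α := ℝ)).2 hE
    push_cast at this
    rw [dc1] at this
    rw [sum_sub_distrib, sum_const, nsmul_eq_mul, mul_one]
    linarith
  have hW := W_lower S C E hcov hE'
  have hbad := (bad_sum S C hcov).trans (mul_le_mul_of_nonneg_left hE' (by norm_num))
  have hgood := sum_le_sum fun l hl => good_lower S C m hmK l hl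
  rw [← mul_sum, ← mul_sum, dc] at hgood
  have hq0 : (0 : ℝ) < Fintype.card F := by exact_mod_cast Fintype.card_pos
  have hn1' : (Fintype.card F : ℝ) ≤ C.card := by exact_mod_cast hn1
  have hn2' : (C.card : ℝ) ≤ 2 * Fintype.card F := by exact_mod_cast hn2
  have hU' : (Fintype.card F : ℝ) ^ 2 ≤ 300 * (unc C).card := by exact_mod_cast hU
  have h1' : 96000 * (E : ℝ) ≤ m * Fintype.card F := by exact_mod_cast h1
  have h2' : 450000000000 * ((t : ℝ) * m) ≤ Fintype.card F := by exact_mod_cast h2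
  have h3' : 25600 * ((N0 : ℝ) + t ^ 2 + j0) ≤ t * m := by exact_mod_cast h3
  have hmq : (m : ℝ) ≤ Fintype.card F := by exact_mod_cast (by omega : m ≤ Fintype.card F)
  have htq : 9600 * (t : ℝ) ≤ Fintype.card F := by
    exact_mod_cast (by omega : 9600 * t ≤ Fintype.card F)
  have hS' : (S.card : ℝ) ≤ Fintype.card F := by exact_mod_cast hS
  have hm' : (0 : ℝ) < m := by exact_mod_cast hm
  have ht' : (0 : ℝ) < t := by exact_mod_cast ht
  have hn0 : (0 : ℝ) < C.card := by linarith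
  have hN : (0 : ℝ) < (C.card : ℝ) ^ m := by positivity
  have hΩ : ((Fintype.piFinset fun _ : Fin m => C).card : ℝ) = (C.card : ℝ) ^ m := by
    rw [Fintype.card_piFinset]; simp
  have hW' := num2 _ _ _ _ _ _ hq0 hn1' hn2' hU' h1' hmq hW
  have hG := num3 _ _ _ _ _ hq0 hn2' (sum_nonneg fun _ _ => sum_nonneg fun _ _ => Nat.cast_nonneg _)
    (mul_pos hm' hN).le hW' hgood
  obtain ⟨T, hT, hTc, hTs⟩ := select C
    (fun l => ∑ c ∈ Fintype.piFinset fun _ : Fin m => C, ((good S C l c).card : ℝ) -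
      10 * (C.card : ℝ) ^ m * (bad S C l).card) ((m : ℝ) * (C.card : ℝ) ^ m) (Fintype.card F) t
    (by positivity) hn2'
    (fun l _ => by
      have e1 := sum_le_card_nsmul (Fintype.piFinset fun _ : Fin m => C)
        (fun c => ((good S C l c).card : ℝ)) m fun c _ => Nat.cast_le.2 (good_le S C l c)
      rw [nsmul_eq_mul, hΩ] at e1
      have e2 : 0 ≤ 10 * (C.card : ℝ) ^ m * (bad S C l).card := by positivity
      linarith)
    (by
      rw [sum_sub_distrib, ← mul_sum]
      have e1 := mul_le_mul_of_nonneg_left hbad hN.le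
      have e2 := mul_le_mul_of_nonneg_left h1' hN.le
      linarith) htq
  rw [sum_sub_distrib, ← mul_sum, sum_comm] at hTs
  have hB := B2_total S C T m t hdisj hT hTc hS' hn1' h2'
  have hne : (Fintype.piFinset fun _ : Fin m => C).Nonempty := by
    rw [← card_pos]; exact_mod_cast hΩ ▸ hN
  obtain ⟨c, hc, hcc⟩ := exists_le_of_sum_le (s := Fintype.piFinset fun _ : Fin m => C)
    (f := fun _ => 10 * ∑ l ∈ T, ((bad S C l).card : ℝ) + t * m / 25600)
    (g := fun c => ∑ l ∈ T, ((good S C l c).card : ℝ) - ∑ L ∈ S, ((B2 S C T L c).card : ℝ)) hne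
    (by
      rw [sum_sub_distrib, sum_const, nsmul_eq_mul, hΩ]
      linarith)
  obtain ⟨f1, f2⟩ := final S C T hT c (Fintype.mem_piFinset.1 hc) j0 (ha T c hTc)
  refine ⟨T, c, hTc, ?_⟩
  rw [hTc] at f1
  have : 10 * ((Pset T c ∩ unc S).card : ℝ) + N0 ≤ (Kset S (Pset T c)).card := by linarith
  exact_mod_cast this

end Vale.Agent.P045
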