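import Mathlib

/-! The polynomial core of the stability theorem for line covers. -/

namespace Vale.Agent.P045

namespace Stab

open Finset Polynomial

section uni

variable {p : ℕ} [Fact p.Prime]

theorem euler_coeff (g : (ZMod p)[X]) (a : ℕ) :
    (X * derivative g).coeff a = (a : ZMod p) * g.coeff a := by
  cases a with
  | zero => simp
  | succ a => rw [coeff_X_mul, coeff_derivative]; push_cast; ring

theorem euler_natDegree (g : (ZMod p)[X]) : (X * derivative g).natDegree ≤ g.natDegree := by
  refine natDegree_le_iff_coeff_eq_zero.2 fun n hn => ?_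
  rw [euler_coeff, coeff_eq_zero_of_natDegree_lt hn, mul_zero]

theorem natDegree_eq_of_wronsk {g h : (ZMod p)[X]} (hg : g ≠ 0) (hh : h ≠ 0)
    (dg : g.natDegree < p) (dh : h.natDegree < p)
    (w : derivative g * h = g * derivative h) : h.natDegree = g.natDegree := by
  have e : (X * derivative g) * h = g * (X * derivative h) := by
    rw [mul_assoc, w]; ring
  have := congrArg (fun q => coeff q (g.natDegree + h.natDegree)) e
  simp only [coeff_mul_add_eq_of_natDegree_le (euler_natDegree g) le_rfl,
    coeff_mul_add_eq_of_natDegree_le le_rfl (euler_natDegree h), euler_coeff,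
    coeff_natDegree] at this
  have a := leadingCoeff_ne_zero.2 hg
  have b := leadingCoeff_ne_zero.2 hh
  have c : ((h.natDegree : ℕ) : ZMod p) = (g.natDegree : ℕ) := by
    apply mul_left_cancel₀ (mul_ne_zero a b)
    linear_combination -this
  have := (ZMod.natCast_eq_natCast_iff' _ _ _).1 c
  rwa [Nat.mod_eq_of_lt dh, Nat.mod_eq_of_lt dg] at this

theorem exists_smul_of_wronsk {g h : (ZMod p)[X]} (hg : g ≠ 0)
    (dg : g.natDegree < p) (dh : h.natDegree < p)
    (w : derivative g * h = g * derivative h) : ∃ κ : ZMod p, h = C κ * g := by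
  have a := leadingCoeff_ne_zero.2 hg
  refine ⟨h.coeff g.natDegree / g.leadingCoeff, ?_⟩
  set κ := h.coeff g.natDegree / g.leadingCoeff with hκ
  by_contra hne
  have h1 : h - C κ * g ≠ 0 := sub_ne_zero.2 hne
  have d1 : (h - C κ * g).natDegree < p :=
    (natDegree_sub_le _ _).trans_lt (max_lt dh ((natDegree_C_mul_le _ _).trans_lt dg))
  have := natDegree_eq_of_wronsk hg h1 dg d1 (by
    rw [derivative_sub, derivative_C_mul]
    linear_combination w)
  apply leadingCoeff_ne_zero.2 h1
  rw [leadingCoeff, this, coeff_sub, coeff_C_mul, coeff_natDegree, hκ, div_mul_cancel₀ _ a,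
    sub_self]

theorem uni (m : Multiset (ZMod p)) (α g h : (ZMod p)[X]) (d D : ℕ) (hα : α ≠ 0)
    (dα : α.natDegree ≤ d) (dg : g.natDegree ≤ D) (dh : h.natDegree ≤ D)
    (hD : 3 * D + 1 < m.card)  (hDp : D < p)
    (e : (m.map fun a => X - C a).prod * α = X ^ p * g + h) :
    p ≤ m.toFinset.card + d ∨ ∃ κ, p ≤ m.count κ + d := by
  set f := (m.map fun a => X - C a).prod with hf
  have f0 : f ≠ 0 := (monic_multisetProd_X_sub_C m).ne_zero
  have fr : f.roots = m := roots_multiset_prod_X_sub_C m
  have fd : f.natDegree = m.card := natDegree_multiset_prod_X_sub_C_eq_card m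
  have fa := mul_ne_zero f0 hα
  have g0 : g ≠ 0 := by
    intro h0
    rw [h0, mul_zero, zero_add] at e
    have := natDegree_mul f0 hα
    rw [e] at this
    omega
  have ra : α.roots.card ≤ d := (card_roots' α).trans dα
  by_cases c1 : X * g + h = 0
  · left
    have : (univ : Finset (ZMod p)) ⊆ m.toFinset ∪ α.roots.toFinset := by
      intro a _
      have : eval a (f * α) = 0 := by
        rw [e, show X ^ p * g + h = (X ^ p - X) * g + (X * g + h) by ring, c1]
        simp
      rw [mem_union, ← fr, Multiset.mem_toFinset, Multiset.mem_toFinset, mem_roots f0,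
        mem_roots hα]
      simpa using this
    have h1 := (card_le_card this).trans (card_union_le _ _)
    have h2 := Multiset.toFinset_card_le α.roots
    rw [card_univ, ZMod.card] at h1
    omega
  by_cases c2 : derivative g * h - g * derivative h = 0
  · right
    obtain ⟨κ, hκ⟩ := exists_smul_of_wronsk g0 (by omega) (by omega) (sub_eq_zero.1 c2)
    refine ⟨-κ, ?_⟩
    have h1 : (X - C (-κ)) ^ p ∣ f * α := by
      refine ⟨g, ?_⟩
      rw [e, hκ, map_neg, sub_neg_eq_add, add_pow_char, ← map_pow, ZMod.pow_card]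
      ring
    have h2 := (le_rootMultiplicity_iff fa).2 h1
    rw [← count_roots, roots_mul fa, Multiset.count_add, fr] at h2
    have := Multiset.count_le_card (-κ) α.roots
    omega
  exfalso
  have s1 : m.dedup ≤ (X * g + h).roots := by
    refine (Multiset.le_iff_subset m.nodup_dedup).2 fun a ha => ?_
    rw [Multiset.mem_dedup, ← fr, mem_roots f0] at ha
    rw [mem_roots c1]
    have := congrArg (eval a) e
    rw [eval_mul, ha.eq_zero, zero_mul] at this
    simpa using this.symm
  have s2 : m - m.dedup ≤ (derivative g * h - g * derivative h).roots := by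
    refine Multiset.le_iff_count.2 fun a => ?_
    have h1 : (X - C a) ^ m.count a ∣ f * α := by
      refine Dvd.dvd.mul_right ?_ _
      rw [← le_rootMultiplicity_iff f0, ← count_roots, fr]
    have h2 := pow_sub_one_dvd_derivative_of_pow_dvd h1
    have h3 := (pow_dvd_pow _ (Nat.sub_le _ 1)).trans h1
    rw [e] at h2 h3
    have h4 : derivative (X ^ p * g + h) = X ^ p * derivative g + derivative h := by
      simp [derivative_X_pow]
    rw [h4] at h2
    have h5 := (h3.mul_left (derivative g)).sub (h2.mul_left g)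
    rw [show derivative g * (X ^ p * g + h) - g * (X ^ p * derivative g + derivative h) =
      derivative g * h - g * derivative h by ring, ← le_rootMultiplicity_iff c2,
      ← count_roots] at h5
    refine le_trans ?_ h5
    rw [Multiset.count_sub, Multiset.count_dedup]
    split_ifs with h6
    · exact le_rfl
    · rw [Multiset.count_eq_zero.2 h6]
  have t1 := (Multiset.card_le_card s1).trans (card_roots' _)
  have t2 := (Multiset.card_le_card s2).trans (card_roots' _)
  rw [Multiset.card_sub (Multiset.dedup_le m)] at t2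
  have u1 : (X * g + h).natDegree ≤ D + 1 := by
    refine (natDegree_add_le _ _).trans (max_le (natDegree_mul_le.trans ?_) (by omega))
    rw [natDegree_X]
    omega
  have u2 : (derivative g * h - g * derivative h).natDegree ≤ 2 * D := by
    have a := natDegree_derivative_le g
    have b := natDegree_derivative_le h
    refine (natDegree_sub_le _ _).trans
      (max_le (natDegree_mul_le.trans ?_) (natDegree_mul_le.trans ?_)) <;> omega
  omega

end uni

section top

variable {F : Type} [Field F]

/-- The substitution `X₀ ↦ t s`, `X₁ ↦ s`. -/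
noncomputable def T : MvPolynomial (Fin 2) F →ₐ[F] F[X][X] :=
  MvPolynomial.aeval ![C X * X, X]

theorem T_coeff (P : MvPolynomial (Fin 2) F) (j a : ℕ) :
    ((T P).coeff j).coeff a = if a ≤ j then
      MvPolynomial.coeff (Finsupp.single 0 a + Finsupp.single 1 (j - a)) P else 0 := by
  classical
  induction P using MvPolynomial.induction_on' with
  | monomial m r =>
    have e : T (MvPolynomial.monomial m r) = monomial (m 0 + m 1) (monomial (m 0) r) := by
      rw [T, MvPolynomial.aeval_monomial, Finsupp.prod_fintype _ _ (by simp), Fin.prod_univ_two,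
        ← C_mul_X_pow_eq_monomial, ← C_mul_X_pow_eq_monomial]
      simp only [Matrix.cons_val_zero, Matrix.cons_val_one, Polynomial.algebraMap_apply,
        Algebra.algebraMap_self,
        RingHom.id_apply, map_mul, map_pow]
      ring
    have k : m = Finsupp.single 0 a + Finsupp.single 1 (j - a) ↔ m 0 = a ∧ m 1 = j - a := by
      rw [Finsupp.ext_iff, Fin.forall_fin_two]
      simp
    rw [e, coeff_monomial, MvPolynomial.coeff_monomial]
    simp only [k]
    split_ifs with h1 h2 h3 h4 h5
    · rw [coeff_monomial, if_pos h3.1]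
    · rw [coeff_monomial, if_neg (by omega)]
    · rw [coeff_monomial, if_neg (by omega)]
    · omega
    · simp
    · simp
  | add P Q hP hQ =>
    rw [map_add, coeff_add, coeff_add, hP, hQ, MvPolynomial.coeff_add]
    split_ifs <;> simp

theorem T_coeff_natDegree (P : MvPolynomial (Fin 2) F) (j : ℕ) :
    ((T P).coeff j).natDegree ≤ j :=
  natDegree_le_iff_coeff_eq_zero.2 fun a ha => by rw [T_coeff, if_neg (by omega)]

theorem sum_two (m : Fin 2 →₀ ℕ) : (m.sum fun _ e => e) = m 0 + m 1 := by
  rw [Finsupp.sum_fintype _ _ (by simp), Fin.sum_univ_two]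

theorem T_natDegree (P : MvPolynomial (Fin 2) F) : (T P).natDegree ≤ P.totalDegree := by
  refine natDegree_le_iff_coeff_eq_zero.2 fun j hj => ?_
  ext a
  rw [T_coeff, coeff_zero]
  split_ifs with h
  · by_contra hne
    have := MvPolynomial.le_totalDegree (MvPolynomial.mem_support_iff.2 hne)
    rw [sum_two] at this
    simp at this
    omega
  · rfl

theorem T_top {P : MvPolynomial (Fin 2) F} (hP : P ≠ 0) : (T P).coeff P.totalDegree ≠ 0 := by
  obtain ⟨m, hm, e⟩ := Finset.exists_mem_eq_sup P.support
    (MvPolynomial.support_nonempty.2 hP) (fun s => s.sum fun _ e => e)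
  change P.totalDegree = _ at e
  rw [sum_two] at e
  intro h
  have := T_coeff P P.totalDegree (m 0)
  rw [h, coeff_zero, if_pos (by omega)] at this
  apply MvPolynomial.mem_support_iff.1 hm
  rw [this]
  congr 1
  rw [Finsupp.ext_iff, Fin.forall_fin_two]
  simp
  omega

theorem exists_vanish (Z : Finset (F × F)) (e : ℕ) (hZ : Z.card < (e + 1) ^ 2) :
    ∃ A : MvPolynomial (Fin 2) F, A ≠ 0 ∧ A.totalDegree ≤ 2 * e ∧
      ∀ z ∈ Z, MvPolynomial.eval ![z.1, z.2] A = 0 := by
  classical
  let L : (Fin (e + 1) × Fin (e + 1) → F) →ₗ[F] (Z → F) :=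
    (Matrix.of fun (z : Z) (i : Fin (e + 1) × Fin (e + 1)) =>
      z.1.1 ^ (i.1 : ℕ) * z.1.2 ^ (i.2 : ℕ)).mulVecLin
  have := LinearMap.ker_ne_bot_of_finrank_lt (f := L) (by simpa [sq] using hZ)
  obtain ⟨w, hw, w0⟩ := (Submodule.ne_bot_iff _).1 this
  let μ : Fin (e + 1) × Fin (e + 1) → (Fin 2 →₀ ℕ) := fun i =>
    Finsupp.single 0 (i.1 : ℕ) + Finsupp.single 1 (i.2 : ℕ)
  have μi : Function.Injective μ := by
    intro i j h
    rw [Finsupp.ext_iff, Fin.forall_fin_two] at h
    simp only [μ] at h
    simp at h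
    exact Prod.ext (Fin.ext h.1) (Fin.ext h.2)
  refine ⟨∑ i, MvPolynomial.monomial (μ i) (w i), fun h => w0 ?_, ?_, fun z hz => ?_⟩
  · funext i
    have := congrArg (MvPolynomial.coeff (μ i)) h
    simpa [MvPolynomial.coeff_sum, MvPolynomial.coeff_monomial, μi.eq_iff] using this
  · refine (MvPolynomial.totalDegree_finsetSum _ _).trans (Finset.sup_le fun i _ => ?_)
    refine (MvPolynomial.totalDegree_monomial_le _ _).trans ?_
    have := sum_two (μ i)
    simp only [μ] at this ⊢
    refine this.le.trans ?_
    simp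
    omega
  · have := congrFun (LinearMap.mem_ker.1 hw) ⟨z, hz⟩
    simp only [L, Matrix.mulVecLin_apply, Matrix.mulVec, dotProduct, Matrix.of_apply,
      Pi.zero_apply] at this
    rw [map_sum, ← this]
    refine Finset.sum_congr rfl fun i _ => ?_
    rw [MvPolynomial.eval_monomial, Finsupp.prod_fintype _ _ (by simp), Fin.prod_univ_two]
    simp [μ, mul_comm]

theorem top_mul {p N : ℕ} (hp : 1 < p) {u v : F[X]} (hu : u ≠ 0) {Q : F[X][X]}
    (h : ((C u * X ^ p - C v * X) * Q).natDegree ≤ N) :
    (C u * X ^ p - C v * X : F[X][X]).natDegree = p ∧ (Q = 0 ∨ p + Q.natDegree ≤ N) := by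
  have d : (C u * X ^ p - C v * X : F[X][X]).natDegree = p := by
    rw [natDegree_sub_eq_left_of_natDegree_lt, natDegree_C_mul_X_pow _ _ hu]
    rw [natDegree_C_mul_X_pow _ _ hu]
    exact (natDegree_C_mul_le _ _).trans_lt (by rwa [natDegree_X])
  refine ⟨d, ?_⟩
  by_cases q : Q = 0
  · exact Or.inl q
  · right
    rwa [natDegree_mul (ne_zero_of_natDegree_gt (n := 0) (by omega)) q, d] at h

end top

theorem core {p : ℕ} [Fact p.Prime] {ι : Type} (I : Finset ι) (b c : ι → ZMod p) (k e : ℕ)
    (hI : I.card ≤ p + k) (hk : 16 * (k + 1) ≤ p) (he : 16 * (e + 1) ≤ p)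
    (Z : Finset (ZMod p × ZMod p)) (hZ : Z.card < (e + 1) ^ 2)
    (hc : ∀ z, z ∉ Z → ∃ i ∈ I, z.1 - b i * z.2 - c i = 0) :
    p ≤ (I.image b).card + 2 * e ∨ ∃ κ, p ≤ (I.filter fun i => b i = κ).card + 2 * e := by
  have hp : 1 < p := (Fact.out : p.Prime).one_lt
  obtain ⟨A, A0, Ad, Az⟩ := exists_vanish Z e hZ
  let φ : ι → MvPolynomial (Fin 2) (ZMod p) := fun i =>
    MvPolynomial.X 0 - MvPolynomial.C (b i) * MvPolynomial.X 1 - MvPolynomial.C (c i)
  obtain ⟨H, H1, H2⟩ := MvPolynomial.combinatorial_nullstellensatz_exists_linearCombination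
    (fun _ : Fin 2 => (univ : Finset (ZMod p))) (fun _ => univ_nonempty) ((∏ i ∈ I, φ i) * A)
    (fun x _ => by
      rw [map_mul]
      by_cases hz : (x 0, x 1) ∈ Z
      · have := Az _ hz
        rw [show ![x 0, x 1] = x by funext i; fin_cases i <;> rfl] at this
        rw [this, mul_zero]
      · obtain ⟨i, hi, h⟩ := hc _ hz
        rw [map_prod, Finset.prod_eq_zero hi, zero_mul]
        simpa [φ] using h)
  have P : ∀ i : Fin 2, ∏ s : ZMod p, (MvPolynomial.X i - MvPolynomial.C s :
      MvPolynomial (Fin 2) (ZMod p)) = MvPolynomial.X i ^ p - MvPolynomial.X i := by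
    intro i
    have h1 : (X ^ p - X : (ZMod p)[X]).Monic :=
      monic_X_pow_sub (by rw [degree_X]; exact_mod_cast hp)
    have h2 := FiniteField.roots_X_pow_card_sub_X (ZMod p)
    rw [ZMod.card] at h2
    have h3 := prod_multiset_X_sub_C_of_monic_of_roots_card_eq h1 (by
      rw [h2, FiniteField.X_pow_card_sub_X_natDegree_eq _ hp, ← Finset.card_def, card_univ,
        ZMod.card])
    rw [h2, ← Finset.prod_eq_multiset_prod] at h3
    have := congrArg (aeval (MvPolynomial.X i : MvPolynomial (Fin 2) (ZMod p))) h3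
    simpa [map_prod] using this
  simp only [P] at H1 H2
  rw [Finsupp.linearCombination_apply, Finsupp.sum_fintype _ _ (by simp), Fin.sum_univ_two] at H2
  simp only [smul_eq_mul] at H2
  have φd : ∀ i, (φ i).totalDegree ≤ 1 := by
    intro i
    refine (MvPolynomial.totalDegree_sub _ _).trans (max_le
      ((MvPolynomial.totalDegree_sub _ _).trans (max_le (by simp) ?_)) (by simp))
    exact (MvPolynomial.totalDegree_mul _ _).trans (by simp)
  have Fd : ((∏ i ∈ I, φ i) * A).totalDegree ≤ I.card + A.totalDegree := by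
    refine (MvPolynomial.totalDegree_mul _ _).trans (Nat.add_le_add_right ?_ _)
    refine (MvPolynomial.totalDegree_finsetProd _ _).trans ?_
    simpa using Finset.sum_le_sum fun i (_ : i ∈ I) => φd i
  have T0 : T (MvPolynomial.X 0 ^ p - MvPolynomial.X 0 : MvPolynomial (Fin 2) (ZMod p)) =
      C (X ^ p) * X ^ p - C X * X := by simp [T, mul_pow]
  have T1 : T (MvPolynomial.X 1 ^ p - MvPolynomial.X 1 : MvPolynomial (Fin 2) (ZMod p)) =
      C 1 * X ^ p - C 1 * X := by simp [T]
  have a0 := (T_natDegree _).trans ((H1 0).trans Fd)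
  have a1 := (T_natDegree _).trans ((H1 1).trans Fd)
  rw [map_mul] at a0 a1
  rw [T0] at a0
  rw [T1] at a1
  obtain ⟨d0, b0⟩ := top_mul hp (pow_ne_zero _ X_ne_zero) a0
  obtain ⟨d1, b1⟩ := top_mul hp one_ne_zero a1
  have E := congrArg T H2
  rw [map_mul, map_add, map_mul, map_mul, T0, T1] at E
  have L : (T (∏ i ∈ I, φ i) * T A).coeff (I.card + A.totalDegree) =
      ((I.val.map b).map fun a => X - C a).prod * (T A).coeff A.totalDegree := by
    have t : ∀ i, (T (φ i)).natDegree ≤ 1 := fun i => (T_natDegree _).trans (φd i)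
    rw [coeff_mul_add_eq_of_natDegree_le _ (T_natDegree A), map_prod]
    · congr 1
      have := coeff_prod_of_natDegree_le I (fun i => T (φ i)) 1 fun i _ => t i
      rw [mul_one] at this
      rw [this, Multiset.map_map, Finset.prod_eq_multiset_prod]
      congr 2
      funext i
      simp [φ, T, coeff_C]
    · rw [map_prod]
      refine (natDegree_prod_le _ _).trans ?_
      simpa using Finset.sum_le_sum fun i (_ : i ∈ I) => t i
  have α0 := T_top A0
  have L0 : (T (∏ i ∈ I, φ i) * T A).coeff (I.card + A.totalDegree) ≠ 0 := by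
    rw [L]
    exact mul_ne_zero (monic_multisetProd_X_sub_C _).ne_zero α0
  have Np : p ≤ I.card + A.totalDegree := by
    by_contra hlt
    rw [E, b0.resolve_right (by omega), b1.resolve_right (by omega)] at L0
    simp at L0
  obtain ⟨D, hD⟩ := Nat.exists_eq_add_of_le Np
  have g0 : (T (H 0)).natDegree ≤ D := by
    rcases b0 with h | h
    · simp [h]
    · omega
  have g1 : (T (H 1)).natDegree ≤ D := by
    rcases b1 with h | h
    · simp [h]
    · omega
  rw [E, hD, coeff_add, mul_comm (T (H 0)), mul_comm (T (H 1)),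
    coeff_mul_add_eq_of_natDegree_le d0.le g0, coeff_mul_add_eq_of_natDegree_le d1.le g1] at L
  have q : ∀ u v : (ZMod p)[X], (C u * X ^ p - C v * X : (ZMod p)[X][X]).coeff p = u := by
    intro u v
    rw [coeff_sub, coeff_C_mul, coeff_C_mul, coeff_X_pow_self, coeff_X_of_ne_one hp.ne']
    simp
  rw [q, q, one_mul] at L
  have := uni (I.val.map b) _ _ _ (2 * e) D α0 ((T_coeff_natDegree _ _).trans Ad)
    (T_coeff_natDegree _ _) (T_coeff_natDegree _ _) (by simp; omega) (by omega) L.symm
  rcases this with h | ⟨κ, h⟩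
  · exact Or.inl h
  · refine Or.inr ⟨κ, ?_⟩
    rw [Multiset.count_map] at h
    simpa [eq_comm, Finset.card_def, Finset.filter_val] using h

end Stab

end Vale.Agent.P045
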