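import Vale.Agent.P045.Geom
import Vale.Agent.P045.StabA

/-! Stability of line covers of the affine plane over a prime field. -/

namespace Vale.Agent.P045

open Finset

namespace Stab

variable {F : Type} [Field F]

theorem val_add (d : Dir F) (x y : Pt F) : val d (x + y) = val d x + val d y := by
  cases d <;> simp [val]
  ring

theorem val_smul (d : Dir F) (a : F) (x : Pt F) : val d (a • x) = a * val d x := by
  cases d <;> simp [val]
  ring

theorem exists_frame (d : Dir F) : ∃ v w : Pt F, v ≠ 0 ∧ val d v = 0 ∧ val d w = 1 := by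
  cases d with
  | none => exact ⟨(0, 1), (1, 0), by simp, by simp [val], by simp [val]⟩
  | some m => exact ⟨(1, m), (0, 1), by simp, by simp [val], by simp [val]⟩

theorem val_zero (d : Dir F) : val d (0 : Pt F) = 0 := by
  cases d <;> simp [val]

variable [Fintype F] [DecidableEq F]

/-- points of `l` lying on no other line of `C` -/
def once (C : Finset (Ln F)) (l : Ln F) : Finset (Pt F) :=
  univ.filter fun x => On x l ∧ ∀ l' ∈ C, On x l' → l' = l

theorem count (C : Finset (Ln F)) (B : ℕ) (h : ∀ l ∈ C, (once C l).card ≤ B) :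
    2 * Fintype.card F ^ 2 ≤ 2 * (unc C).card + C.card * (Fintype.card F + B) := by
  have h1 : ∀ x : Pt F, 2 ≤ 2 * (if x ∈ unc C then 1 else 0) +
      ∑ l ∈ C, ((if x ∈ pts l then 1 else 0) + if x ∈ once C l then 1 else 0) := by
    intro x
    by_cases hx : x ∈ unc C
    · simp [hx]
    · rw [if_neg hx, mul_zero, zero_add]
      rw [mem_unc] at hx
      push Not at hx
      obtain ⟨l, hl, hxl⟩ := hx
      by_cases ho : x ∈ once C l
      · refine le_trans ?_ (single_le_sum (fun _ _ => Nat.zero_le _) hl)
        simp [ho, hxl]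
      · have : ∃ l' ∈ C, On x l' ∧ l' ≠ l := by
          simpa [once, hxl] using ho
        obtain ⟨l', hl', hxl', hne⟩ := this
        refine le_trans ?_ (add_le_sum (fun _ _ => Nat.zero_le _) hl hl' hne.symm)
        simp only [mem_pts, hxl, hxl', if_true]
        omega
  have h2 := Finset.sum_le_sum fun x (_ : x ∈ univ) => h1 x
  rw [sum_const, card_univ, card_Pt, sum_add_distrib, ← mul_sum, sum_comm] at h2
  simp only [sum_add_distrib, sum_ite_mem, univ_inter, sum_const, smul_eq_mul, mul_one,
    card_pts] at h2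
  have h3 := Finset.sum_le_sum h
  rw [sum_const, smul_eq_mul] at h3
  nlinarith

theorem step (p : ℕ) [Fact p.Prime] (C : Finset (Ln (ZMod p))) (k e : ℕ)
    (hC : C.card ≤ p + k) (hk : 16 * (k + 1) ≤ p) (he : 16 * (e + 1) ≤ p)
    (hU : (unc C).card < (e + 1) ^ 2) {l0 : Ln (ZMod p)} (h0 : l0 ∈ C) :
    (once C l0).card ≤ 2 * e + 1 ∨
    (∃ z : Pt (ZMod p), p ≤ (C.filter fun l => On z l).card + 2 * e + 1) ∨
    (∃ d : Dir (ZMod p), p ≤ (C.filter fun l => l.1 = d).card + 2 * e + 1) := by
  rcases (once C l0).eq_empty_or_nonempty with hemp | ⟨x1, hx1⟩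
  · left
    simp [hemp]
  obtain ⟨on1, only1⟩ : On x1 l0 ∧ ∀ l' ∈ C, On x1 l' → l' = l0 := by simpa [once] using hx1
  obtain ⟨v, w, v0, dv, dw⟩ := exists_frame l0.1
  let b : Option (Ln (ZMod p)) → ZMod p := fun o =>
    match o with
    | none => 0
    | some l => -val l.1 v / (val l.1 x1 - l.2)
  let c : Option (Ln (ZMod p)) → ZMod p := fun o =>
    match o with
    | none => 0
    | some l => -val l.1 w / (val l.1 x1 - l.2)
  have ha : ∀ l ∈ C.erase l0, val l.1 x1 - l.2 ≠ 0 := fun l hl h =>
    (ne_of_mem_erase hl) (only1 l (mem_of_mem_erase hl) (sub_eq_zero.1 h))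
  let I := insertNone (C.erase l0)
  have hI : I.card ≤ p + k := by
    have := card_pos.2 ⟨l0, h0⟩
    rw [card_insertNone, card_erase_of_mem h0]
    omega
  let Z : Finset (ZMod p × ZMod p) := univ.filter fun z => ∀ i ∈ I, z.1 - b i * z.2 - c i ≠ 0
  have hZ : Z.card ≤ (unc C).card := by
    have s0 : ∀ z ∈ Z, z.1 ≠ 0 := fun z hz => by
      simpa [b, c] using (mem_filter.1 hz).2 none none_mem_insertNone
    have vv : ∀ (d : Dir (ZMod p)) (z : ZMod p × ZMod p),
        val d (x1 + z.1⁻¹ • (z.2 • v + w)) = val d x1 + z.1⁻¹ * (z.2 * val d v + val d w) := by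
      intro d z
      rw [val_add, val_smul, val_add, val_smul]
    refine card_le_card_of_injOn (fun z => x1 + z.1⁻¹ • (z.2 • v + w)) (fun z hz => ?_)
      fun z hz z' hz' h => ?_
    · have s := s0 z hz
      rw [mem_coe, mem_unc]
      intro l hl hon
      rw [On, vv] at hon
      by_cases hl0 : l = l0
      · rw [hl0, dv, dw, on1] at hon
        simp [s] at hon
      · have m : l ∈ C.erase l0 := mem_erase.2 ⟨hl0, hl⟩
        have a := ha l m
        refine (mem_filter.1 hz).2 (some l) (some_mem_insertNone.2 m) ?_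
        simp only [b, c]
        field_simp at hon ⊢
        linear_combination hon
    · have h1 := congrArg (val l0.1) h
      simp only [vv, dv, dw, mul_zero, zero_add, mul_one, add_right_inj, inv_inj] at h1
      simp only [h1, add_right_inj] at h
      have h2 := smul_right_injective _ (inv_ne_zero (s0 z' hz')) h
      rw [add_left_inj] at h2
      exact Prod.ext h1 (smul_left_injective _ v0 h2)
  have hb : ∀ l ∈ C.erase l0, b (some l) ≠ 0 → On (x1 + (b (some l))⁻¹ • v) l := by
    intro l hl h
    have a := ha l hl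
    have h' : val l.1 v ≠ 0 := fun h' => h (by simp [b, h'])
    rw [On, val_add, val_smul]
    simp only [b]
    field_simp
    ring
  rcases core I b c k e hI hk he Z (hZ.trans_lt hU) (fun z hz => by simpa [Z] using hz) with
    h | ⟨κ, h⟩
  · left
    have h1 : ((I.image b).erase 0).card ≤ (pts l0 \ once C l0).card := by
      refine card_le_card_of_injOn (fun β => x1 + β⁻¹ • v) (fun β hβ => ?_) fun β _ β' _ h => ?_
      · obtain ⟨β0, hβ⟩ := mem_erase.1 hβ
        obtain ⟨i, hi, rfl⟩ := mem_image.1 hβ
        cases i with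
        | none => exact absurd rfl β0
        | some l =>
          have m := some_mem_insertNone.1 hi
          rw [mem_coe, mem_sdiff, mem_pts]
          refine ⟨by rw [On, val_add, val_smul, dv, mul_zero, add_zero]; exact on1, fun ho => ?_⟩
          exact ne_of_mem_erase m ((mem_filter.1 ho).2.2 l (mem_of_mem_erase m) (hb l m β0))
      · simp only [add_right_inj] at h
        exact inv_injective (smul_left_injective _ v0 h)
    have h2 := pred_card_le_card_erase (s := I.image b) (a := 0)
    have h3 : once C l0 ⊆ pts l0 := fun x hx => mem_pts.2 (mem_filter.1 hx).2.1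
    have h4 := card_sdiff_add_card_eq_card h3
    rw [card_pts, ZMod.card] at h4
    omega
  · right
    have key : ∀ (P : Ln (ZMod p) → Prop) [DecidablePred P],
        (∀ l ∈ C.erase l0, b (some l) = κ → P l) → p ≤ (C.filter P).card + 2 * e + 1 := by
      intro P _ hP
      have : (I.filter fun i => b i = κ) ⊆ insertNone (C.filter P) := by
        intro i hi
        cases i with
        | none => exact none_mem_insertNone
        | some l =>
          have m := some_mem_insertNone.1 (mem_filter.1 hi).1
          exact some_mem_insertNone.2 (mem_filter.2 ⟨mem_of_mem_erase m,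
            hP l m (mem_filter.1 hi).2⟩)
      have := card_le_card this
      rw [card_insertNone] at this
      omega
    by_cases κ0 : κ = 0
    · right
      refine ⟨l0.1, key _ fun l hl h => ?_⟩
      have a := ha l hl
      have : val l.1 v = 0 := by simpa [b, κ0, a] using h
      exact dir_unique v0 (this.trans (val_zero _).symm) (dv.trans (val_zero _).symm)
    · left
      refine ⟨x1 + κ⁻¹ • v, key _ fun l hl h => ?_⟩
      rw [← h] at κ0 ⊢
      exact hb l hl κ0

end Stab

theorem stab (p : ℕ) [Fact p.Prime] (C : Finset (Ln (ZMod p))) (k e : ℕ)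
    (hC : C.card ≤ p + k) (hk : 16 * (k + 1) ≤ p) (he : 16 * (e + 1) ≤ p)
    (hU : (unc C).card < (e + 1) ^ 2) :
    (∃ z : Pt (ZMod p), p ≤ (C.filter fun l => On z l).card + 2 * e + 1) ∨
    (∃ d : Dir (ZMod p), p ≤ (C.filter fun l => l.1 = d).card + 2 * e + 1) := by
  by_contra hn
  have h := Stab.count C (2 * e + 1) fun l hl =>
    (Stab.step p C k e hC hk he hU hl).resolve_right hn
  rw [ZMod.card] at h
  have h1 : C.card * (p + (2 * e + 1)) ≤ (p + k) * (p + (2 * e + 1)) :=
    Nat.mul_le_mul_right _ hC
  have h2 : 16 * (p + k) ≤ 17 * p := by omega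
  have h3 : 16 * (p + (2 * e + 1)) ≤ 18 * p := by omega
  have h4 := Nat.mul_le_mul h2 h3
  have h5 := Nat.mul_le_mul he he
  nlinarith

end Vale.Agent.P045
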