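import Vale.Agent.P045.Rand
import Vale.Agent.P045.Sample
import Vale.Agent.P045.Stab

/-! Rigidity of small covers of the uncovered set. -/

set_option linter.unusedSectionVars false

namespace Vale.Agent.P045

open Finset

variable {F : Type} [Field F] [Fintype F] [DecidableEq F]

namespace Rigid

/-- points of a line covered by other lines need as many lines -/
lemma card_le_of_cov {l : Ln F} (X : Finset (Pt F)) (M : Finset (Ln F)) (hX : ∀ x ∈ X, On x l)
    (hM : ∀ x ∈ X, ∃ l' ∈ M, l' ≠ l ∧ On x l') : X.card ≤ M.card := by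
  choose! f hf hf' hf'' using hM
  refine card_le_card_of_injOn f hf fun x hx y hy hxy => ?_
  refine point_unique (hf' x hx) (hf'' x hx) ?_ (hX x hx) (hX y hy)
  rw [hxy]
  exact hf'' y hy

lemma mul_le_card_unc (S : Finset (Ln F)) (A : ℕ) (hV : ∀ l ∈ S, l.1 ≠ none)
    (hA : ∀ l, l ∉ S → A ≤ ((unc S).filter fun x => On x l).card) :
    Fintype.card F * A ≤ (unc S).card := by
  rw [card_eq_sum_card_fiberwise (f := fun x : Pt F => x.1) (s := unc S) (t := univ)
    (fun _ _ => mem_coe.mpr (mem_univ _)), ← card_univ, ← smul_eq_mul]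
  exact card_nsmul_le_sum _ _ _ fun a _ => hA (none, a) fun h => hV _ h rfl

end Rigid

open Rigid in
theorem rigid (p : ℕ) [Fact p.Prime] (S : Finset (Ln (ZMod p))) (A δ k t m j0 N0 : ℕ)
    (hS : S.card ≤ p) (hV : ∀ l ∈ S, l.1 ≠ none)
    (hA : ∀ l, l ∉ S → A ≤ ((unc S).filter fun x => On x l).card ∧
      ((unc S).filter fun x => On x l).card ≤ A + δ)
    (hpA : p ≤ 4 * A) (hk : 16 * (k + 1) ≤ p) (ht : 0 < t) (hm : 0 < m)
    (h1 : 96000 * (δ + 2 * k) ≤ m) (h2 : 450000000000 * (t * m) ≤ p)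
    (h3 : 25600 * (N0 + t ^ 2 + j0) ≤ t * m)
    (ha : ∀ (T : Finset (Ln (ZMod p))) (c : Fin m → Ln (ZMod p)), T.card = t →
      (S.filter fun l => Rich (Pset T c) l).card ≤ j0)
    (hb : ∀ (T : Finset (Ln (ZMod p))) (c : Fin m → Ln (ZMod p)), T.card = t →
      (Kset S (Pset T c)).card < 10 * (Pset T c ∩ unc S).card + N0)
    (C : Finset (Ln (ZMod p))) (hC : C.card ≤ p + k) (hd : ∀ l ∈ C, l ∉ S)
    (hcov : ∀ x ∈ unc S, ∃ l ∈ C, On x l) :
    (∃ z, ∀ d, (d, val d z) ∉ S → (d, val d z) ∈ C) ∨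
      (∃ d, ∀ a, (d, a) ∉ S → (d, a) ∈ C) := by
  have hq : Fintype.card (ZMod p) = p := ZMod.card p
  have hmt : m ≤ t * m := Nat.le_mul_of_pos_left m ht
  obtain ⟨C2, hC1, hC2, hn1, hn2⟩ : ∃ C2 : Finset (Ln (ZMod p)), C ⊆ C2 ∧ C2 ⊆ univ \ S ∧
      p ≤ C2.card ∧ C2.card ≤ p + k := by
    have hsub : C ⊆ univ \ S := fun l hl => mem_sdiff.mpr ⟨mem_univ _, hd l hl⟩
    by_cases h : p ≤ C.card
    · exact ⟨C, subset_rfl, hsub, h, hC⟩
    · have hc : p ≤ (univ \ S).card := by
        rw [card_sdiff_of_subset (subset_univ _), card_univ, card_Ln, hq]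
        have : p * 1 ≤ p * p := Nat.mul_le_mul_left _ (by omega)
        have e : (p + 1) * p = p * p + p := by ring
        omega
      obtain ⟨C2, h1, h2, h3⟩ := exists_subsuperset_card_eq hsub (not_le.mp h).le hc
      exact ⟨C2, h1, h2, h3.ge, by omega⟩
  have hd2 : ∀ l ∈ C2, l ∉ S := fun l hl => (mem_sdiff.mp (hC2 hl)).2
  have hcov2 : ∀ x ∈ unc S, ∃ l ∈ C2, On x l := fun x hx => by
    obtain ⟨l, hl, h⟩ := hcov x hx
    exact ⟨l, hC1 hl, h⟩
  have hAp : A ≤ p := by
    refine (hA (none, 0) fun h => hV _ h rfl).1.trans ?_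
    exact (card_le_card fun x hx => mem_pts.mpr (mem_filter.mp hx).2).trans
      ((card_pts ((none, 0) : Ln (ZMod p))).trans hq).le
  by_cases hU : p ^ 2 ≤ 300 * (unc C2).card
  · exfalso
    have hunc := mul_le_card_unc S A hV fun l hl => (hA l hl).1
    rw [hq] at hunc
    have hE : ∑ l ∈ C2, ((unc S).filter fun x => On x l).card ≤
        (unc S).card + p * (δ + 2 * k) := by
      have a1 := sum_le_card_nsmul C2 _ (A + δ) fun l hl => (hA l (hd2 l hl)).2
      rw [smul_eq_mul] at a1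
      have a2 : C2.card * (A + δ) ≤ (p + k) * (A + δ) := Nat.mul_le_mul_right _ hn2
      have a3 : k * A ≤ k * p := Nat.mul_le_mul_left _ hAp
      have a4 : k * δ ≤ k * p := Nat.mul_le_mul_left _ (by omega)
      have e1 : (p + k) * (A + δ) = p * A + p * δ + k * A + k * δ := by ring
      have e2 : p * (δ + 2 * k) = p * δ + k * p + k * p := by ring
      omega
    obtain ⟨T, c, hT, h⟩ := sample S C2 (p * (δ + 2 * k)) t m j0 N0 (by rw [hq]; exact hS)
      (disjoint_right.mpr hd2) hcov2 (by rw [hq]; exact hn1) (by rw [hq]; omega) hE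
      (by rw [hq]; exact hU) ht hm
      (by
        rw [hq]
        calc 96000 * (p * (δ + 2 * k)) = 96000 * (δ + 2 * k) * p := by ring
          _ ≤ m * p := Nat.mul_le_mul_right _ h1)
      (by rw [hq]; exact h2) h3 ha
    exact absurd (hb T c hT) (not_lt.mpr h)
  obtain ⟨e, he⟩ : ∃ e, e + 1 = p / 16 := ⟨p / 16 - 1, by omega⟩
  have he1 : 16 * (e + 1) ≤ p := by omega
  have he2 : p ≤ 17 * (e + 1) := by omega
  have hU2 : (unc C2).card < (e + 1) ^ 2 := by
    have a1 : p ^ 2 ≤ (17 * (e + 1)) ^ 2 := Nat.pow_le_pow_left he2 2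
    rw [mul_pow] at a1
    omega
  rcases stab p C2 k e hn2 hk he1 hU2 with ⟨z, hz⟩ | ⟨d, hz⟩
  · refine Or.inl ⟨z, fun d hl => ?_⟩
    by_contra hlC
    have a1 := card_filter_add_card_filter_not (s := C2) fun l => On z l
    have a2 := card_le_of_cov (l := (d, val d z))
      (((unc S).filter fun x => On x (d, val d z)).erase z) (C2.filter fun l => ¬ On z l)
      (fun x hx => (mem_filter.mp (mem_of_mem_erase hx)).2) (by
        intro x hx
        obtain ⟨hxz, hx⟩ := mem_erase.mp hx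
        obtain ⟨hx1, hx2⟩ := mem_filter.mp hx
        obtain ⟨l', hl', h⟩ := hcov x hx1
        have hne : l' ≠ (d, val d z) := fun h' => hlC (h' ▸ hl')
        exact ⟨l', mem_filter.mpr ⟨hC1 hl', fun h' =>
          hne (line_unique hxz h h' hx2 (on_self d z))⟩, hne, h⟩)
    have a3 := pred_card_le_card_erase (s := (unc S).filter fun x => On x (d, val d z)) (a := z)
    have a4 := (hA _ hl).1
    omega
  · refine Or.inr ⟨d, fun a hl => ?_⟩
    by_contra hlC
    have a1 := card_filter_add_card_filter_not (s := C2) fun l => l.1 = d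
    have a2 := card_le_of_cov (l := (d, a))
      ((unc S).filter fun x => On x (d, a)) (C2.filter fun l => ¬ l.1 = d)
      (fun x hx => (mem_filter.mp hx).2) (by
        intro x hx
        obtain ⟨hx1, hx2⟩ := mem_filter.mp hx
        obtain ⟨l', hl', h⟩ := hcov x hx1
        have hne : l' ≠ (d, a) := fun h' => hlC (h' ▸ hl')
        exact ⟨l', mem_filter.mpr ⟨hC1 hl', fun h' => hne (eq_of_same_dir h' h hx2)⟩, hne, h⟩)
    have a4 := (hA _ hl).1
    omega

end Vale.Agent.P045
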