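import Vale.Agent.P045.Build
import Vale.Agent.P045.RandLines
import Vale.Agent.P045.RandRich
import Vale.Agent.P045.RandKset
import Vale.Agent.P045.RandCand
import Vale.Agent.P045.Rigid

/-! Choice of the parameters. -/

set_option linter.unusedSectionVars false

namespace Vale.Agent.P045

open Finset

lemma exists_good_s {F : Type} [Field F] [Fintype F] [DecidableEq F] (N D t m j0 N0 : ℕ)
    (hq : Fintype.card F ≤ 2 ^ N) (hN : 20 ≤ N) (hD : 12 * D ≤ Fintype.card F)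
    (hD2 : 9 * Fintype.card F * (2 * N + 10) ≤ D ^ 2) (h1 : t ^ 2 * m ≤ Fintype.card F)
    (h2 : (2 * N + 1) * (t + m) + 2 * m + 4 ≤ j0)
    (h3 : 5 * ((2 * N + 1) * (t + m) + 2 * m + 4) ≤ N0)
    (h4 : 100000 * (N + 1) ≤ Fintype.card F) :
    ∃ (s : Dir F → F) (A : ℕ), Fintype.card F ≤ 4 * A ∧
      (∀ l, l ∉ Sof s → A ≤ ((unc (Sof s)).filter fun x => On x l).card ∧
        ((unc (Sof s)).filter fun x => On x l).card ≤ A + (2 * D + 1)) ∧
      (∀ z, ((Sof s).filter fun l => On z l).card ≤ N) ∧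
      (∀ (T : Finset (Ln F)) (c : Fin m → Ln F), T.card = t →
        ((Sof s).filter fun l => Rich (Pset T c) l).card ≤ j0) ∧
      (∀ (T : Finset (Ln F)) (c : Fin m → Ln F), T.card = t →
        (Kset (Sof s) (Pset T c)).card < 10 * (Pset T c ∩ unc (Sof s)).card + N0) ∧
      (∀ L : Ln F, L.1 ∉ JJ F → Fintype.card F ≤ 3400 *
        (univ.filter fun α : F => ∀ i j, ∀ l ∈ Sof s, On (pc L α i j) l → l = L).card) := by
  obtain ⟨A, hA, r1⟩ := rand_lines (F := F) N D hq hD hD2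
  have r2 := rand_points (F := F) N hq hN
  have r3 := rand_rich (F := F) N t m j0 hq h1 h2
  have r4 := rand_kset (F := F) N t m N0 hq h1 h3
  have r5 := rand_cand (F := F) N hq h4
  obtain ⟨s, hs⟩ := exists_not_of_pr_lt_one (lt_of_le_of_lt ((pr_or _ _).trans (add_le_add r1
    ((pr_or _ _).trans (add_le_add r2 ((pr_or _ _).trans (add_le_add r3
      ((pr_or _ _).trans (add_le_add r4 r5)))))))) (by norm_num))
  simp only [not_or] at hs
  obtain ⟨s1, s2, s3, s4, s5⟩ := hs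
  refine ⟨s, A, hA, fun l hl => ?_, fun z => ?_, fun T c hT => ?_, fun T c hT => ?_,
    fun L hL => ?_⟩
  · by_contra h; exact s1 ⟨l, hl, h⟩
  · by_contra h; exact s2 ⟨z, not_le.mp h⟩
  · by_contra h; exact s3 ⟨T, c, hT, not_le.mp h⟩
  · by_contra h; exact s4 ⟨T, c, hT, not_lt.mp h⟩
  · by_contra h; exact s5 ⟨L, hL, not_le.mp h⟩

lemma pw {N : ℕ} (hN : 10000000 ≤ N) (a b : ℕ) (h : a < b) : 10000000 * N ^ a ≤ N ^ b :=
  calc 10000000 * N ^ a ≤ N * N ^ a := Nat.mul_le_mul_right _ hN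
    _ = N ^ (a + 1) := by ring
    _ ≤ N ^ b := Nat.pow_le_pow_right (by omega) h

theorem main_param (p : ℕ) [Fact p.Prime] (N : ℕ) (hN : 10000000 ≤ N) (h1 : N ^ 250 ≤ p)
    (h2 : p ≤ 2 * N ^ 250) (h3 : p ≤ 2 ^ N) :
    ∃ (n : ℕ) (part : Fin n → Fin (p + 1)) (H : Finset (Finset (Fin n))),
      IsPartite (p + 1) part H ∧ IsIntersecting H ∧ nu H = 1 ∧ tau H = p + 1 := by
  have hc : Fintype.card (ZMod p) = p := ZMod.card p
  have e0 : 10000000 ≤ N ^ 1 := by simpa using hN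
  have e1 : N ^ 1 = N := pow_one N
  have e2 := pw hN 1 2 (by norm_num)
  have e3 := pw hN 2 3 (by norm_num)
  have e4 := pw hN 3 4 (by norm_num)
  have e5 := pw hN 4 12 (by norm_num)
  have e6 := pw hN 12 48 (by norm_num)
  have e7 := pw hN 48 49 (by norm_num)
  have e8 := pw hN 49 200 (by norm_num)
  have e9 := pw hN 200 239 (by norm_num)
  have e10 := pw hN 239 240 (by norm_num)
  have e11 := pw hN 240 241 (by norm_num)
  have e12 := pw hN 241 242 (by norm_num)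
  have e13 := pw hN 242 244 (by norm_num)
  have e14 := pw hN 244 245 (by norm_num)
  have e15 := pw hN 245 246 (by norm_num)
  have e16 := pw hN 246 248 (by norm_num)
  have e17 := pw hN 248 250 (by norm_num)
  have e18 := pw hN 250 251 (by norm_num)
  have e19 := pw hN 251 400 (by norm_num)
  have e20 := pw hN 509 510 (by norm_num)
  have e21 := pw hN 510 600 (by norm_num)
  obtain ⟨s, A, hA, s1, s2, s3, s4, s5⟩ := exists_good_s (F := ZMod p) N (N ^ 200) (N ^ 2) (N ^ 244)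
    (8 * N ^ 245) (40 * N ^ 245) (by rw [hc]; exact h3) (by omega) (by rw [hc]; omega)
    (by
      rw [hc]
      have a : 9 * p * (2 * N + 10) ≤ 9 * (2 * N ^ 250) * (3 * N) :=
        Nat.mul_le_mul (by omega) (by omega)
      have b : 9 * (2 * N ^ 250) * (3 * N) = 54 * N ^ 251 := by ring
      have c : (N ^ 200) ^ 2 = N ^ 400 := by ring
      omega)
    (by
      rw [hc]
      have b : (N ^ 2) ^ 2 * N ^ 244 = N ^ 248 := by ring
      omega)
    (by
      have b : (2 * N + 1) * (N ^ 2 + N ^ 244) = 2 * N ^ 3 + N ^ 2 + 2 * N ^ 245 + N ^ 244 := by ring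
      omega)
    (by
      have b : (2 * N + 1) * (N ^ 2 + N ^ 244) = 2 * N ^ 3 + N ^ 2 + 2 * N ^ 245 + N ^ 244 := by ring
      omega)
    (by rw [hc]; omega)
  rw [hc] at hA
  have hJ : ∀ l : Ln (ZMod p), l.1 ∈ JJ (ZMod p) → l ∉ Sof s := fun l h1 h2 => (mem_Sof.mp h2).1 h1
  have m1 : 4 * N ^ 239 * (2 * N) * (2 * N) = 16 * N ^ 241 := by ring
  have m2 : 16 * N ^ 239 * (2 * N) = 32 * N ^ 240 := by ring
  have m3 : 8 * N ^ 239 * (2 * N) * (2 * N) = 32 * N ^ 241 := by ring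
  obtain ⟨D, hD, d1, d2, d3⟩ := build s N (2 * N) (N ^ 242) (N ^ 239) (N ^ 12) (N ^ 200)
    (12 * N ^ 239) (N + 1)
    (fun l hl => by have := (s1 l (hJ l hl)).1; rw [hc]; omega) s2 s5 (by omega)
    (by rw [hc]; omega) (by rw [hc]; omega)
    (by
      rw [hc]
      have b : 2 * (2 * N) * (12 * N ^ 239) = 48 * N ^ 240 := by ring
      omega)
    (by omega) le_rfl
    (by
      rw [hc]
      have a : (p + 1) * p ≤ (2 * 2 ^ N) * 2 ^ N := Nat.mul_le_mul (by omega) h3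
      have b : 4 ^ (2 * N + 1) = 4 * (2 ^ N * 2 ^ N) * (2 ^ N * 2 ^ N) := by
        rw [show (4 : ℕ) = 2 ^ 2 by norm_num, ← pow_mul]; ring
      have c : 2 ≤ 2 ^ N * 2 ^ N := by nlinarith
      rw [b]
      generalize 2 ^ N = y at *
      nlinarith)
    (by omega) (by omega)
    (by
      rw [hc]
      have b : N ^ 12 * N ^ 239 = N ^ 251 := by ring
      omega)
    (by rw [hc, pow_succ]; omega)
    (by
      rw [hc]
      have b : 272 * (N ^ 12) ^ 4 * (N ^ 200 + (N + 1) + 2)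
        = 272 * N ^ 248 + 272 * N ^ 49 + 816 * N ^ 48 := by ring
      omega)
    (by
      rw [hc]
      have a : 3 * p ^ 2 * (72 * (2 * N) ^ 3) ^ 3 ≤ 3 * (2 * N ^ 250) ^ 2 * (72 * (2 * N) ^ 3) ^ 3 :=
        Nat.mul_le_mul_right _ (Nat.mul_le_mul_left _ (Nat.pow_le_pow_left h2 2))
      have b : 3 * (2 * N ^ 250) ^ 2 * (72 * (2 * N) ^ 3) ^ 3 = 2293235712 * N ^ 509 := by ring
      have c : (N ^ 200) ^ 3 = N ^ 600 := by ring
      have d : 0 < N ^ 509 := by positivity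
      omega)
  have key := hD.hypergraph (by
    obtain ⟨f, hf, hfn⟩ := exists_mem_notMem_of_card_lt_card (s := D.Sp \ Sof s)
      (t := univ.image fun a : ZMod p => ((none, a) : Ln (ZMod p))) (by
        rw [card_image_of_injective _ (fun a b e => congrArg Prod.snd e), card_univ, hc]
        omega)
    obtain ⟨a, -, rfl⟩ := mem_image.mp hf
    have h4 := card_avoid_pts ((none, a) : Ln (ZMod p))
      ((unc (Sof s)).filter fun x => On x (none, a)) (fun x hx => (mem_filter.mp hx).2)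
      (D.Sp \ Sof s)
    have h5 := (s1 (none, a) (hJ _ Data.none_mem_JJ)).1
    obtain ⟨x, hx⟩ := card_pos.mp (show 0 < (((unc (Sof s)).filter fun x => On x (none, a)).filter
      fun x => ∀ l ∈ D.Sp \ Sof s, On x l → l = (none, a)).card by omega)
    obtain ⟨x1, x2⟩ := mem_filter.mp hx
    refine ⟨x, mem_unc.mpr fun l hl hon => ?_⟩
    by_cases h : l ∈ Sof s
    · exact mem_unc.mp (mem_filter.mp x1).1 l h hon
    · exact hfn (x2 l (mem_sdiff.mpr ⟨hl, h⟩) hon ▸ mem_sdiff.mpr ⟨hl, h⟩)) (by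
    intro C hC hCd hcov
    have := rigid p (Sof s) A (2 * N ^ 200 + 1) (2 * N ^ 242) (N ^ 2) (N ^ 244) (8 * N ^ 245)
      (40 * N ^ 245) ((card_Sof_le s).trans hc.le)
      (fun l hl e => (mem_Sof.mp hl).1 (e ▸ Data.none_mem_JJ)) s1 hA (by omega) (by omega)
      (by omega) (by omega)
      (by
        have b : N ^ 2 * N ^ 244 = N ^ 246 := by ring
        omega)
      (by
        have b : N ^ 2 * N ^ 244 = N ^ 246 := by ring
        have c : (N ^ 2) ^ 2 = N ^ 4 := by ring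
        omega) s3 s4 (C ∪ (D.Sp \ Sof s))
      (by
        have := card_union_le C (D.Sp \ Sof s)
        rw [hc] at hC
        omega)
      (fun l hl h => by
        rcases mem_union.mp hl with h' | h'
        · exact hCd l h' (d1 h)
        · exact (mem_sdiff.mp h').2 h)
      (fun x hx => by
        by_cases h : x ∈ unc D.Sp
        · obtain ⟨l, hl, hon⟩ := hcov x h
          exact ⟨l, mem_union_left _ hl, hon⟩
        · rw [mem_unc] at h
          push Not at h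
          obtain ⟨l, hl, hon⟩ := h
          exact ⟨l, mem_union_right _ (mem_sdiff.mpr ⟨hl, fun h => mem_unc.mp hx l h hon⟩), hon⟩)
    rcases this with ⟨z, hz⟩ | ⟨d, hd⟩
    · exact Or.inl ⟨z, fun d h => (mem_union.mp (hz d fun h' => h (d1 h'))).resolve_right
        fun h' => h (mem_sdiff.mp h').1⟩
    · exact Or.inr ⟨d, fun a h => (mem_union.mp (hd a fun h' => h (d1 h'))).resolve_right
        fun h' => h (mem_sdiff.mp h').1⟩)
  rw [hc] at key
  exact key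

lemma succ_pow_le (k N : ℕ) (hN : 2 * k ≤ N) : (N + 1) ^ k ≤ 2 * N ^ k := by
  have hr : (2 * k : ℝ) ≤ N := by exact_mod_cast hN
  have h0 : (0 : ℝ) ≤ N := Nat.cast_nonneg N
  have hp1 : (0 : ℝ) < N + 1 := by linarith
  have b := one_add_mul_le_pow (a := -(1 / ((N : ℝ) + 1))) (by
    have : 1 / ((N : ℝ) + 1) ≤ 1 := by rw [div_le_one hp1]; linarith
    linarith) k
  have c : 1 + -(1 / ((N : ℝ) + 1)) = N / (N + 1) := by field_simp; ring
  have d : (k : ℝ) * (1 / ((N : ℝ) + 1)) ≤ 1 / 2 := by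
    rw [mul_one_div, div_le_iff₀ hp1]; linarith
  rw [c, div_pow, le_div_iff₀ (pow_pos hp1 _)] at b
  have e : (0 : ℝ) < ((N : ℝ) + 1) ^ k := pow_pos hp1 _
  have f : ((N : ℝ) + 1) ^ k ≤ 2 * (N : ℝ) ^ k := by
    have g : (1 / 2 : ℝ) * ((N : ℝ) + 1) ^ k ≤
        (1 + k * -(1 / ((N : ℝ) + 1))) * ((N : ℝ) + 1) ^ k :=
      mul_le_mul_of_nonneg_right (by linarith) e.le
    linarith
  exact_mod_cast f

lemma succ_pow_le_two_pow (N : ℕ) (hN : 10000000 ≤ N) : (N + 1) ^ 250 ≤ 2 ^ N := by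
  obtain ⟨a, ha1, ha2⟩ : ∃ a, 500 * a ≤ N ∧ N < 500 * (a + 1) := ⟨N / 500, by omega, by omega⟩
  have b : a + 1 ≤ 2 ^ a := Nat.lt_two_pow_self
  have c : N + 1 ≤ 2 ^ a * 2 ^ a :=
    le_trans (show N + 1 ≤ 500 * (a + 1) by omega) (Nat.mul_le_mul (by omega) b)
  calc (N + 1) ^ 250 ≤ (2 ^ a * 2 ^ a) ^ 250 := Nat.pow_le_pow_left c _
    _ = 2 ^ (500 * a) := by rw [← pow_add, ← pow_mul]; congr 1; ring
    _ ≤ 2 ^ N := Nat.pow_le_pow_right (by norm_num) ha1

lemma exists_root (k K p : ℕ) (hk : k ≠ 0) (hK : 0 < K) (hp : K ^ k ≤ p) :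
    ∃ N, K ≤ N ∧ N ^ k ≤ p ∧ p < (N + 1) ^ k := by
  have hex : ∃ N, p < (N + 1) ^ k :=
    ⟨p, lt_of_lt_of_le (Nat.lt_succ_self p) (Nat.le_self_pow hk _)⟩
  have hlt := Nat.find_spec hex
  have hN : K ≤ Nat.find hex := by
    have := lt_of_pow_lt_pow_left₀ k (Nat.zero_le _) (lt_of_le_of_lt hp hlt)
    omega
  refine ⟨Nat.find hex, hN, ?_, hlt⟩
  have := Nat.find_min hex (m := Nat.find hex - 1) (by omega)
  rw [Nat.sub_add_cancel (by omega)] at this
  exact not_lt.mp this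

lemma exists_param : ∃ q0 : ℕ, ∀ p, q0 ≤ p → ∃ N, 10000000 ≤ N ∧ N ^ 250 ≤ p ∧ p ≤ 2 * N ^ 250 ∧
    p ≤ 2 ^ N := by
  obtain ⟨K, hK⟩ : ∃ K : ℕ, K = 10000000 := ⟨_, rfl⟩
  refine ⟨K ^ 250, fun p hp => ?_⟩
  obtain ⟨N, h1, h2, h3⟩ := exists_root 250 K p (by norm_num) (by omega) hp
  exact ⟨N, hK ▸ h1, h2, h3.le.trans (succ_pow_le 250 N (by omega)),
    h3.le.trans (succ_pow_le_two_pow N (hK ▸ h1))⟩

theorem main : ∃ q0 : ℕ, ∀ p : ℕ, p.Prime → q0 ≤ p →
    ∃ (n : ℕ) (part : Fin n → Fin (p + 1)) (H : Finset (Finset (Fin n))),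
      IsPartite (p + 1) part H ∧ IsIntersecting H ∧ nu H = 1 ∧ tau H = p + 1 := by
  obtain ⟨q0, h⟩ := exists_param
  refine ⟨q0, fun p hp hq => ?_⟩
  obtain ⟨N, hN, h1, h2, h3⟩ := h p hq
  have : Fact p.Prime := ⟨hp⟩
  exact main_param p N hN h1 h2 h3

end Vale.Agent.P045
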