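import Mathlib

/-! Uniform averages over finite product spaces. -/

set_option linter.unusedSectionVars false

namespace Vale.Agent.P045

open Finset

/-- uniform average -/
noncomputable def av {Ω : Type*} [Fintype Ω] (f : Ω → ℝ) : ℝ := (∑ ω, f ω) / Fintype.card Ω

section basic
variable {Ω : Type*} [Fintype Ω]

lemma av_mono {f g : Ω → ℝ} (h : ∀ ω, f ω ≤ g ω) : av f ≤ av g := by
  unfold av
  exact div_le_div_of_nonneg_right (sum_le_sum fun ω _ => h ω) (Nat.cast_nonneg _)

lemma av_nonneg {f : Ω → ℝ} (h : ∀ ω, 0 ≤ f ω) : 0 ≤ av f :=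
  div_nonneg (sum_nonneg fun ω _ => h ω) (Nat.cast_nonneg _)

lemma av_add (f g : Ω → ℝ) : av (fun ω => f ω + g ω) = av f + av g := by
  unfold av; rw [sum_add_distrib, add_div]

lemma av_sum {κ : Type*} (s : Finset κ) (f : κ → Ω → ℝ) :
    av (fun ω => ∑ k ∈ s, f k ω) = ∑ k ∈ s, av (f k) := by
  unfold av; rw [sum_comm, sum_div]

lemma av_mul_left (c : ℝ) (f : Ω → ℝ) : av (fun ω => c * f ω) = c * av f := by
  unfold av; rw [← mul_sum, mul_div_assoc]

lemma av_mul_right (c : ℝ) (f : Ω → ℝ) : av (fun ω => f ω * c) = av f * c := by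
  unfold av; rw [← sum_mul]; ring

lemma av_const [Nonempty Ω] (c : ℝ) : av (fun _ : Ω => c) = c := by
  unfold av
  have : (Fintype.card Ω : ℝ) ≠ 0 := by exact_mod_cast Fintype.card_ne_zero
  simp only [sum_const, card_univ, nsmul_eq_mul]
  field_simp

lemma av_comm {Ω' : Type*} [Fintype Ω'] (f : Ω → Ω' → ℝ) :
    av (fun ω => av (fun ω' => f ω ω')) = av (fun ω' => av (fun ω => f ω ω')) := by
  unfold av
  rw [← sum_div, ← sum_div, sum_comm]
  ring

lemma exists_lt_of_av_lt [Nonempty Ω] {f : Ω → ℝ} {c : ℝ} (h : av f < c) : ∃ ω, f ω < c := by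
  by_contra hc
  push Not at hc
  have := av_mono (f := fun _ => c) hc
  rw [av_const] at this
  linarith

lemma av_indicator (p : Ω → Prop) [DecidablePred p] :
    av (fun ω => if p ω then (1 : ℝ) else 0) = ((univ.filter p).card : ℝ) / Fintype.card Ω := by
  unfold av; simp

end basic

section prod
variable {ι β : Type*} [Fintype ι] [DecidableEq ι] [Fintype β] [Nonempty β]

lemma card_pos' : (0 : ℝ) < Fintype.card β := by exact_mod_cast Fintype.card_pos

/-- conditioning on one coordinate -/
lemma av_coord (i : ι) (h : β → (ι → β) → ℝ)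
    (hi : ∀ b b' ω, h b (Function.update ω i b') = h b ω) :
    av (fun ω : ι → β => h (ω i) ω) = av (fun ω : ι → β => av (fun b => h b ω)) := by
  have key : ∑ ω : ι → β, ∑ b, h b ω = ∑ ω : ι → β, ∑ _b : β, h (ω i) ω := by
    rw [← Fintype.sum_prod_type', ← Fintype.sum_prod_type' (f := fun (ω : ι → β) (_ : β) => h (ω i) ω)]
    let e : (ι → β) × β ≃ (ι → β) × β :=
      { toFun := fun x => (Function.update x.1 i x.2, x.1 i)
        invFun := fun x => (Function.update x.1 i x.2, x.1 i)
        left_inv := fun x => by simp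
        right_inv := fun x => by simp }
    apply Fintype.sum_equiv e
    intro x
    simp [e, hi]
  have hb := card_pos' (β := β)
  unfold av
  rw [← sum_div, key]
  simp only [sum_const, card_univ, nsmul_eq_mul, ← mul_sum]
  field_simp

/-- independence of functions of disjoint sets of coordinates -/
lemma av_mul_indep (V : Finset ι) (f g : (ι → β) → ℝ)
    (hf : ∀ ω ω', (∀ i ∈ V, ω i = ω' i) → f ω = f ω')
    (hg : ∀ ω ω', (∀ i ∉ V, ω i = ω' i) → g ω = g ω') :
    av (fun ω => f ω * g ω) = av f * av g := by
  have key : ∑ ω : ι → β, ∑ ω' : ι → β, f ω * g ω' = ∑ ω : ι → β, ∑ _ω' : ι → β, f ω * g ω := by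
    rw [← Fintype.sum_prod_type', ← Fintype.sum_prod_type'
      (f := fun (ω : ι → β) (_ : ι → β) => f ω * g ω)]
    let e : (ι → β) × (ι → β) ≃ (ι → β) × (ι → β) :=
      { toFun := fun x => (V.piecewise x.1 x.2, V.piecewise x.2 x.1)
        invFun := fun x => (V.piecewise x.1 x.2, V.piecewise x.2 x.1)
        left_inv := fun x => by
          ext i <;> by_cases h : i ∈ V <;> simp [Finset.piecewise, h]
        right_inv := fun x => by
          ext i <;> by_cases h : i ∈ V <;> simp [Finset.piecewise, h] }
    apply Fintype.sum_equiv e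
    intro x
    simp only [e, Equiv.coe_fn_mk]
    rw [hf x.1 (V.piecewise x.1 x.2) (fun i h => by simp [Finset.piecewise, h]),
      hg x.2 (V.piecewise x.1 x.2) (fun i h => by simp [Finset.piecewise, h])]
  have hb : (0 : ℝ) < Fintype.card (ι → β) := by exact_mod_cast Fintype.card_pos
  unfold av
  rw [div_mul_div_comm, sum_mul_sum, key]
  simp only [sum_const, card_univ, nsmul_eq_mul, ← mul_sum]
  field_simp

lemma av_prod_blocks {κ : Type*} [DecidableEq κ] (s : Finset κ) (V : κ → Finset ι)
    (f : κ → (ι → β) → ℝ) (hV : ∀ a ∈ s, ∀ b ∈ s, a ≠ b → Disjoint (V a) (V b))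
    (hf : ∀ a ∈ s, ∀ ω ω', (∀ i ∈ V a, ω i = ω' i) → f a ω = f a ω') :
    av (fun ω => ∏ a ∈ s, f a ω) = ∏ a ∈ s, av (f a) := by
  induction s using Finset.induction_on with
  | empty => simp [av_const]
  | insert a s ha ih =>
    simp only [prod_insert ha]
    rw [av_mul_indep (V a) (f a) _ (hf a (mem_insert_self _ _)),
      ih (fun x hx y hy => hV x (mem_insert_of_mem hx) y (mem_insert_of_mem hy))
        (fun x hx => hf x (mem_insert_of_mem hx))]
    intro ω ω' h
    apply prod_congr rfl
    intro b hb
    apply hf b (mem_insert_of_mem hb)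
    intro i hi
    apply h i
    intro hia
    exact Finset.disjoint_left.mp
      (hV a (mem_insert_self _ _) b (mem_insert_of_mem hb) (fun h => ha (h ▸ hb))) hia hi

lemma av_single (i : ι) (φ : β → ℝ) : av (fun ω : ι → β => φ (ω i)) = av φ := by
  rw [av_coord i (fun b _ => φ b) (fun _ _ _ => rfl), av_const]

lemma av_prod_coord (s : Finset ι) (φ : ι → β → ℝ) :
    av (fun ω : ι → β => ∏ i ∈ s, φ i (ω i)) = ∏ i ∈ s, av (φ i) := by
  rw [av_prod_blocks s (fun i => {i}) (fun i ω => φ i (ω i))
    (fun a _ b _ h => by simpa using h)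
    (fun a _ ω ω' h => by rw [h a (mem_singleton_self a)])]
  exact prod_congr rfl fun i _ => av_single i (φ i)

/-- exponential moment of the number of coordinates falling into (past-dependent) small sets -/
lemma av_pow_count [DecidableEq β] (rk : ι → ℕ) (T : Finset ι) (B : ι → (ι → β) → Finset β)
    (hdep : ∀ i ∈ T, ∀ j ∈ T, rk i ≤ rk j → ∀ ω b, B i (Function.update ω j b) = B i ω)
    (pr : ι → ℝ) (hB : ∀ i ∈ T, ∀ ω, ((B i ω).card : ℝ) ≤ pr i * Fintype.card β)
    (Λ : ℝ) (hΛ : 1 ≤ Λ) :
    av (fun ω : ι → β => Λ ^ (T.filter fun i => ω i ∈ B i ω).card)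
      ≤ Real.exp ((Λ - 1) * ∑ i ∈ T, pr i) := by
  induction T using Finset.induction_on_max_value rk with
  | empty => simp [av_const]
  | insert a s ha hmax ih =>
    have ih' := ih (fun i hi j hj => hdep i (mem_insert_of_mem hi) j (mem_insert_of_mem hj))
      (fun i hi => hB i (mem_insert_of_mem hi))
    have hb := card_pos' (β := β)
    have e1 : ∀ ω : ι → β, Λ ^ ((insert a s).filter fun i => ω i ∈ B i ω).card
        = (if ω a ∈ B a ω then Λ else 1) * Λ ^ (s.filter fun i => ω i ∈ B i ω).card := by
      intro ω
      rw [filter_insert]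
      split_ifs with h
      · rw [card_insert_of_notMem (fun h' => ha (mem_filter.mp h').1), pow_succ']
      · rw [one_mul]
    simp only [e1]
    rw [av_coord a (fun b ω => (if b ∈ B a ω then Λ else 1) *
      Λ ^ (s.filter fun i => ω i ∈ B i ω).card)]
    · have e2 : ∀ ω : ι → β, av (fun b => (if b ∈ B a ω then Λ else 1) *
          Λ ^ (s.filter fun i => ω i ∈ B i ω).card)
          ≤ Real.exp ((Λ - 1) * pr a) * Λ ^ (s.filter fun i => ω i ∈ B i ω).card := by
        intro ω
        rw [av_mul_right]
        apply mul_le_mul_of_nonneg_right _ (by positivity)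
        have : (fun b => if b ∈ B a ω then Λ else 1)
            = fun b => 1 + (Λ - 1) * (if b ∈ B a ω then (1 : ℝ) else 0) := by
          ext b; split_ifs <;> ring
        rw [this, av_add, av_const, av_mul_left, av_indicator]
        have h1 : ((univ.filter fun b => b ∈ B a ω).card : ℝ) / Fintype.card β ≤ pr a := by
          rw [div_le_iff₀ hb]
          simpa using hB a (mem_insert_self _ _) ω
        have h2 := Real.add_one_le_exp ((Λ - 1) * pr a)
        nlinarith
      refine le_trans (av_mono e2) ?_
      rw [av_mul_left, sum_insert ha, mul_add, Real.exp_add]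
      exact mul_le_mul_of_nonneg_left ih' (Real.exp_pos _).le
    · intro b b' ω
      rw [hdep a (mem_insert_self _ _) a (mem_insert_self _ _) le_rfl]
      congr 2
      apply congrArg
      apply filter_congr
      intro i hi
      have hia : i ≠ a := fun h => ha (h ▸ hi)
      rw [hdep i (mem_insert_of_mem hi) a (mem_insert_self _ _) (hmax i hi),
        Function.update_of_ne hia]

/-- fixing the coordinates in `I` -/
lemma av_fix [DecidableEq β] (I : Finset ι) (w : ι → β) (g : (ι → β) → ℝ)
    (hg : ∀ ω ω', (∀ i ∉ I, ω i = ω' i) → g ω = g ω') :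
    av (fun ω => (∏ i ∈ I, if ω i = w i then (1 : ℝ) else 0) * g ω)
      = (1 / Fintype.card β) ^ I.card * av g := by
  rw [av_mul_indep I _ g _ hg, av_prod_coord I (fun i b => if b = w i then (1 : ℝ) else 0)]
  · congr 1
    rw [← prod_const]
    apply prod_congr rfl
    intro i _
    rw [av_indicator]
    simp [filter_eq']
  · intro ω ω' h
    exact prod_congr rfl fun i hi => by rw [h i hi]

/-- the pure death process: every coordinate kills at most one target -/
lemma av_death {τ : Type*} [DecidableEq τ] (kill : ι → β → τ → Prop)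
    [∀ d a x, Decidable (kill d a x)] (Y0 : Finset τ) (T : Finset ι) (κ lam mu : ℝ)
    (hlam : 0 ≤ lam) (hmu : 0 ≤ mu) (hκ0 : 0 ≤ κ) (hκ : κ ≤ Fintype.card β)
    (hone : ∀ d ∈ T, ∀ a, ∀ x ∈ Y0, ∀ y ∈ Y0, kill d a x → kill d a y → x = y)
    (hrate : ∀ d ∈ T, ∀ x ∈ Y0,
      (mu - lam) * (((univ.filter fun a => kill d a x).card : ℝ) - κ) ≤ 0) :
    ∀ Y ⊆ Y0, av (fun ω : ι → β => ∏ x ∈ Y, if ∃ d ∈ T, kill d (ω d) x then mu else lam)
      ≤ (mu + (lam - mu) * (1 - κ / Fintype.card β) ^ T.card) ^ Y.card := by
  have hb := card_pos' (β := β)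
  have hr0 : 0 ≤ 1 - κ / Fintype.card β := by
    rw [sub_nonneg, div_le_one hb]; exact hκ
  have hr1 : 1 - κ / Fintype.card β ≤ 1 := by
    have := div_nonneg hκ0 hb.le
    linarith
  induction T using Finset.induction_on with
  | empty => intro Y _; simp [av_const]
  | insert d T hd ih =>
    intro Y hY
    have ih' := ih (fun e he => hone e (mem_insert_of_mem he))
      (fun e he => hrate e (mem_insert_of_mem he))
    set r := 1 - κ / Fintype.card β with hr
    set b := mu + (lam - mu) * r ^ T.card with hbdef
    have hrn0 : 0 ≤ r ^ T.card := pow_nonneg hr0 _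
    have hrn1 : r ^ T.card ≤ 1 := pow_le_one₀ hr0 hr1
    have hb0 : 0 ≤ b := by
      have : b = mu * (1 - r ^ T.card) + lam * r ^ T.card := by rw [hbdef]; ring
      rw [this]; apply add_nonneg <;> apply mul_nonneg <;> linarith
    have e1 : ∀ ω : ι → β, (∏ x ∈ Y, if ∃ e ∈ insert d T, kill e (ω e) x then mu else lam)
        = ∏ x ∈ Y, if kill d (ω d) x ∨ ∃ e ∈ T, kill e (ω e) x then mu else lam := by
      intro ω
      apply prod_congr rfl
      intro x _
      simp only [mem_insert, exists_eq_or_imp]
    simp only [e1]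
    rw [av_coord d (fun a ω => ∏ x ∈ Y,
      if kill d a x ∨ ∃ e ∈ T, kill e (ω e) x then mu else lam), av_comm]
    · have e2 : ∀ a : β, av (fun ω : ι → β => ∏ x ∈ Y,
          if kill d a x ∨ ∃ e ∈ T, kill e (ω e) x then mu else lam)
          ≤ b ^ Y.card + (∑ x ∈ Y, if kill d a x then (1 : ℝ) else 0) *
            ((mu - b) * b ^ (Y.card - 1)) := by
        intro a
        by_cases hk : ∃ x ∈ Y, kill d a x
        · obtain ⟨x, hx, hkx⟩ := hk
          have huniq : ∀ y ∈ Y.erase x, ¬ kill d a y := by
            intro y hy hky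
            exact (mem_erase.mp hy).1
              (hone d (mem_insert_self _ _) a y (hY (mem_erase.mp hy).2) x (hY hx) hky hkx)
          have e3 : ∀ ω : ι → β, (∏ y ∈ Y,
              if kill d a y ∨ ∃ e ∈ T, kill e (ω e) y then mu else lam)
              = mu * ∏ y ∈ Y.erase x, if ∃ e ∈ T, kill e (ω e) y then mu else lam := by
            intro ω
            rw [← mul_prod_erase Y _ hx, if_pos (Or.inl hkx)]
            congr 1
            apply prod_congr rfl
            intro y hy
            simp only [huniq y hy, false_or]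
          have e4 : (∑ y ∈ Y, if kill d a y then (1 : ℝ) else 0) = 1 := by
            rw [← add_sum_erase Y _ hx, if_pos hkx, sum_eq_zero fun y hy => if_neg (huniq y hy)]
            ring
          simp only [e3]
          rw [av_mul_left, e4]
          have h5 := ih' (Y.erase x) ((erase_subset _ _).trans hY)
          rw [card_erase_of_mem hx] at h5
          have h6 : b ^ Y.card = b * b ^ (Y.card - 1) := by
            rw [← pow_succ', Nat.sub_add_cancel (card_pos.mpr ⟨x, hx⟩)]
          rw [h6]
          nlinarith
        · push Not at hk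
          have e3 : ∀ ω : ι → β, (∏ y ∈ Y,
              if kill d a y ∨ ∃ e ∈ T, kill e (ω e) y then mu else lam)
              = ∏ y ∈ Y, if ∃ e ∈ T, kill e (ω e) y then mu else lam := by
            intro ω
            apply prod_congr rfl
            intro y hy
            simp only [hk y hy, false_or]
          simp only [e3]
          rw [sum_eq_zero fun y hy => if_neg (hk y hy), zero_mul, add_zero]
          exact ih' Y hY
      refine le_trans (av_mono e2) ?_
      rw [av_add, av_const, av_mul_right, av_sum]
      have e5 : (∑ x ∈ Y, av fun a => if kill d a x then (1 : ℝ) else 0) * (mu - b)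
          ≤ Y.card * (κ / Fintype.card β * (mu - b)) := by
        rw [sum_mul, ← nsmul_eq_mul, ← sum_const]
        apply sum_le_sum
        intro x hx
        rw [av_indicator]
        have h1 := hrate d (mem_insert_self _ _) x (hY hx)
        have h2 : mu - b = (mu - lam) * r ^ T.card := by rw [hbdef]; ring
        rw [h2, div_mul_eq_mul_div, div_mul_eq_mul_div]
        apply div_le_div_of_nonneg_right _ hb.le
        nlinarith
      have e6 : mu + (lam - mu) * r ^ (insert d T).card = b + κ / Fintype.card β * (mu - b) := by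
        rw [card_insert_of_notMem hd, pow_succ, hbdef, hr]; ring
      rw [e6]
      have e7 : 0 ≤ 2 * b + κ / Fintype.card β * (mu - b) := by
        have h3 : κ / Fintype.card β = 1 - r := by rw [hr]; ring
        rw [h3]
        nlinarith
      refine le_trans ?_ (pow_add_mul_le_add_pow hb0 e7 Y.card)
      have h8 : 0 ≤ b ^ (Y.card - 1) := pow_nonneg hb0 _
      nlinarith
    · intro a a' ω
      apply prod_congr rfl
      intro x _
      have : (∃ e ∈ T, kill e (Function.update ω d a' e) x) ↔ ∃ e ∈ T, kill e (ω e) x := by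
        apply exists_congr
        intro e
        apply and_congr_right
        intro he
        rw [Function.update_of_ne (fun h : e = d => hd (h ▸ he))]
      simp only [this]

end prod

lemma prod_ite_eq_pow {τ : Type*} (Y : Finset τ) (p : τ → Prop) [DecidablePred p] (mu lam : ℝ) :
    (∏ x ∈ Y, if p x then mu else lam)
      = mu ^ (Y.filter p).card * lam ^ (Y.filter fun x => ¬ p x).card := by
  rw [prod_ite, prod_const, prod_const]

/-- a large independent set in a relation of bounded degree -/
lemma exists_indep {α : Type*} [DecidableEq α] (r : α → α → Prop) [DecidableRel r]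
    (hsymm : ∀ x y, r x y → r y x) (Δ : ℕ) (S : Finset α)
    (hdeg : ∀ x ∈ S, (S.filter fun y => r x y).card ≤ Δ) :
    ∃ I ⊆ S, S.card ≤ (Δ + 1) * I.card ∧ ∀ x ∈ I, ∀ y ∈ I, x ≠ y → ¬ r x y := by
  induction S using Finset.strongInduction with
  | H S ih =>
    rcases S.eq_empty_or_nonempty with rfl | ⟨x, hx⟩
    · exact ⟨∅, by simp⟩
    · let S' := (S.erase x).filter fun y => ¬ r x y
      have hS' : S' ⊆ S := (filter_subset _ _).trans (erase_subset _ _)
      have hxS' : x ∉ S' := fun h => by simpa using (mem_filter.mp h).1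
      obtain ⟨I, hI, hc, hind⟩ := ih S' ⟨hS', fun h => hxS' (h hx)⟩
        (fun y hy => le_trans (card_le_card (filter_subset_filter _ hS')) (hdeg y (hS' hy)))
      have hxI : x ∉ I := fun h => hxS' (hI h)
      refine ⟨insert x I, insert_subset hx (hI.trans hS'), ?_, ?_⟩
      · rw [card_insert_of_notMem hxI]
        have h1 : S ⊆ insert x (S' ∪ S.filter fun y => r x y) := by
          intro y hy
          by_cases hyx : y = x
          · simp [hyx]
          · by_cases hr : r x y <;> simp [S', hy, hyx, hr]
        have h2 := card_le_card h1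
        have h3 := card_insert_le x (S' ∪ S.filter fun y => r x y)
        have h4 := card_union_le S' (S.filter fun y => r x y)
        have h5 := hdeg x hx
        nlinarith
      · intro a ha b hb hab
        rw [mem_insert] at ha hb
        rcases ha with rfl | ha <;> rcases hb with rfl | hb
        · exact absurd rfl hab
        · exact (mem_filter.mp (hI hb)).2
        · exact fun h => (mem_filter.mp (hI ha)).2 (hsymm _ _ h)
        · exact hind a ha b hb hab

end Vale.Agent.P045
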