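import Vale.Agent.P045.Prob
import Vale.Agent.P045.Concrete

/-! Probabilities of events and the random set of lines. -/

set_option linter.unusedSectionVars false

namespace Vale.Agent.P045

open Finset

open Classical in
/-- probability of an event under the uniform measure -/
noncomputable def pr {Ω : Type*} [Fintype Ω] (p : Ω → Prop) : ℝ :=
  av fun ω => if p ω then (1 : ℝ) else 0

section pr
variable {Ω : Type*} [Fintype Ω]

lemma pr_nonneg (p : Ω → Prop) : 0 ≤ pr p := by
  unfold pr
  exact av_nonneg fun ω => by split_ifs <;> norm_num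

/-- Markov inequality -/
lemma pr_le_av {p : Ω → Prop} {f : Ω → ℝ} (h0 : ∀ ω, 0 ≤ f ω) (h1 : ∀ ω, p ω → 1 ≤ f ω) :
    pr p ≤ av f := by
  unfold pr
  apply av_mono
  intro ω
  split_ifs with h
  · exact h1 ω h
  · exact h0 ω

/-- Markov inequality with a threshold -/
lemma pr_le_av_div {p : Ω → Prop} {f : Ω → ℝ} {c : ℝ} (hc : 0 < c) (h0 : ∀ ω, 0 ≤ f ω)
    (h1 : ∀ ω, p ω → c ≤ f ω) : pr p ≤ av f / c := by
  have := pr_le_av (p := p) (f := fun ω => f ω * c⁻¹)
    (fun ω => mul_nonneg (h0 ω) (inv_nonneg.mpr hc.le))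
    (fun ω h => by rw [← div_eq_mul_inv, le_div_iff₀ hc, one_mul]; exact h1 ω h)
  rwa [av_mul_right, ← div_eq_mul_inv] at this

lemma pr_mono {p p' : Ω → Prop} (h : ∀ ω, p ω → p' ω) : pr p ≤ pr p' := by
  apply pr_le_av
  · intro ω; split_ifs <;> norm_num
  · intro ω hp; rw [if_pos (h ω hp)]

lemma pr_or (p p' : Ω → Prop) : pr (fun ω => p ω ∨ p' ω) ≤ pr p + pr p' := by
  unfold pr
  rw [← av_add]
  apply av_mono
  intro ω
  by_cases h : p ω <;> by_cases h' : p' ω <;> simp [h, h']

/-- union bound -/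
lemma pr_exists {κ : Type*} (s : Finset κ) (p : κ → Ω → Prop) :
    pr (fun ω => ∃ k ∈ s, p k ω) ≤ ∑ k ∈ s, pr (p k) := by
  classical
  unfold pr
  rw [← av_sum]
  apply av_mono
  intro ω
  split_ifs with h
  · obtain ⟨k, hk, hp⟩ := h
    refine le_trans ?_ (single_le_sum (f := fun k => if p k ω then (1 : ℝ) else 0)
      (fun k _ => by split_ifs <;> norm_num) hk)
    simp [hp]
  · exact sum_nonneg fun k _ => by split_ifs <;> norm_num

lemma pr_exists_le {κ : Type*} (s : Finset κ) (p : κ → Ω → Prop) (c : ℝ)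
    (h : ∀ k ∈ s, pr (p k) ≤ c) : pr (fun ω => ∃ k ∈ s, p k ω) ≤ s.card * c := by
  refine (pr_exists s p).trans ?_
  rw [← nsmul_eq_mul, ← sum_const]
  exact sum_le_sum h

lemma exists_not_of_pr_lt_one [Nonempty Ω] {p : Ω → Prop} (h : pr p < 1) : ∃ ω, ¬ p ω := by
  obtain ⟨ω, hω⟩ := exists_lt_of_av_lt h
  refine ⟨ω, fun hp => ?_⟩
  simp [hp] at hω

end pr

variable {F : Type} [Field F] [Fintype F] [DecidableEq F]

/-- the ordinary directions -/
def OD (F : Type) [Field F] [Fintype F] [DecidableEq F] : Finset (Dir F) :=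
  univ.filter fun d => d ∉ JJ F

@[simp] lemma mem_OD {d : Dir F} : d ∈ OD F ↔ d ∉ JJ F := by simp [OD]

lemma card_OD_le : (OD F).card + 1 ≤ Fintype.card F := by
  have h1 : OD F ⊆ (univ : Finset (Dir F)) \ {none, some 0} := by
    intro d hd
    rw [mem_OD] at hd
    simp only [mem_sdiff, mem_univ, true_and, mem_insert, mem_singleton]
    rintro (rfl | rfl)
    · exact hd Data.none_mem_JJ
    · exact hd Data.zero_mem_JJ
  have h2 := card_le_card h1
  rw [card_sdiff_of_subset (subset_univ _), card_univ, card_Dir, card_pair (by simp)] at h2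
  have : 2 ≤ Fintype.card F := Fintype.one_lt_card
  omega

lemma card_JJ_le : (JJ F).card ≤ 4 := card_le_four

lemma le_card_OD : Fintype.card F ≤ (OD F).card + 3 := by
  have h := card_filter_add_card_filter_not (s := (univ : Finset (Dir F))) (fun d => d ∈ JJ F)
  have h2 : (univ.filter fun d : Dir F => d ∈ JJ F) = JJ F := by ext d; simp
  rw [h2, card_univ, card_Dir] at h
  have := card_JJ_le (F := F)
  unfold OD
  omega

/-- one line in every ordinary direction -/
def Sof (s : Dir F → F) : Finset (Ln F) := (OD F).image fun d => (d, s d)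

lemma mem_Sof {s : Dir F → F} {l : Ln F} : l ∈ Sof s ↔ l.1 ∉ JJ F ∧ l.2 = s l.1 := by
  unfold Sof
  rw [mem_image]
  constructor
  · rintro ⟨d, hd, rfl⟩; exact ⟨mem_OD.mp hd, rfl⟩
  · rintro ⟨h1, h2⟩; exact ⟨l.1, mem_OD.mpr h1, by rw [← h2]⟩

lemma card_Sof_le (s : Dir F → F) : (Sof s).card ≤ Fintype.card F :=
  card_image_le.trans (le_trans (Nat.le_succ _) card_OD_le)

/-- a point of an ordinary line is a cell for at most four values of the parameter -/
lemma card_pc_eq_le (L : Ln F) (z : Pt F) :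
    (univ.filter fun α : F => ∃ i j, pc L α i j = z).card ≤ 4 := by
  have : (univ.filter fun α : F => ∃ i j, pc L α i j = z) ⊆
      (univ : Finset (Bool × Bool)).image fun t => z.1 - bit t.1 - bit t.2 * (slope L)⁻¹ := by
    intro α hα
    obtain ⟨i, j, rfl⟩ := (mem_filter.mp hα).2
    exact mem_image.mpr ⟨(i, j), mem_univ _, by simp only [pc, xa]; ring⟩
  exact (card_le_card this).trans (card_image_le.trans (by simp))

/-- another line meets the cells of at most four values of the parameter -/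
lemma card_pc_on_le {L l : Ln F} (hL : L.1 ∉ JJ F) (hl : l ≠ L) :
    (univ.filter fun α : F => ∃ i j, On (pc L α i j) l).card ≤ 4 := by
  rcases (univ.filter fun α : F => ∃ i j, On (pc L α i j) l).eq_empty_or_nonempty with h | ⟨a, ha⟩
  · rw [h]; simp
  · obtain ⟨i, j, hij⟩ := (mem_filter.mp ha).2
    refine le_trans (card_le_card ?_) (card_pc_eq_le L (pc L a i j))
    intro b hb
    obtain ⟨i', j', hij'⟩ := (mem_filter.mp hb).2
    exact mem_filter.mpr ⟨mem_univ _, i', j',
      point_unique hl hij' hij (pc_on hL _ _ _) (pc_on hL _ _ _)⟩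

/-- a large set of parameters with pairwise disjoint cells -/
lemma exists_disjoint_cells (L : Ln F) (C : Finset F) : ∃ I ⊆ C, C.card ≤ 17 * I.card ∧
    ∀ α ∈ I, ∀ β ∈ I, ∀ i j i' j', pc L α i j = pc L β i' j' → α = β := by
  classical
  obtain ⟨I, hI, hc, hind⟩ := exists_indep (fun α β : F => ∃ i j i' j', pc L α i j = pc L β i' j')
    (fun x y ⟨i, j, i', j', h⟩ => ⟨i', j', i, j, h.symm⟩) 16 C (by
      intro x _
      have : (C.filter fun y => ∃ i j i' j', pc L x i j = pc L y i' j') ⊆
          (univ : Finset (Bool × Bool)).biUnion fun t =>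
            univ.filter fun α : F => ∃ i j, pc L α i j = pc L x t.1 t.2 := by
        intro y hy
        obtain ⟨i, j, i', j', h⟩ := (mem_filter.mp hy).2
        exact mem_biUnion.mpr ⟨(i, j), mem_univ _, mem_filter.mpr ⟨mem_univ _, i', j', h.symm⟩⟩
      refine (card_le_card this).trans (card_biUnion_le.trans ?_)
      refine (sum_le_sum fun t _ => card_pc_eq_le L _).trans ?_
      simp)
  refine ⟨I, hI, hc, fun α hα β hβ i j i' j' h => ?_⟩
  by_contra hne
  exact hind α hα β hβ hne ⟨i, j, i', j', h⟩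

end Vale.Agent.P045
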